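import Vale.Agent.P184.Minor

/-!
# P184: weighted Cauchy-Binet (Andreief) estimates
-/

namespace Vale.Agent.P184

open Finset

variable {Ξ Ξ' κ : Type*} [Fintype Ξ] [Fintype Ξ']

theorem det_sum_rows {p : ℕ} (A : Fin p → Ξ → ℝ) (B : Ξ → Fin p → ℝ) :
    (Matrix.of fun i j => ∑ ξ, A i ξ * B ξ j).det =
      ∑ g : Fin p → Ξ, (∏ i, A i (g i)) * (Matrix.of fun i j => B (g i) j).det := by
  rw [← Matrix.det_transpose, Matrix.det_apply']
  simp only [Matrix.transpose_apply, Matrix.of_apply, Fintype.prod_sum, mul_sum]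
  rw [sum_comm]
  refine sum_congr rfl fun g _ => ?_
  rw [← Matrix.det_transpose, Matrix.det_apply', mul_sum]
  refine sum_congr rfl fun σ _ => ?_
  simp only [Matrix.transpose_apply, Matrix.of_apply, prod_mul_distrib]
  ring

/-- Andreief identity. -/
theorem andreief {p : ℕ} (A : Fin p → Ξ → ℝ) (B : Ξ → Fin p → ℝ) :
    (p.factorial : ℝ) * (Matrix.of fun i j => ∑ ξ, A i ξ * B ξ j).det =
      ∑ g : Fin p → Ξ, (Matrix.of fun i j => A i (g j)).det *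
        (Matrix.of fun i j => B (g i) j).det := by
  have h1 : ∀ g : Fin p → Ξ, (Matrix.of fun i j => A i (g j)).det *
      (Matrix.of fun i j => B (g i) j).det = ∑ σ : Equiv.Perm (Fin p),
        (((Equiv.Perm.sign σ : ℤ) : ℝ) * ∏ j, A (σ j) (g j)) *
          (Matrix.of fun i j => B (g i) j).det := by
    intro g
    rw [Matrix.det_apply', sum_mul]
    rfl
  simp only [h1]
  rw [sum_comm, sum_congr rfl (g := fun _ => (Matrix.of fun i j => ∑ ξ, A i ξ * B ξ j).det),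
    sum_const, card_univ, Fintype.card_perm, Fintype.card_fin, nsmul_eq_mul]
  intro σ _
  rw [det_sum_rows, ← Equiv.sum_comp (Equiv.arrowCongr σ.symm (Equiv.refl Ξ))]
  refine sum_congr rfl fun g _ => ?_
  have h2 := Matrix.det_permute σ (Matrix.of fun i j => B (g i) j)
  have h3 : ((Equiv.Perm.sign σ : ℤ) : ℝ) * ((Equiv.Perm.sign σ : ℤ) : ℝ) = 1 := by
    rw [← Int.cast_mul, Int.units_coe_mul_self, Int.cast_one]
  change (_ * ∏ j, A (σ j) (g (σ j))) *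
    ((Matrix.of fun i j => B (g i) j).submatrix σ id).det = _
  rw [h2, Equiv.prod_comp σ fun i => A i (g i)]
  linear_combination (∏ i, A i (g i)) * (Matrix.of fun i j => B (g i) j).det * h3

theorem andreief_w {p : ℕ} (ω : Ξ → ℝ) (X Y : Ξ → Fin p → ℝ) :
    (p.factorial : ℝ) * (Matrix.of fun i j => ∑ ξ, ω ξ * X ξ i * Y ξ j).det =
      ∑ g : Fin p → Ξ, (∏ i, ω (g i)) * ((Matrix.of fun i j => X (g i) j).det *
        (Matrix.of fun i j => Y (g i) j).det) := by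
  rw [andreief (fun i ξ => ω ξ * X ξ i) Y]
  refine sum_congr rfl fun g _ => ?_
  rw [← mul_assoc, ← Matrix.det_transpose (Matrix.of fun i j => X (g i) j),
    ← Matrix.det_mul_row]
  rfl

theorem wcs {ι : Type*} [Fintype ι] (w a b : ι → ℝ) (hw : ∀ i, 0 ≤ w i) :
    (∑ i, w i * (a i * b i)) ^ 2 ≤ (∑ i, w i * a i ^ 2) * ∑ i, w i * b i ^ 2 :=
  sum_sq_le_sum_mul_sum_of_sq_le_mul _ (fun i _ => mul_nonneg (hw i) (sq_nonneg _))
    (fun i _ => mul_nonneg (hw i) (sq_nonneg _)) fun i _ => le_of_eq (by ring)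

theorem Cw_nonneg (ω : Ξ → ℝ) (hω : ∀ ξ, 0 ≤ ω ξ) (B : Ξ → κ → ℝ) {p : ℕ} (h : Fin p → κ) :
    0 ≤ Cw ω B h :=
  sum_nonneg fun _ _ => mul_nonneg (prod_nonneg fun _ _ => hω _) (sq_nonneg _)

theorem Ew_nonneg (ω : Ξ → ℝ) (hω : ∀ ξ, 0 ≤ ω ξ) (ω' : Ξ' → ℝ) (hω' : ∀ ξ, 0 ≤ ω' ξ)
    (K : Ξ → Ξ' → ℝ) (p : ℕ) : 0 ≤ Ew ω ω' K p :=
  sum_nonneg fun _ _ => sum_nonneg fun _ _ => mul_nonneg
    (mul_nonneg (prod_nonneg fun _ _ => hω _) (prod_nonneg fun _ _ => hω' _)) (sq_nonneg _)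

theorem Cw_le (ω : Ξ → ℝ) (hω : ∀ ξ, 0 ≤ ω ξ) (B : Ξ → κ → ℝ) {p : ℕ} (h : Fin p → κ) :
    Cw ω B h ≤ p.factorial * ∏ j, ∑ ξ, ω ξ * B ξ (h j) ^ 2 := by
  classical
  have h1 := andreief_w ω (fun ξ j => B ξ (h j)) (fun ξ j => B ξ (h j))
  simp only [← sq] at h1
  have h2 : (Matrix.of fun i j => ∑ ξ, ω ξ * B ξ (h i) * B ξ (h j)).PosSemidef := by
    have h3 := (Matrix.PosSemidef.diagonal (d := ω) hω).conjTranspose_mul_mul_same
      (Matrix.of fun ξ j => B ξ (h j))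
    have h4 : (Matrix.of fun ξ j => B ξ (h j)).conjTranspose * Matrix.diagonal ω *
        (Matrix.of fun ξ j => B ξ (h j)) =
        Matrix.of fun i j => ∑ ξ, ω ξ * B ξ (h i) * B ξ (h j) := by
      ext i j
      rw [Matrix.mul_apply, Matrix.of_apply]
      refine sum_congr rfl fun ξ _ => ?_
      rw [Matrix.mul_diagonal, Matrix.conjTranspose_apply, Matrix.of_apply, Matrix.of_apply,
        star_trivial, mul_comm (ω ξ)]
    rwa [h4] at h3
  rw [Cw, ← h1]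
  refine mul_le_mul_of_nonneg_left ((det_le_prod_diag _ h2).trans (le_of_eq ?_)) (by positivity)
  simp only [Matrix.of_apply, sq, mul_assoc]

theorem Ew_le (ω : Ξ → ℝ) (hω : ∀ ξ, 0 ≤ ω ξ) (ω' : Ξ' → ℝ) (hω' : ∀ ξ, 0 ≤ ω' ξ)
    (K : Ξ → Ξ' → ℝ) (p : ℕ) :
    Ew ω ω' K p ≤ p.factorial * (∑ ξ, ∑ ξ', ω ξ * ω' ξ' * K ξ ξ' ^ 2) ^ p := by
  rw [Ew, sum_comm, sum_comm (s := (univ : Finset Ξ)), Fintype.sum_pow, mul_sum]
  refine sum_le_sum fun g' _ => ?_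
  have h1 := mul_le_mul_of_nonneg_left (Cw_le ω hω K g')
    (prod_nonneg fun i _ => hω' (g' i) : 0 ≤ ∏ i, ω' (g' i))
  refine le_trans (le_of_eq ?_) (h1.trans (le_of_eq ?_))
  · rw [Cw, mul_sum]
    exact sum_congr rfl fun g _ => by ring
  · rw [mul_left_comm, ← prod_mul_distrib]
    congr 1
    refine prod_congr rfl fun j _ => ?_
    rw [mul_sum]
    exact sum_congr rfl fun ξ _ => by ring

theorem Cw_comp (ω : Ξ → ℝ) (hω : ∀ ξ, 0 ≤ ω ξ) (ω' : Ξ' → ℝ) (hω' : ∀ ξ, 0 ≤ ω' ξ)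
    (L : Ξ → Ξ' → ℝ) (B : Ξ' → κ → ℝ) {p : ℕ} (h : Fin p → κ) :
    (p.factorial : ℝ) ^ 2 * Cw ω (fun ξ l => ∑ ξ', ω' ξ' * L ξ ξ' * B ξ' l) h ≤
      Ew ω ω' L p * Cw ω' B h := by
  rw [Cw, Ew, mul_sum, sum_mul]
  refine sum_le_sum fun g _ => ?_
  have h1 := andreief_w ω' (fun ξ' i => L (g i) ξ') (fun ξ' j => B ξ' (h j))
  have h2 := wcs (fun g' : Fin p → Ξ' => ∏ i, ω' (g' i))
    (fun g' => (Matrix.of fun i j => L (g j) (g' i)).det)
    (fun g' => (Matrix.of fun i j => B (g' i) (h j)).det) fun g' => prod_nonneg fun _ _ => hω' _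
  rw [← h1] at h2
  have h3 := mul_le_mul_of_nonneg_left h2 (prod_nonneg fun i _ => hω (g i) : 0 ≤ ∏ i, ω (g i))
  refine le_trans (le_of_eq (by ring)) (h3.trans (le_of_eq ?_))
  rw [← mul_assoc]
  refine congrArg₂ (fun a b : ℝ => a * b) ?_ rfl
  rw [mul_sum]
  refine sum_congr rfl fun g' _ => ?_
  rw [← Matrix.det_transpose, mul_assoc]
  rfl

theorem det_sandwich (ω : Ξ → ℝ) (hω : ∀ ξ, 0 ≤ ω ξ) (ω' : Ξ' → ℝ) (hω' : ∀ ξ, 0 ≤ ω' ξ)
    (K : Ξ → Ξ' → ℝ) (B : Ξ → κ → ℝ) (B' : Ξ' → κ → ℝ) {p : ℕ} (f h : Fin p → κ) :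
    (p.factorial : ℝ) ^ 4 * (Matrix.of fun i j =>
        ∑ ξ, ∑ ξ', (ω ξ * B ξ (f i)) * K ξ ξ' * (ω' ξ' * B' ξ' (h j))).det ^ 2 ≤
      Ew ω ω' K p * (Cw ω B f * Cw ω' B' h) := by
  have h1 := andreief_w ω (fun ξ i => B ξ (f i))
    (fun ξ j => ∑ ξ', ω' ξ' * K ξ ξ' * B' ξ' (h j))
  have h2 := wcs (fun g : Fin p → Ξ => ∏ i, ω (g i))
    (fun g => (Matrix.of fun i j => B (g i) (f j)).det)
    (fun g => (Matrix.of fun i j => ∑ ξ', ω' ξ' * K (g i) ξ' * B' ξ' (h j)).det)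
    fun g => prod_nonneg fun _ _ => hω _
  rw [← h1] at h2
  have h3 := mul_le_mul_of_nonneg_left (Cw_comp ω hω ω' hω' K B' h) (Cw_nonneg ω hω B f)
  have h4 := mul_le_mul_of_nonneg_left h2 (sq_nonneg (p.factorial : ℝ))
  have h5 : (Matrix.of fun i j =>
        ∑ ξ, ∑ ξ', (ω ξ * B ξ (f i)) * K ξ ξ' * (ω' ξ' * B' ξ' (h j))) =
      Matrix.of fun i j => ∑ ξ, ω ξ * B ξ (f i) * ∑ ξ', ω' ξ' * K ξ ξ' * B' ξ' (h j) := by
    ext i j
    simp only [Matrix.of_apply, mul_sum]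
    exact sum_congr rfl fun ξ _ => sum_congr rfl fun ξ' _ => by ring
  rw [h5]
  refine le_trans (le_of_eq (by ring)) (h4.trans (le_trans (le_of_eq ?_)
    (h3.trans (le_of_eq (by ring)))))
  rw [mul_left_comm]
  rfl

theorem Ew_le_of_det_le (ω : Ξ → ℝ) (hω : ∀ ξ, 0 ≤ ω ξ) (ω' : Ξ' → ℝ) (hω' : ∀ ξ, 0 ≤ ω' ξ)
    (K : Ξ → Ξ' → ℝ) (p : ℕ) (t : ℝ)
    (hK : ∀ (g : Fin p → Ξ) (g' : Fin p → Ξ'),
      |(Matrix.of fun i j => K (g i) (g' j)).det| ≤ t ^ p) :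
    Ew ω ω' K p ≤ (t ^ 2 * (∑ ξ, ω ξ) * ∑ ξ', ω' ξ') ^ p := by
  rw [mul_pow, mul_pow, Fintype.sum_pow, Fintype.sum_pow, mul_assoc, sum_mul_sum, mul_sum, Ew]
  refine sum_le_sum fun g _ => ?_
  rw [mul_sum]
  refine sum_le_sum fun g' _ => ?_
  rw [mul_comm ((t ^ 2) ^ p)]
  refine mul_le_mul_of_nonneg_left ?_
    (mul_nonneg (prod_nonneg fun _ _ => hω _) (prod_nonneg fun _ _ => hω' _))
  rw [← pow_mul, mul_comm, pow_mul, ← sq_abs]
  exact pow_le_pow_left₀ (abs_nonneg _) (hK g g') 2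

/-- Threshold matrices with classes are totally unimodular. -/
theorem abs_det_threshold_le {X : Type*} [DecidableEq X] {p : ℕ} (c c' : Fin p → X)
    (φ ψ : Fin p → ℕ) :
    |(Matrix.of fun i j => if c i = c' j ∧ ψ j < φ i then (1 : ℝ) else 0).det| ≤ 1 := by
  induction p with
  | zero => simp
  | succ p ih =>
    obtain ⟨i, -, hi⟩ := exists_min_image univ φ univ_nonempty
    have key : ∀ j j', c i = c' j ∧ ψ j < φ i → c i = c' j' ∧ ψ j' < φ i →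
        ∀ k, c k = c' j ∧ ψ j < φ k → c k = c' j' ∧ ψ j' < φ k := fun j j' h1 h2 k h3 =>
      ⟨h3.1.trans (h1.1.symm.trans h2.1), h2.2.trans_le (hi k (mem_univ k))⟩
    by_cases h : ∃ j j', j ≠ j' ∧ (c i = c' j ∧ ψ j < φ i) ∧ (c i = c' j' ∧ ψ j' < φ i)
    · obtain ⟨j, j', hne, h1, h2⟩ := h
      rw [Matrix.det_zero_of_column_eq hne fun k => ?_]
      · simp
      · exact if_congr ⟨key j j' h1 h2 k, key j' j h2 h1 k⟩ rfl rfl
    · rw [Matrix.det_succ_row _ i]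
      refine (abs_sum_le_sum_abs _ _).trans ((sum_le_sum (g := fun j =>
        if c i = c' j ∧ ψ j < φ i then (1 : ℝ) else 0) fun j _ => ?_).trans ?_)
      · rw [abs_mul, abs_mul, abs_pow, abs_neg, abs_one, one_pow, one_mul, Matrix.of_apply]
        have h1 := ih (c ∘ i.succAbove) (c' ∘ j.succAbove) (φ ∘ i.succAbove) (ψ ∘ j.succAbove)
        split_ifs
        · rw [abs_one, one_mul]; exact h1
        · simp
      · rw [sum_boole, Nat.cast_le_one, card_le_one]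
        intro j hj j' hj'
        by_contra hne
        exact h ⟨j, j', hne, (mem_filter.1 hj).2, (mem_filter.1 hj').2⟩

/-- Interval matrices with classes. -/
theorem abs_det_interval_le {X : Type*} [DecidableEq X] {p : ℕ} (c c' : Fin p → X)
    (lo hi ψ : Fin p → ℕ) :
    |(Matrix.of fun i j => if c i = c' j ∧ lo i ≤ ψ j ∧ ψ j < hi i then (1 : ℝ) else 0).det| ≤
      2 ^ p := by
  let A : Fin p → Fin p → ℝ := fun i j => if c i = c' j ∧ ψ j < max (hi i) (lo i) then 1 else 0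
  let B : Fin p → Fin p → ℝ := fun i j => -if c i = c' j ∧ ψ j < lo i then 1 else 0
  have h1 : (Matrix.of fun i j => if c i = c' j ∧ lo i ≤ ψ j ∧ ψ j < hi i then (1 : ℝ) else 0) =
      Matrix.of (A + B) := by
    ext i j
    simp only [Matrix.of_apply, Pi.add_apply, A, B, lt_max_iff]
    by_cases h2 : c i = c' j <;> by_cases h3 : ψ j < lo i <;> by_cases h4 : ψ j < hi i <;>
      simp [h2, h3, h4, not_le.2, not_lt.1]
  have h2 : (Matrix.of (A + B)).det = ∑ s : Finset (Fin p), (Matrix.of (s.piecewise A B)).det :=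
    (Matrix.detRowAlternating (n := Fin p) (R := ℝ)).toMultilinearMap.map_add_univ A B
  rw [h1, h2]
  refine (abs_sum_le_sum_abs _ _).trans ((sum_le_sum (g := fun _ => (1 : ℝ)) fun s _ => ?_).trans
    (by simp))
  have h3 : Matrix.of (s.piecewise A B) = Matrix.of fun i j => (if i ∈ s then (1 : ℝ) else -1) *
      (Matrix.of fun i j => if c i = c' j ∧ ψ j < (if i ∈ s then max (hi i) (lo i) else lo i)
        then (1 : ℝ) else 0) i j := by
    ext i j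
    by_cases hs : i ∈ s <;> simp [hs, A, B, neg_ite]
  rw [h3, Matrix.det_mul_column, abs_mul, abs_prod,
    prod_eq_one (fun i _ => by split_ifs <;> simp), one_mul]
  exact abs_det_threshold_le _ _ _ _

end Vale.Agent.P184
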