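import Vale.Agent.P184.Andreief

/-!
# P184: minor bounds along a chain
-/

namespace Vale.Agent.P184

open Finset

variable {X κ : Type*} {Y : Finset X} {lam : κ → ℝ} {J : ℕ} {h : ℕ → ℕ} {A : ℕ → ℝ}
  {Tmax : ℕ} {β0 : ℝ} {ω : ℕ → ℕ → X → ℝ} {B : ℕ → ℕ → X → κ → ℝ}

theorem pow_le_factorial_mul (y s : ℝ) (hy : 0 ≤ y) (hs : 0 < s) (p : ℕ) :
    y ^ p ≤ p.factorial * ((y / s) ^ p * Real.exp s) := by
  have h1 := Real.pow_div_factorial_le_exp s hs.le p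
  rw [div_le_iff₀ (by positivity)] at h1
  have h2 := mul_le_mul_of_nonneg_left h1 (pow_nonneg (div_nonneg hy hs.le) p)
  rw [← mul_pow, div_mul_cancel₀ _ hs.ne'] at h2
  exact h2.trans (le_of_eq (by ring))

namespace ChainBd

theorem sum_fin_Y (Y : Finset X) (T : ℕ) (F : ℕ → X → ℝ) :
    ∑ ξ : Fin T × Y, F ξ.1 ξ.2 = ∑ a ∈ range T, ∑ x ∈ Y, F a x := by
  rw [Fintype.sum_prod_type, ← Fin.sum_univ_eq_sum_range fun a => ∑ x ∈ Y, F a x]
  exact sum_congr rfl fun a _ => sum_coe_sort Y (F a)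

theorem sum_range_window {T a L : ℕ} (hle : a + L ≤ T) (G : ℕ → ℝ) :
    ∑ b ∈ range T, (if a ≤ b ∧ b < a + L then G b else 0) = ∑ u ∈ range L, G (a + u) := by
  have h1 : (range T).filter (fun b => a ≤ b ∧ b < a + L) = Ico a (a + L) := by
    ext b
    simp only [mem_filter, mem_range, mem_Ico]
    omega
  rw [← sum_filter, h1, sum_Ico_eq_sum_range, Nat.add_sub_cancel_left]

/-- A kernel supported in a window. -/
noncomputable def Kw (c L : ℕ) (K : ℕ → X → ℕ → X → ℝ) (a : ℕ) (x : X) (b : ℕ) (z : X) : ℝ :=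
  if a + c ≤ b ∧ b < a + c + L then K a x (b - (a + c)) z else 0

theorem sum_Kw (Y : Finset X) {T c L a : ℕ} (hle : a + c + L ≤ T) (K : ℕ → X → ℕ → X → ℝ)
    (x : X) (Φ : ℕ → X → ℝ → ℝ) (hΦ : ∀ b z, Φ b z 0 = 0) :
    ∑ ξ : Fin T × Y, Φ ξ.1 ξ.2 (Kw c L K a x ξ.1 ξ.2) =
      ∑ u ∈ range L, ∑ z ∈ Y, Φ (a + c + u) z (K a x u z) := by
  rw [sum_fin_Y Y T fun b z => Φ b z (Kw c L K a x b z)]
  have h1 := sum_range_window hle fun b => ∑ z ∈ Y, Φ b z (K a x (b - (a + c)) z)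
  simp only [Nat.add_sub_cancel_left] at h1
  rw [← h1]
  refine sum_congr rfl fun b _ => ?_
  unfold Kw
  split_ifs
  · rfl
  · simp [hΦ]

theorem Ew_Kw_le (Y : Finset X) {m T c L : ℕ} (hle : m + c + L ≤ T + 1)
    (K : ℕ → X → ℕ → X → ℝ) (w w' : ℕ → X → ℝ) (hw : ∀ a x, 0 ≤ w a x)
    (hw' : ∀ a x, 0 ≤ w' a x) {M M' θ : ℝ} (hM : ∀ a, ∑ x ∈ Y, w a x ≤ M)
    (hM' : ∀ a, ∑ x ∈ Y, w' a x ≤ M') (hK : ∀ a x u z, |K a x u z| ≤ θ) (p : ℕ) :
    Ew (fun ξ : Fin m × Y => w ξ.1 ξ.2) (fun ξ : Fin T × Y => w' ξ.1 ξ.2)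
      (fun ξ ξ' => Kw c L K ξ.1 ξ.2 ξ'.1 ξ'.2) p ≤
      p.factorial * (m * L * M * M' * θ ^ 2) ^ p := by
  have hM0 : 0 ≤ M' := (sum_nonneg fun x _ => hw' 0 x).trans (hM' 0)
  refine (Ew_le _ (fun _ => hw _ _) _ (fun _ => hw' _ _) _ p).trans
    (mul_le_mul_of_nonneg_left (pow_le_pow_left₀ (sum_nonneg fun _ _ => sum_nonneg fun _ _ =>
      mul_nonneg (mul_nonneg (hw _ _) (hw' _ _)) (sq_nonneg _)) ?_ p) (by positivity))
  refine (sum_le_sum (g := fun ξ : Fin m × Y => w ξ.1 ξ.2 * (L * M' * θ ^ 2)) fun ξ _ => ?_).trans ?_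
  · have h1 := ξ.1.2
    rw [sum_Kw Y (by omega) K ξ.2 (fun b z t => w ξ.1 ξ.2 * w' b z * t ^ 2) (by simp)]
    refine (sum_le_sum (g := fun _ => w ξ.1 ξ.2 * (M' * θ ^ 2)) fun u _ => ?_).trans
      (le_of_eq (by rw [sum_const, card_range, nsmul_eq_mul]; ring))
    refine (sum_le_sum (g := fun z => w ξ.1 ξ.2 * θ ^ 2 * w' (ξ.1 + c + u) z) fun z _ => ?_).trans ?_
    · have h2 : K ξ.1 ξ.2 u z ^ 2 ≤ θ ^ 2 := by
        rw [← sq_abs]
        exact pow_le_pow_left₀ (abs_nonneg _) (hK _ _ _ _) 2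
      exact (mul_le_mul_of_nonneg_left h2 (mul_nonneg (hw _ _) (hw' _ _))).trans
        (le_of_eq (by ring))
    · rw [← mul_sum]
      exact (mul_le_mul_of_nonneg_left (hM' _) (mul_nonneg (hw _ _) (sq_nonneg _))).trans
        (le_of_eq (by ring))
  · rw [← sum_mul, sum_fin_Y Y m w]
    have h2 : ∑ a ∈ range m, ∑ x ∈ Y, w a x ≤ m * M :=
      (sum_le_sum fun a _ => hM a).trans (by rw [sum_const, card_range, nsmul_eq_mul])
    exact (mul_le_mul_of_nonneg_right h2 (by positivity)).trans (le_of_eq (by ring))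

theorem A_nonneg (hc : Chain Y lam J h A Tmax β0 ω B) {j : ℕ} (hj : j ≤ J) : 0 ≤ A j :=
  (sum_nonneg fun x _ => hc.nonneg j 0 x).trans (hc.mass j hj 0)

theorem Gam_nonneg (hc : Chain Y lam J h A Tmax β0 ω B) {s : ℝ} (hs : 0 < s) {j : ℕ}
    (hj : j ≤ J) : 0 ≤ Gam h A Tmax β0 s j := by
  refine mul_nonneg hc.beta_nonneg (prod_nonneg fun i hi => ?_)
  have h1 := mem_range.1 hi
  have h2 := A_nonneg hc (j := i) (by omega)
  have h3 := A_nonneg hc (j := i + 1) (by omega)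
  positivity

end ChainBd

open ChainBd

/-- The basic chain estimate. -/
theorem Chain.Cw_le (hc : Chain Y lam J h A Tmax β0 ω B) {s : ℝ} (hs : 0 < s) (j : ℕ)
    (hj : j ≤ J) (T : ℕ) (hT : T + ∑ i ∈ range j, h i ≤ Tmax) {p : ℕ} (f : Fin p → κ) :
    Cw (Ξ := Fin T × Y) (fun ξ => ω j ξ.1 ξ.2) (fun ξ i => B j ξ.1 ξ.2 i) f ≤
      p.factorial * (∏ i, lam (f i)) ^ 2 * (Gam h A Tmax β0 s j ^ p * Real.exp (j * s)) := by
  induction j generalizing T with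
  | zero =>
    refine (P184.Cw_le _ (fun _ => hc.nonneg _ _ _) _ f).trans ?_
    rw [mul_assoc]
    refine mul_le_mul_of_nonneg_left ((prod_le_prod (g := fun i => β0 * lam (f i) ^ 2)
      (fun i _ => sum_nonneg fun _ _ => mul_nonneg (hc.nonneg _ _ _) (sq_nonneg _))
      fun i _ => ?_).trans (le_of_eq ?_)) (by positivity)
    · rw [sum_fin_Y Y T fun a x => ω 0 a x * B 0 a x (f i) ^ 2]
      refine (sum_le_sum_of_subset_of_nonneg (range_subset_range.2 (by simpa using hT))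
        fun _ _ _ => sum_nonneg fun _ _ => mul_nonneg (hc.nonneg _ _ _) (sq_nonneg _)).trans
        (hc.base _)
    · simp [Gam, prod_mul_distrib, prod_pow, mul_comm]
  | succ j ih =>
    obtain ⟨Λ, hΛ, hB⟩ := hc.step j hj
    rw [sum_range_succ] at hT
    have hh : (0 : ℝ) < h j := Nat.cast_pos.2 (hc.h_pos j)
    have a1 := A_nonneg hc hj
    have a2 := A_nonneg hc (j := j) (by omega)
    have a3 := Gam_nonneg hc hs (j := j) (by omega)
    have h1 := ih (by omega) (T + h j) (by omega)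
    have h2 := Cw_comp (fun ξ : Fin T × Y => ω (j + 1) ξ.1 ξ.2) (fun _ => hc.nonneg _ _ _)
      (fun ξ : Fin (T + h j) × Y => ω j ξ.1 ξ.2) (fun _ => hc.nonneg _ _ _)
      (fun ξ ξ' => Kw 1 (h j) (fun a x u z => (h j : ℝ)⁻¹ * Λ a x u z) ξ.1 ξ.2 ξ'.1 ξ'.2)
      (fun ξ i => B j ξ.1 ξ.2 i) f
    have h3 := Ew_Kw_le Y (m := T) (T := T + h j) (c := 1) (L := h j) (by omega)
      (fun a x u z => (h j : ℝ)⁻¹ * Λ a x u z) (ω (j + 1)) (ω j) (hc.nonneg _) (hc.nonneg _)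
      (hc.mass _ hj) (hc.mass j (by omega)) (θ := (h j : ℝ)⁻¹) (fun a x u z => by
        rw [abs_mul, abs_of_pos (inv_pos.2 hh)]
        exact mul_le_of_le_one_right (inv_pos.2 hh).le (hΛ _ _ _ _)) p
    have h4 : (fun (ξ : Fin T × Y) l => ∑ ξ' : Fin (T + h j) × Y, ω j ξ'.1 ξ'.2 *
        Kw 1 (h j) (fun a x u z => (h j : ℝ)⁻¹ * Λ a x u z) ξ.1 ξ.2 ξ'.1 ξ'.2 *
          B j ξ'.1 ξ'.2 l) = fun ξ i => B (j + 1) ξ.1 ξ.2 i := by
      funext ξ l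
      have := ξ.1.2
      rw [sum_Kw Y (by omega) _ _ (fun b z t => ω j b z * t * B j b z l) (by simp),
        hB _ _ ξ.2.2, mul_sum]
      refine sum_congr rfl fun u _ => ?_
      rw [mul_sum, Nat.add_right_comm]
      exact sum_congr rfl fun z _ => by ring
    rw [h4] at h2
    have h5 : (T : ℝ) * h j * A (j + 1) * A j * (h j : ℝ)⁻¹ ^ 2 ≤
        Tmax * A (j + 1) * A j / h j := by
      have h6 : (T : ℝ) ≤ Tmax := Nat.cast_le.2 (by omega)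
      refine le_trans (le_of_eq ?_) (div_le_div_of_nonneg_right
        (mul_le_mul_of_nonneg_right (mul_le_mul_of_nonneg_right h6 a1) a2) hh.le)
      field_simp
    have h6 := (pow_le_pow_left₀ (by positivity) h5 p).trans
      (pow_le_factorial_mul _ s (by positivity) hs p)
    have h7 := h2.trans (mul_le_mul (h3.trans (mul_le_mul_of_nonneg_left h6 (by positivity))) h1
      (Cw_nonneg _ (fun _ => hc.nonneg _ _ _) _ _) (by positivity))
    refine le_of_mul_le_mul_left (h7.trans (le_of_eq ?_))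
      (by positivity : (0 : ℝ) < (p.factorial : ℝ) ^ 2)
    rw [Gam, Gam, prod_range_succ, ← mul_assoc β0, mul_pow, div_div, Nat.cast_succ, add_mul,
      one_mul, Real.exp_add]
    ring

theorem Chain.minorBd_of (hc : Chain Y lam J h A Tmax β0 ω B) {s : ℝ} (hs : 0 < s) (j : ℕ)
    (hj : j ≤ J) (m T : ℕ) (hm : m ≤ T) (hT : T + ∑ i ∈ range j, h i ≤ Tmax)
    (K : Fin m × Y → Fin T × Y → ℝ) {z x0 : ℝ} (hz : 0 ≤ z)
    (hE : ∀ p, Ew (fun ξ : Fin m × Y => ω j ξ.1 ξ.2) (fun ξ : Fin T × Y => ω j ξ.1 ξ.2) K p ≤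
      (p.factorial : ℝ) ^ 2 * (z ^ p * Real.exp s ^ 2))
    (hx : z * Gam h A Tmax β0 s j ^ 2 ≤ x0 ^ 4) :
    MinorBd (fun i l => ∑ ξ : Fin m × Y, ∑ ξ' : Fin T × Y,
        (ω j ξ.1 ξ.2 * B j ξ.1 ξ.2 i) * K ξ ξ' * (ω j ξ'.1 ξ'.2 * B j ξ'.1 ξ'.2 l))
      lam x0 (Real.exp ((j + 1) * s)) := by
  intro p f g
  have a3 := Gam_nonneg hc hs hj
  have h1 := det_sandwich (fun ξ : Fin m × Y => ω j ξ.1 ξ.2) (fun _ => hc.nonneg _ _ _)
    (fun ξ : Fin T × Y => ω j ξ.1 ξ.2) (fun _ => hc.nonneg _ _ _) K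
    (fun ξ i => B j ξ.1 ξ.2 i) (fun ξ i => B j ξ.1 ξ.2 i) f g
  have h2 := h1.trans (mul_le_mul (hE p) (mul_le_mul (hc.Cw_le hs j hj m (by omega) f)
    (hc.Cw_le hs j hj T hT g) (Cw_nonneg _ (fun _ => hc.nonneg _ _ _) _ _) (by positivity))
    (mul_nonneg (Cw_nonneg _ (fun _ => hc.nonneg _ _ _) _ _)
      (Cw_nonneg _ (fun _ => hc.nonneg _ _ _) _ _)) (by positivity))
  have h3 := pow_le_pow_left₀ (by positivity) hx p
  have h4 : 0 ≤ ∏ i, lam (f i) := prod_nonneg fun _ _ => hc.lam_nonneg _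
  have h5 : 0 ≤ ∏ i, lam (g i) := prod_nonneg fun _ _ => hc.lam_nonneg _
  refine abs_le_of_sq_le_sq ?_ (by rw [pow_mul]; positivity)
  refine le_of_mul_le_mul_left (h2.trans ?_) (by positivity : (0 : ℝ) < (p.factorial : ℝ) ^ 4)
  have h6 := mul_le_mul_of_nonneg_left h3 (by positivity : 0 ≤ (p.factorial : ℝ) ^ 4 *
    (Real.exp (j * s) * Real.exp s * ((∏ i, lam (f i)) * ∏ i, lam (g i))) ^ 2)
  rw [add_mul, one_mul, Real.exp_add]
  exact le_trans (le_of_eq (by ring)) (h6.trans (le_of_eq (by ring)))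

/-- Minor bound for a window level. -/
theorem Chain.minorBd_window (hc : Chain Y lam J h A Tmax β0 ω B) {s : ℝ} (hs : 0 < s) (j : ℕ)
    (hj : j ≤ J) (m L : ℕ) (hT : m + L + ∑ i ∈ range j, h i ≤ Tmax)
    (K : ℕ → X → ℕ → X → ℝ) (hK : ∀ a x u y, |K a x u y| ≤ 1) {x0 : ℝ}
    (hx : m * L * A j ^ 2 * Gam h A Tmax β0 s j ^ 2 / s ≤ x0 ^ 4) :
    MinorBd (fun i l => ∑ a ∈ range m, ∑ u ∈ range L, ∑ x ∈ Y, ∑ y ∈ Y,
        (ω j a x * B j a x i) * K a x u y * (ω j (a + u) y * B j (a + u) y l))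
      lam x0 (Real.exp ((j + 1) * s)) := by
  have h1 := hc.minorBd_of hs j hj m (m + L) (by omega) hT
    (fun ξ ξ' => Kw 0 L K ξ.1 ξ.2 ξ'.1 ξ'.2) (z := m * L * A j ^ 2 / s) (x0 := x0) (by positivity)
    (fun p => ?_) (le_trans (le_of_eq (by ring)) hx)
  · have h2 : (fun i l => ∑ a ∈ range m, ∑ u ∈ range L, ∑ x ∈ Y, ∑ y ∈ Y,
        (ω j a x * B j a x i) * K a x u y * (ω j (a + u) y * B j (a + u) y l)) =
        fun i l => ∑ ξ : Fin m × Y, ∑ ξ' : Fin (m + L) × Y, (ω j ξ.1 ξ.2 * B j ξ.1 ξ.2 i) *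
          Kw 0 L K ξ.1 ξ.2 ξ'.1 ξ'.2 * (ω j ξ'.1 ξ'.2 * B j ξ'.1 ξ'.2 l) := by
      funext i l
      rw [sum_congr rfl fun a _ => sum_comm, ← sum_fin_Y Y m fun a x => ∑ u ∈ range L, ∑ y ∈ Y,
        (ω j a x * B j a x i) * K a x u y * (ω j (a + u) y * B j (a + u) y l)]
      refine sum_congr rfl fun ξ _ => ?_
      have := ξ.1.2
      rw [sum_Kw Y (by omega) _ _
        (fun b z t => ω j ξ.1 ξ.2 * B j ξ.1 ξ.2 i * t * (ω j b z * B j b z l)) (by simp)]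
      rfl
    rw [h2]
    exact h1
  · have h3 := Ew_Kw_le Y (m := m) (T := m + L) (c := 0) (L := L) (by omega) K (ω j) (ω j)
      (hc.nonneg _) (hc.nonneg _) (hc.mass _ hj) (hc.mass _ hj) hK p
    have h4 := pow_le_factorial_mul (m * L * A j ^ 2) s (by positivity) hs p
    have h5 : Real.exp s ≤ Real.exp s ^ 2 := le_self_pow₀ (Real.one_le_exp hs.le) two_ne_zero
    rw [one_pow, mul_one, mul_assoc _ (A j), ← sq] at h3
    refine h3.trans ((mul_le_mul_of_nonneg_left h4 (by positivity)).trans ?_)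
    rw [← mul_assoc, ← sq]
    gcongr

/-- Minor bound for the last level. -/
theorem Chain.minorBd_delta (hc : Chain Y lam J h A Tmax β0 ω B) {s : ℝ} (hs : 0 < s) (j : ℕ)
    (hj : j ≤ J) (m L : ℕ) (hT : m + L + ∑ i ∈ range j, h i ≤ Tmax)
    (len : X → ℕ) (hlen : ∀ x, len x ≤ L) {x0 : ℝ}
    (hx : 4 * m * Tmax * A j ^ 2 * Gam h A Tmax β0 s j ^ 2 / s ^ 2 ≤ x0 ^ 4) :
    MinorBd (fun i l => ∑ a ∈ range m, ∑ x ∈ Y,
        (ω j a x * B j a x i) * ∑ u ∈ range (len x), (ω j (a + u) x * B j (a + u) x l))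
      lam x0 (Real.exp ((j + 1) * s)) := by
  classical
  have a1 := A_nonneg hc hj
  have h1 := hc.minorBd_of hs j hj m (m + L) (by omega) hT
    (fun ξ ξ' => if ξ.2 = ξ'.2 ∧ (ξ.1 : ℕ) ≤ ξ'.1 ∧ (ξ'.1 : ℕ) < ξ.1 + len ξ.2 then 1 else 0)
    (z := 4 * m * Tmax * A j ^ 2 / s / s) (x0 := x0) (by positivity)
    (fun p => ?_) (le_trans (le_of_eq (by ring)) hx)
  · have h2 : (fun i l => ∑ a ∈ range m, ∑ x ∈ Y,
        (ω j a x * B j a x i) * ∑ u ∈ range (len x), (ω j (a + u) x * B j (a + u) x l)) =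
        fun i l => ∑ ξ : Fin m × Y, ∑ ξ' : Fin (m + L) × Y, (ω j ξ.1 ξ.2 * B j ξ.1 ξ.2 i) *
          (if ξ.2 = ξ'.2 ∧ (ξ.1 : ℕ) ≤ ξ'.1 ∧ (ξ'.1 : ℕ) < ξ.1 + len ξ.2 then 1 else 0) *
          (ω j ξ'.1 ξ'.2 * B j ξ'.1 ξ'.2 l) := by
      funext i l
      rw [← sum_fin_Y Y m fun a x =>
        (ω j a x * B j a x i) * ∑ u ∈ range (len x), (ω j (a + u) x * B j (a + u) x l)]
      refine sum_congr rfl fun ξ _ => ?_
      have := ξ.1.2
      have := hlen ξ.2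
      rw [← sum_range_window (T := m + L) (by omega) fun b => ω j b ξ.2 * B j b ξ.2 l,
        ← Fin.sum_univ_eq_sum_range fun b => if (ξ.1 : ℕ) ≤ b ∧ b < ξ.1 + len ξ.2 then
          ω j b ξ.2 * B j b ξ.2 l else 0, mul_sum, Fintype.sum_prod_type]
      refine sum_congr rfl fun b _ => ?_
      rw [sum_eq_single ξ.2 (fun z _ hz => by simp [hz.symm]) (by simp)]
      simp
    rw [h2]
    exact h1
  · have h3 := Ew_le_of_det_le (fun ξ : Fin m × Y => ω j ξ.1 ξ.2) (fun _ => hc.nonneg _ _ _)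
      (fun ξ : Fin (m + L) × Y => ω j ξ.1 ξ.2) (fun _ => hc.nonneg _ _ _)
      (fun ξ ξ' => if ξ.2 = ξ'.2 ∧ (ξ.1 : ℕ) ≤ ξ'.1 ∧ (ξ'.1 : ℕ) < ξ.1 + len ξ.2 then 1 else 0)
      p 2 fun g g' => abs_det_interval_le (fun i => (g i).2) (fun i => (g' i).2)
        (fun i => (g i).1) (fun i => (g i).1 + len (g i).2) fun i => (g' i).1
    have hm : ∀ T : ℕ, ∑ ξ : Fin T × Y, ω j ξ.1 ξ.2 ≤ T * A j := fun T => by
      rw [sum_fin_Y Y T (ω j)]
      exact (sum_le_sum fun a _ => hc.mass j hj a).trans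
        (by rw [sum_const, card_range, nsmul_eq_mul])
    have hn : ∀ T : ℕ, 0 ≤ ∑ ξ : Fin T × Y, ω j ξ.1 ξ.2 := fun T =>
      sum_nonneg fun _ _ => hc.nonneg _ _ _
    have h4 : ((m + L : ℕ) : ℝ) ≤ Tmax := Nat.cast_le.2 (by omega)
    have h5 : 2 ^ 2 * (∑ ξ : Fin m × Y, ω j ξ.1 ξ.2) * ∑ ξ : Fin (m + L) × Y, ω j ξ.1 ξ.2 ≤
        4 * m * Tmax * A j ^ 2 :=
      (mul_le_mul (mul_le_mul_of_nonneg_left (hm m) (by positivity))
        ((hm _).trans (mul_le_mul_of_nonneg_right h4 a1)) (hn _) (by positivity)).trans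
        (le_of_eq (by ring))
    have h6 := pow_le_factorial_mul (4 * m * Tmax * A j ^ 2) s (by positivity) hs p
    have h7 := pow_le_factorial_mul (4 * m * Tmax * A j ^ 2 / s) s (by positivity) hs p
    refine h3.trans ((pow_le_pow_left₀ (mul_nonneg (mul_nonneg (by positivity) (hn _)) (hn _))
      h5 p).trans (h6.trans ?_))
    exact (mul_le_mul_of_nonneg_left (mul_le_mul_of_nonneg_right h7 (by positivity))
      (by positivity)).trans (le_of_eq (by ring))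

end Vale.Agent.P184
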