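import Vale.Agent.P184.Deform

/-!
# P184: configurations, basic facts and total weight
-/

namespace Vale.Agent.P184

open Finset

section monoid
variable {M : Type*} [Monoid M] {N m : ℕ}

theorem vert_zero (a : Fin N → ZMod m) (E : Fin N → M) (t : ℕ) :
    vert a E 0 t = base a E t := by
  simp [vert]

theorem vert_succ (a : Fin N → ZMod m) (E : Fin N → M) (p : Fin N) (t : ℕ) :
    vert a E p.succ t = vert a E p.castSucc t * st a E t p := by
  rw [vert, vert, Fin.partialProd_succ, mul_assoc]

theorem vert_last (a : Fin N → ZMod m) (E : Fin N → M) (t : ℕ) :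
    vert a E (Fin.last N) t = base a E (t + 1) := by
  rw [vert, base, Fin.partialProd, List.take_of_length_le (by simp)]

theorem st_add_period (a : Fin N → ZMod m) (E : Fin N → M) (t : ℕ) :
    st a E (t + m) = st a E t := by
  funext p
  simp [st]

theorem base_add_period (a : Fin N → ZMod m) (E : Fin N → M) (t : ℕ) :
    base a E (t + m) = base a E m * base a E t := by
  induction t with
  | zero => simp [base]
  | succ t ih => rw [add_right_comm, base, ih, st_add_period, base, mul_assoc]

/-- the letters in the order in which they occur before time `t` -/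
def ordL (a : Fin N → ZMod m) (t : ℕ) : List (Fin N) :=
  (List.range t).flatMap fun j : ℕ => (List.finRange N).filter fun p => decide ((j : ZMod m) = a p)

theorem prod_map_ite_filter {ι : Type*} (P : ι → Prop) [DecidablePred P] (E : ι → M)
    (l : List ι) : (l.map fun p => if P p then E p else 1).prod =
      ((l.filter fun p => decide (P p)).map E).prod := by
  induction l with
  | nil => simp
  | cons x l ih => by_cases h : P x <;> simp [h, ih]

theorem base_eq_ordL (a : Fin N → ZMod m) (E : Fin N → M) (t : ℕ) :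
    base a E t = ((ordL a t).map E).prod := by
  induction t with
  | zero => simp [base, ordL]
  | succ t ih =>
    rw [base, ih, ordL, ordL, List.range_succ, List.flatMap_append, List.map_append,
      List.prod_append, List.flatMap_singleton, List.ofFn_eq_map, ← prod_map_ite_filter]
    rfl

theorem exists_perm_ordL [NeZero m] (a : Fin N → ZMod m) :
    ∃ ρ : Equiv.Perm (Fin N), ordL a m = List.ofFn ρ := by
  have hnd : (ordL a m).Nodup := by
    rw [ordL, List.nodup_flatMap]
    refine ⟨fun j _ => (List.nodup_finRange N).filter _,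
      List.nodup_range.pairwise_of_forall_ne fun i hi j hj hij p hp hp' => hij ?_⟩
    have e1 := of_decide_eq_true (List.mem_filter.1 hp).2
    have e2 := of_decide_eq_true (List.mem_filter.1 hp').2
    have e := congrArg ZMod.val (e1.trans e2.symm)
    rwa [ZMod.val_cast_of_lt (List.mem_range.1 hi), ZMod.val_cast_of_lt (List.mem_range.1 hj)] at e
  have hmem : ∀ p, p ∈ ordL a m := fun p =>
    List.mem_flatMap.2 ⟨(a p).val, List.mem_range.2 (ZMod.val_lt _), by simp⟩
  let f := hnd.getEquivOfForallMemList _ hmem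
  have hlen : (ordL a m).length = N := by simpa using Fintype.card_congr f
  refine ⟨(finCongr hlen.symm).trans f, List.ext_getElem (by simp [hlen]) fun i h1 h2 => ?_⟩
  simp [f]

/-- One period is the product of the letters in a suitable order. -/
theorem exists_perm_base [NeZero m] (a : Fin N → ZMod m) :
    ∃ ρ : Equiv.Perm (Fin N), ∀ {M : Type*} [Monoid M] (E : Fin N → M),
      base a E m = (List.ofFn fun p => E (ρ p)).prod := by
  obtain ⟨ρ, hρ⟩ := exists_perm_ordL a
  refine ⟨ρ, fun E => ?_⟩
  rw [base_eq_ordL, hρ, List.map_ofFn]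
  rfl

end monoid

variable {G A : Type*} [Group G] [NormedRing A] [NormOneClass A] [CompleteSpace A]
  {tr : A →+ ℝ} {c : ℝ} {e : G → A} {C : Set G} {N m : ℕ}

theorem qp_vert (a : Fin N → ZMod m) (H : Fin N → G) (p : Fin (N + 1)) :
    QP m (base a H m) (vert a H p) := by
  intro t
  rw [vert, vert, base_add_period, st_add_period, mul_assoc]

omit [CompleteSpace A] in
theorem norm_prod_ofFn_le (f : Fin N → A) : ‖(List.ofFn f).prod‖ ≤ ∏ p, ‖f p‖ := by
  refine (List.norm_prod_le _).trans_eq ?_
  rw [List.map_ofFn, List.prod_ofFn]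
  rfl

theorem abs_wt_le [NeZero m] (hI : Idem tr c e C) (a : Fin N → ZMod m) (H : Fin N → G) :
    |wt tr e C a H| ≤ c * ∏ p, ‖e (H p)‖ := by
  obtain ⟨ρ, hρ⟩ := exists_perm_base a
  rw [wt, ← Real.norm_eq_abs]
  refine (norm_indicator_le_norm_self _ _).trans ((hI.bound _).trans
    (mul_le_mul_of_nonneg_left ?_ hI.c_nonneg))
  rw [hρ, ← Equiv.prod_comp ρ]
  exact norm_prod_ofFn_le _

theorem hasSum_prod_pi (f : G → ℝ) (hf0 : ∀ g, 0 ≤ f g) (hf : Summable f) (N : ℕ) :
    HasSum (fun H : Fin N → G => ∏ p, f (H p)) ((∑' g, f g) ^ N) := by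
  induction N with
  | zero => simp
  | succ N ih =>
    rw [← (Fin.consEquiv fun _ : Fin (N + 1) => G).hasSum_iff, pow_succ']
    have h0 : Summable fun x : G × (Fin N → G) => f x.1 * ∏ p, f (x.2 p) :=
      Summable.mul_of_nonneg (g := fun H : Fin N → G => ∏ p, f (H p)) hf ih.summable hf0
        fun H => Finset.prod_nonneg fun p _ => hf0 _
    have h := HasSum.mul (g := fun H : Fin N → G => ∏ p, f (H p)) hf.hasSum ih h0
    have e : ((fun H : Fin (N + 1) → G => ∏ p, f (H p)) ∘ Fin.consEquiv fun _ => G) =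
        fun x : G × (Fin N → G) => f x.1 * ∏ p, f (x.2 p) := by
      funext x
      simp [Fin.prod_univ_succ, Fin.consEquiv]
    rw [e]
    exact h

theorem summable_wt [NeZero m] (hI : Idem tr c e C) (a : Fin N → ZMod m) :
    Summable fun H : Fin N → G => |wt tr e C a H| :=
  Summable.of_nonneg_of_le (fun _ => abs_nonneg _) (abs_wt_le hI a)
    ((hasSum_prod_pi _ (fun _ => norm_nonneg _) hI.summable N).summable.mul_left c)

theorem hasSum_words (hs : Summable fun g => ‖e g‖)
    (hi : ∀ g, HasSum (fun h => e h * e (h⁻¹ * g)) (e g)) (N : ℕ) {tr : A →+ ℝ} {c : ℝ}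
    (hc : 0 ≤ c) (hb : ∀ x, |tr x| ≤ c * ‖x‖) (C : Set G) :
    HasSum (fun H : Fin (N + 1) → G =>
      C.indicator (fun _ => tr (List.ofFn fun p => e (H p)).prod) (List.ofFn H).prod)
      (tauC tr e C) := by
  have hsum : ∀ (N : ℕ) {tr : A →+ ℝ} {c : ℝ}, 0 ≤ c → (∀ x, |tr x| ≤ c * ‖x‖) → ∀ C : Set G,
      Summable fun H : Fin N → G =>
        C.indicator (fun _ => tr (List.ofFn fun p => e (H p)).prod) (List.ofFn H).prod := by
    intro N tr c hc hb C
    refine Summable.of_norm_bounded
      ((hasSum_prod_pi _ (fun _ => norm_nonneg _) hs N).summable.mul_left c) fun H => ?_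
    exact (norm_indicator_le_norm_self _ _).trans ((hb _).trans
      (mul_le_mul_of_nonneg_left (norm_prod_ofFn_le _) hc))
  induction N generalizing tr c C with
  | zero =>
    have h := (hsum 1 hc hb C).hasSum
    rw [← (Equiv.funUnique (Fin 1) G).symm.tsum_eq] at h
    have e : ∀ g, C.indicator (fun _ => tr (List.ofFn fun p =>
        e ((Equiv.funUnique (Fin 1) G).symm g p)).prod)
        (List.ofFn ((Equiv.funUnique (Fin 1) G).symm g)).prod =
        C.indicator (fun g => tr (e g)) g := by
      intro g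
      by_cases hg : g ∈ C <;> simp [hg]
    simp only [e] at h
    exact h
  | succ N ih =>
    let q : L1 G A := L1.mk e hs
    have hq : q * q = q := L1.ext' fun g => (hi g).tsum_eq
    have h1 := tauC_mul hb C q q
    rw [hq] at h1
    have h2 : HasSum (fun h => tauC (tr.comp (AddMonoidHom.mulLeft (e h))) e {g | h * g ∈ C})
        (tauC tr e C) := by
      refine h1.prod_fiberwise fun h => ?_
      have := (h1.summable.prod_factor h).hasSum
      have e : ∀ g, C.indicator (fun _ => tr (q.fn h * q.fn g)) (h * g) =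
          {g | h * g ∈ C}.indicator
            (fun g => (tr.comp (AddMonoidHom.mulLeft (e h))) (e g)) g := by
        intro g
        by_cases hg : h * g ∈ C <;> simp [hg, q]
      simp only [e] at this ⊢
      exact this
    have h3 := (hsum (N + 1 + 1) hc hb C).hasSum
    have h4 := ((Fin.consEquiv fun _ : Fin (N + 1 + 1) => G).hasSum_iff.2 h3).prod_fiberwise
      (g := fun h => tauC (tr.comp (AddMonoidHom.mulLeft (e h))) e {g | h * g ∈ C}) fun h => by
        have := ih (tr := tr.comp (AddMonoidHom.mulLeft (e h))) (c := c * ‖e h‖) (by positivity)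
          (fun x => (hb _).trans (by
            rw [mul_assoc]; exact mul_le_mul_of_nonneg_left (norm_mul_le _ _) hc))
          {g | h * g ∈ C}
        refine this.congr_fun fun H => ?_
        by_cases hH : h * (List.ofFn H).prod ∈ C <;>
          simp [Fin.consEquiv, List.ofFn_succ (n := N + 1), hH, -List.ofFn_succ]
    rw [h2.unique h4]
    exact h3

theorem tsum_wt [NeZero m] (hI : Idem tr c e C) (a : Fin (N + 1) → ZMod m) :
    ∑' H : Fin (N + 1) → G, wt tr e C a H = tauC tr e C := by
  obtain ⟨ρ, hρ⟩ := exists_perm_ordL a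
  rw [← (hasSum_words hI.summable hI.idem N hI.c_nonneg hI.bound C).tsum_eq,
    ← (Equiv.arrowCongr ρ.symm (Equiv.refl G)).tsum_eq fun H : Fin (N + 1) → G =>
      C.indicator (fun _ => tr (List.ofFn fun p => e (H p)).prod) (List.ofFn H).prod]
  refine tsum_congr fun H => ?_
  rw [wt, base_eq_ordL, base_eq_ordL, hρ, List.map_ofFn, List.map_ofFn]
  rfl

theorem abs_sgnA (a : Fin N → ZMod m) : |sgnA a| = 1 := by
  rw [sgnA, Finset.abs_prod]
  refine Finset.prod_eq_one fun p _ => ?_
  rw [Finset.abs_prod]
  refine Finset.prod_eq_one fun q _ => ?_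
  split_ifs <;> simp

theorem sgnA_cons (s : ZMod m) (a : Fin N → ZMod m) :
    sgnA (Fin.cons s a : Fin (N + 1) → ZMod m) =
      (∏ q, if (a q).val < s.val then (-1 : ℝ) else 1) * sgnA a := by
  simp [sgnA, Fin.prod_univ_succ]

theorem sum_pi_succ [NeZero m] (f : (Fin (N + 1) → ZMod m) → ℝ) :
    ∑ a, f a = ∑ s, ∑ a : Fin N → ZMod m, f (Fin.cons s a) := by
  rw [← (Fin.consEquiv fun _ : Fin (N + 1) => ZMod m).sum_comp, Fintype.sum_prod_type]
  rfl

theorem sum_antisymm [NeZero m] (χ : ZMod m → ℝ) (h : ∀ s, χ s * χ s = 1) :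
    ∑ s, ∑ t, (if t.val < s.val then (-1 : ℝ) else 1) * χ s * χ t = m := by
  have e : ∀ s t : ZMod m, (if t.val < s.val then (-1 : ℝ) else 1) * χ s * χ t +
      (if s.val < t.val then (-1 : ℝ) else 1) * χ t * χ s = if s = t then 2 else 0 := by
    intro s t
    by_cases hst : s = t
    · subst hst
      simp [h s]
      norm_num
    · have : s.val ≠ t.val := fun h => hst (ZMod.val_injective m h)
      rcases lt_or_gt_of_ne this with h | h
      · simp [h, h.not_gt, hst, mul_comm]
      · simp [h, h.not_gt, hst, mul_comm]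
  have e2 : ∑ s, ∑ t, ((if t.val < s.val then (-1 : ℝ) else 1) * χ s * χ t +
      (if s.val < t.val then (-1 : ℝ) else 1) * χ t * χ s) = 2 * m := by
    simp only [e]
    simp [mul_comm]
  simp only [Finset.sum_add_distrib] at e2
  rw [Finset.sum_comm (f := fun s t : ZMod m =>
    (if s.val < t.val then (-1 : ℝ) else 1) * χ t * χ s)] at e2
  linarith

theorem sum_sgnA_add_two [NeZero m] (N : ℕ) :
    ∑ a : Fin (N + 1 + 1) → ZMod m, sgnA a = m * ∑ a : Fin N → ZMod m, sgnA a := by
  rw [sum_pi_succ]
  simp only [sum_pi_succ (N := N), sgnA_cons, Fin.prod_univ_succ, Fin.cons_zero, Fin.cons_succ]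
  rw [Finset.mul_sum, Finset.sum_congr rfl fun s _ => Finset.sum_comm, Finset.sum_comm]
  refine Finset.sum_congr rfl fun a _ => ?_
  rw [← sum_antisymm (m := m) (fun s => ∏ q, if (a q).val < s.val then (-1 : ℝ) else 1) fun s => by
    rw [← Finset.prod_mul_distrib]
    exact Finset.prod_eq_one fun q _ => by split_ifs <;> simp]
  simp only [Finset.sum_mul, mul_assoc]

theorem sum_sgnA [NeZero m] (k : ℕ) :
    ∑ a : Fin (k + k + 1) → ZMod m, sgnA a = (m : ℝ) ^ (k + 1) := by
  let S : ℕ → ℝ := fun N => ∑ a : Fin N → ZMod m, sgnA a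
  show S (k + k + 1) = _
  induction k with
  | zero => simp [S, sgnA]
  | succ k ih =>
    rw [show k + 1 + (k + 1) + 1 = k + k + 1 + 1 + 1 by ring, pow_succ', ← ih]
    exact sum_sgnA_add_two _

end Vale.Agent.P184
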