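import Vale.Agent.P184.ConfigA

/-!
# P184: the inner faces cancel
-/

namespace Vale.Agent.P184

open Finset

namespace CB

section monoid
variable {M : Type*} [Monoid M] {n m : ℕ}

/-- multiply the letters `i` and `i + 1` -/
def con (i : Fin n) (f : Fin (n + 1) → M) : Fin n → M := Fin.contractNth i.castSucc (· * ·) f

theorem con_self (i : Fin n) (f : Fin (n + 1) → M) : con i f i = f i.castSucc * f i.succ :=
  Fin.contractNth_apply_of_eq _ _ _ _ rfl

theorem con_ne {i k : Fin n} (h : k ≠ i) (f : Fin (n + 1) → M) :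
    con i f k = f (i.castSucc.succAbove k) :=
  Fin.contractNth_apply_of_ne _ _ _ _ fun e => h (Fin.ext e.symm)

theorem pp_con (i : Fin n) (f : Fin (n + 1) → M) (q : Fin n) :
    Fin.partialProd f (i.succ.succAbove q).castSucc = Fin.partialProd (con i f) q.castSucc := by
  rw [con, Fin.partialProd_contractNth, Function.comp_apply, Fin.succ_castSucc,
    Fin.castSucc_succAbove_castSucc]

theorem pp_last {N : ℕ} (f : Fin N → M) : Fin.partialProd f (Fin.last N) = (List.ofFn f).prod := by
  rw [Fin.partialProd, List.take_of_length_le (by simp)]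

theorem prod_con (i : Fin n) (f : Fin (n + 1) → M) :
    (List.ofFn f).prod = (List.ofFn (con i f)).prod := by
  rw [← pp_last, ← pp_last, con, Fin.partialProd_contractNth, Function.comp_apply,
    Fin.succAbove_of_le_castSucc, Fin.succ_last]
  rw [Fin.le_def]
  simp

theorem base_congr {N N' : ℕ} {a : Fin N → ZMod m} {E : Fin N → M} {b : Fin N' → ZMod m}
    {F : Fin N' → M} (h : ∀ t, (List.ofFn (st a E t)).prod = (List.ofFn (st b F t)).prod)
    (t : ℕ) : base a E t = base b F t := by
  induction t with
  | zero => rfl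
  | succ t ih => rw [base, base, ih, h]

theorem swap_sa {i k : Fin n} (h : k ≠ i) :
    Equiv.swap i.castSucc i.succ (i.castSucc.succAbove k) = i.castSucc.succAbove k :=
  Equiv.swap_apply_of_ne_of_ne (Fin.succAbove_ne _ _) fun e => h
    (Fin.succAbove_right_injective (e.trans (Fin.succAbove_castSucc_self i).symm))

theorem con_swap {i : Fin n} {a : Fin (n + 1) → ZMod m} (h : a i.castSucc ≠ a i.succ)
    (E : Fin (n + 1) → M) (t : ℕ) :
    con i (st (a ∘ Equiv.swap i.castSucc i.succ) (E ∘ Equiv.swap i.castSucc i.succ) t) =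
      con i (st a E t) := by
  funext k
  by_cases e : k = i
  · subst e
    simp only [con_self, st, Function.comp_apply, Equiv.swap_apply_left, Equiv.swap_apply_right]
    split_ifs with h1 h2
    · exact absurd (h2.symm.trans h1) h
    · rw [mul_one, one_mul]
    · rw [mul_one, one_mul]
    · rfl
  · simp only [con_ne e, st, Function.comp_apply, swap_sa e]

theorem con_merge (i : Fin n) (a : Fin n → ZMod m) (E : Fin (n + 1) → M) (t : ℕ) :
    con i (st (Fin.insertNth i.castSucc (a i) a) E t) = st a (con i E) t := by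
  funext k
  by_cases e : k = i
  · subst e
    have : (Fin.insertNth k.castSucc (a k) a : Fin (n + 1) → ZMod m) k.succ = a k := by
      rw [← Fin.succAbove_castSucc_self, Fin.insertNth_apply_succAbove]
    simp only [con_self, st, this, Fin.insertNth_apply_same]
    split_ifs
    · rfl
    · rw [mul_one]
  · simp only [con_ne e, st, Fin.insertNth_apply_succAbove]

theorem base_swap {i : Fin n} {a : Fin (n + 1) → ZMod m} (h : a i.castSucc ≠ a i.succ)
    (E : Fin (n + 1) → M) (t : ℕ) :
    base (a ∘ Equiv.swap i.castSucc i.succ) (E ∘ Equiv.swap i.castSucc i.succ) t = base a E t :=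
  base_congr (fun t => by rw [prod_con i, con_swap h, ← prod_con]) t

theorem base_merge (i : Fin n) (a : Fin n → ZMod m) (E : Fin (n + 1) → M) (t : ℕ) :
    base (Fin.insertNth i.castSucc (a i) a) E t = base a (con i E) t :=
  base_congr (fun t => by rw [prod_con i, con_merge]) t

theorem base_update [NeZero m] (a : Fin n → ZMod m) (E : Fin n → M) (i : Fin n) :
    ∃ L R : M, ∀ x, base a (Function.update E i x) m = L * x * R := by
  obtain ⟨ρ, hρ⟩ := exists_perm_base a
  refine ⟨((List.ofFn (E ∘ ρ)).take (ρ.symm i)).prod,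
    ((List.ofFn (E ∘ ρ)).drop (ρ.symm i + 1)).prod, fun x => ?_⟩
  have : (List.ofFn fun p => Function.update E i x (ρ p)) =
      (List.ofFn (E ∘ ρ)).set (ρ.symm i) x := by
    refine List.ext_getElem (by simp) fun k h1 h2 => ?_
    rw [List.getElem_set, List.getElem_ofFn, List.getElem_ofFn, Function.update_apply]
    refine if_congr ?_ rfl rfl
    rw [← Equiv.eq_symm_apply, Fin.ext_iff, eq_comm]
  rw [hρ, this, List.prod_set, if_pos (by simp)]

end monoid

section sign
variable {n m : ℕ}

theorem sgn_insert (p : Fin (n + 1)) (x : ZMod m) (a : Fin n → ZMod m) :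
    sgnA (Fin.insertNth p x a : Fin (n + 1) → ZMod m) = sgnA a * ∏ j, if j.castSucc < p then
      (if x.val < (a j).val then (-1 : ℝ) else 1) else if (a j).val < x.val then -1 else 1 := by
  unfold sgnA
  rw [Fin.prod_univ_succAbove _ p, Fin.prod_univ_succAbove _ p]
  simp only [Fin.prod_univ_succAbove _ p, Fin.insertNth_apply_same, Fin.insertNth_apply_succAbove,
    lt_self_iff_false, false_and, if_false, one_mul, Fin.succAbove_lt_succAbove_iff,
    Finset.prod_mul_distrib, Fin.succAbove_lt_iff_castSucc_lt, Fin.lt_succAbove_iff_le_castSucc]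
  rw [← mul_assoc, mul_comm, ← Finset.prod_mul_distrib]
  refine congrArg _ (Finset.prod_congr rfl fun j _ => ?_)
  by_cases h : j.castSucc < p
  · simp [h, h.not_ge]
  · simp [h, not_lt.1 h]

theorem sgn_swap [NeZero m] {i : Fin n} {a : Fin (n + 1) → ZMod m} (h : a i.castSucc ≠ a i.succ) :
    sgnA (a ∘ Equiv.swap i.castSucc i.succ) = -sgnA a := by
  have e1 : a = Fin.insertNth i.castSucc (a i.castSucc) (Fin.removeNth i.castSucc a) :=
    (Fin.insertNth_self_removeNth _ _).symm
  have e2 : a ∘ Equiv.swap i.castSucc i.succ =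
      Fin.insertNth i.succ (a i.castSucc) (Fin.removeNth i.castSucc a) := by
    refine (Fin.eq_insertNth_iff (α := fun _ => ZMod m)).2 ⟨by simp, funext fun k => ?_⟩
    by_cases e : k = i
    · simp [Fin.removeNth, e]
    · have : i.succ.succAbove k = i.castSucc.succAbove k := by
        rcases lt_or_gt_of_ne e with h | h
        · rw [Fin.succAbove_succ_of_le _ _ h.le, Fin.succAbove_castSucc_of_lt _ _ h]
        · rw [Fin.succAbove_succ_of_lt _ _ h, Fin.succAbove_castSucc_of_le _ _ h.le]
      simp only [Fin.removeNth, Function.comp_apply, this, swap_sa e]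
  rw [e2, sgn_insert]
  conv_rhs => rw [e1, sgn_insert]
  rw [← mul_neg, ← Finset.mul_prod_erase _ _ (mem_univ i), ← Finset.mul_prod_erase _ _ (mem_univ i),
    ← neg_mul]
  refine congrArg _ (congrArg₂ _ ?_ (Finset.prod_congr rfl fun j hj => if_congr ?_ rfl rfl))
  · have h1 : (a i.castSucc).val ≠ (a i.succ).val := fun e => h (ZMod.val_injective m e)
    simp only [Fin.castSucc_lt_succ, if_true, lt_self_iff_false, if_false, Fin.removeNth,
      Fin.succAbove_castSucc_self]
    rcases lt_or_gt_of_ne h1 with h | h <;> simp [h, h.not_gt]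
  · have := Fin.val_ne_of_ne (mem_erase.1 hj).1
    simp only [Fin.lt_def, Fin.val_castSucc, Fin.val_succ]
    omega

theorem prod_lt (i : Fin n) : (∏ j, if j < i then (-1 : ℝ) else 1) = (-1) ^ (i : ℕ) := by
  rw [Finset.prod_ite, prod_const, prod_const_one, mul_one, Finset.filter_gt_eq_Iio, Fin.card_Iio]

theorem sum_sgn_merge (hn : Even n) (a : Fin n → ZMod m) :
    ∑ i : Fin n, (-1 : ℝ) ^ (i : ℕ) *
      sgnA (Fin.insertNth i.castSucc (a i) a : Fin (n + 1) → ZMod m) = 0 := by
  have h1 : ∀ i : Fin n, (-1 : ℝ) ^ (i : ℕ) *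
      sgnA (Fin.insertNth i.castSucc (a i) a : Fin (n + 1) → ZMod m) = sgnA a * ∏ j,
        if (a j).val < (a i).val ∨ ((a j).val = (a i).val ∧ j < i) then (-1 : ℝ) else 1 := by
    intro i
    rw [sgn_insert, mul_left_comm, ← prod_lt, ← Finset.prod_mul_distrib]
    refine congrArg _ (Finset.prod_congr rfl fun j _ => ?_)
    simp only [Fin.castSucc_lt_castSucc_iff]
    by_cases h : j < i
    · rcases lt_trichotomy (a j).val (a i).val with h' | h' | h'
      · simp [h, h', h'.not_gt]
      · simp [h, h']
      · simp [h, h', h'.not_gt, h'.ne']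
    · simp [h]
  simp only [h1, ← Finset.mul_sum]
  obtain ⟨hm, hs⟩ := (Tuple.eq_sort_iff (f := fun j => (a j).val)).1 rfl
  generalize Tuple.sort (fun j => (a j).val) = σ at hm hs
  have key : ∀ j i, j < i → (a (σ j)).val < (a (σ i)).val ∨
      ((a (σ j)).val = (a (σ i)).val ∧ σ j < σ i) := fun j i h =>
    (hm h.le).lt_or_eq.imp id fun e => ⟨e, hs j i h e⟩
  have h2 : ∀ i, (∏ j, if (a j).val < (a (σ i)).val ∨ ((a j).val = (a (σ i)).val ∧ j < σ i) then
      (-1 : ℝ) else 1) = (-1) ^ (i : ℕ) := fun i => by
    rw [← Equiv.prod_comp σ, ← prod_lt]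
    refine Finset.prod_congr rfl fun j _ => if_congr ⟨fun h => ?_, key j i⟩ rfl rfl
    rcases lt_trichotomy j i with h' | rfl | h'
    · exact h'
    · simp at h
    · have := key i j h'
      simp only [Fin.lt_def] at h this ⊢
      omega
  rw [← Equiv.sum_comp σ]
  simp only [h2, Fin.sum_neg_one_pow, if_pos hn, mul_zero]

end sign

variable {G A : Type*} [Group G] [NormedRing A] [NormOneClass A] [CompleteSpace A]
  {tr : A →+ ℝ} {c : ℝ} {e : G → A} {C : Set G} {n m : ℕ}

/-- splitting the letter `i` -/
def split (i : Fin n) : (Fin n → G) × G ≃ (Fin (n + 1) → G) where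
  toFun x := Fin.insertNth i.castSucc x.2 (Function.update x.1 i (x.2⁻¹ * x.1 i))
  invFun H := (con i H, H i.castSucc)
  left_inv x := by
    refine Prod.ext (funext fun k => ?_) (by simp)
    by_cases h : k = i
    · subst h
      simp only [con_self]
      rw [← Fin.succAbove_castSucc_self, Fin.insertNth_apply_succAbove]
      simp
    · simp only [con_ne h, Fin.insertNth_apply_succAbove, Function.update_of_ne h]
  right_inv H := by
    refine (Fin.insertNth_eq_iff (α := fun _ => G)).2 ⟨rfl, funext fun k => ?_⟩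
    by_cases h : k = i
    · simp [h, con_self, Fin.removeNth]
    · simp [con_ne h, h, Fin.removeNth]

theorem con_split (i : Fin n) (x : (Fin n → G) × G) : con i (split i x) = x.1 :=
  congrArg Prod.fst ((split i).left_inv x)

omit [NormOneClass A] [CompleteSpace A] in
theorem con_comp_split (e : G → A) (i : Fin n) (H : Fin n → G) (h : G) :
    con i (fun p => e (split i (H, h) p)) =
      Function.update (fun p => e (H p)) i (e h * e (h⁻¹ * H i)) := by
  funext k
  by_cases hk : k = i
  · subst hk
    rw [con_self, ← Fin.succAbove_castSucc_self]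
    simp only [split, Equiv.coe_fn_mk, Fin.insertNth_apply_succAbove, Fin.insertNth_apply_same,
      Function.update_self]
  · simp only [con_ne hk, split, Equiv.coe_fn_mk, Fin.insertNth_apply_succAbove,
      Function.update_of_ne hk]

theorem tsum_merge [NeZero m] (hI : Idem tr c e C) (Θ : (Fin n → ℕ → G) → ℝ) (R : ℝ)
    (hb : ∀ u, |Θ u| ≤ R) (i : Fin n) (a : Fin n → ZMod m) :
    ∑' H : Fin (n + 1) → G, wt tr e C (Fin.insertNth i.castSucc (a i) a) H *
      Θ (fun q => vert (Fin.insertNth i.castSucc (a i) a) H (i.succ.succAbove q).castSucc) =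
    ∑' H : Fin n → G, wt tr e C a H * Θ (fun q => vert a H q.castSucc) := by
  have hs : Summable fun H : Fin (n + 1) → G => wt tr e C (Fin.insertNth i.castSucc (a i) a) H *
      Θ (fun q => vert (Fin.insertNth i.castSucc (a i) a) H (i.succ.succAbove q).castSucc) :=
    Summable.of_norm_bounded ((summable_wt hI _).mul_right R) fun H => by
      rw [Real.norm_eq_abs, abs_mul]
      exact mul_le_mul_of_nonneg_left (hb _) (abs_nonneg _)
  refine (HasSum.prod_fiberwise ((split i).hasSum_iff.2 hs.hasSum) fun H => ?_).tsum_eq.symm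
  have hv : ∀ h q, vert (Fin.insertNth i.castSucc (a i) a) (split i (H, h))
      (i.succ.succAbove q).castSucc = vert a H q.castSucc := fun h q => by
    funext t
    rw [vert, vert, base_merge, pp_con, con_merge, con_split]
  simp only [Function.comp_apply, hv, wt, base_merge, con_split, con_comp_split]
  refine HasSum.mul_right _ ?_
  by_cases hC : base a H m ∈ C
  · obtain ⟨L, R, h⟩ := base_update a (fun p => e (H p)) i
    have h0 := h (e (H i))
    rw [Function.update_eq_self] at h0
    simp only [Set.indicator_of_mem hC, h, h0]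
    exact (((hI.idem (H i)).mul_left L).mul_right R).map tr
      (AddMonoidHomClass.continuous_of_bound tr c hI.bound)
  · simp only [Set.indicator_of_notMem hC]
    exact hasSum_zero

omit [NormOneClass A] [CompleteSpace A] in
theorem tsum_swap (Θ : (Fin n → ℕ → G) → ℝ) {i : Fin n} {a : Fin (n + 1) → ZMod m}
    (h : a i.castSucc ≠ a i.succ) :
    ∑' H : Fin (n + 1) → G, wt tr e C (a ∘ Equiv.swap i.castSucc i.succ) H *
      Θ (fun q => vert (a ∘ Equiv.swap i.castSucc i.succ) H (i.succ.succAbove q).castSucc) =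
    ∑' H : Fin (n + 1) → G, wt tr e C a H *
      Θ (fun q => vert a H (i.succ.succAbove q).castSucc) := by
  rw [← (Equiv.arrowCongr (Equiv.swap i.castSucc i.succ) (Equiv.refl G)).tsum_eq]
  refine tsum_congr fun H => ?_
  change wt tr e C _ (H ∘ Equiv.swap i.castSucc i.succ) *
    Θ (fun q => vert _ (H ∘ Equiv.swap i.castSucc i.succ) _) = _
  refine congrArg₂ _ ?_ (congrArg _ (funext fun q => funext fun t => ?_))
  · rw [wt, wt, base_swap h, ← base_swap h fun p => e (H p)]
    rfl
  · rw [vert, vert, base_swap h, pp_con, pp_con, con_swap h]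

theorem faceSum_eq [NeZero m] (hI : Idem tr c e C) (Θ : (Fin n → ℕ → G) → ℝ) (R : ℝ)
    (hb : ∀ u, |Θ u| ≤ R) (i : Fin n) : faceSum (m := m) tr e C Θ i.succ =
      ∑ a : Fin n → ZMod m, sgnA (Fin.insertNth i.castSucc (a i) a : Fin (n + 1) → ZMod m) *
        ∑' H : Fin n → G, wt tr e C a H * Θ (fun q => vert a H q.castSucc) := by
  rw [faceSum, ← Finset.sum_filter_add_sum_filter_not univ fun a => a i.castSucc = a i.succ,
    Finset.sum_involution (s := filter (fun a => ¬_) _)
      (fun a _ => a ∘ Equiv.swap i.castSucc i.succ) (fun a ha => ?_) (fun a ha _ h => ?_)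
      (fun a ha => ?_) (fun a _ => ?_), add_zero]
  · refine (Finset.sum_bij' (fun a _ => Fin.insertNth i.castSucc (a i) a)
      (fun a _ => Fin.removeNth i.castSucc a) (fun a _ => ?_) (fun a _ => mem_univ _)
      (fun a _ => Fin.removeNth_insertNth _ _ _) (fun a ha => ?_) fun a _ => ?_).symm
    · rw [mem_filter, ← Fin.succAbove_castSucc_self, Fin.insertNth_apply_succAbove,
        Fin.insertNth_apply_same]
      exact ⟨mem_univ _, rfl⟩
    · rw [Fin.removeNth_apply, Fin.succAbove_castSucc_self, ← (mem_filter.1 ha).2,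
        Fin.insertNth_self_removeNth]
    · rw [tsum_merge hI Θ R hb]
  · rw [sgn_swap (mem_filter.1 ha).2, tsum_swap Θ (mem_filter.1 ha).2, neg_mul, add_neg_cancel]
  · exact (mem_filter.1 ha).2 (by simpa using (congrFun h i.castSucc).symm)
  · simpa [eq_comm] using ha
  · funext k
    simp

end CB

variable {G A : Type*} [Group G] [NormedRing A] [NormOneClass A] [CompleteSpace A]
  {tr : A →+ ℝ} {c : ℝ} {e : G → A} {C : Set G} {n m : ℕ}

/-- The inner faces cancel (swap of letters in different slots, merge of letters in the same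
slot, and the alternating sum of ranks). -/
theorem sum_faceSum_succ [NeZero m] (hI : Idem tr c e C) (hn : Even n)
    (Θ : (Fin n → ℕ → G) → ℝ) (R : ℝ) (hb : ∀ u, |Θ u| ≤ R) :
    ∑ i : Fin n, (-1 : ℝ) ^ (i : ℕ) * faceSum (m := m) tr e C Θ i.succ = 0 := by
  simp only [CB.faceSum_eq hI Θ R hb, Finset.mul_sum, ← mul_assoc]
  rw [Finset.sum_comm]
  refine Finset.sum_eq_zero fun a _ => ?_
  rw [← Finset.sum_mul, CB.sum_sgn_merge hn, zero_mul]

end Vale.Agent.P184
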