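import Vale.Agent.P184.ConfigB

/-!
# P184: rotation and the Stokes theorem for configurations
-/

namespace Vale.Agent.P184

open Finset

namespace CC

/-- move the first entry to the end and apply `f` to it -/
def rot {X : Type*} {n : ℕ} (f : X ≃ X) : (Fin (n + 1) → X) ≃ (Fin (n + 1) → X) where
  toFun a := Fin.snoc (α := fun _ => X) (Fin.tail a) (f (a 0))
  invFun a := Fin.cons (f.symm (a (Fin.last n))) (Fin.init a)
  left_inv a := by simp
  right_inv a := by simp

theorem rot_apply {X : Type*} {n : ℕ} (f : X ≃ X) (a : Fin (n + 1) → X) :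
    rot f a = Fin.snoc (α := fun _ => X) (Fin.tail a) (f (a 0)) := rfl

section monoid
variable {M : Type*} [Monoid M] {n m : ℕ} (a : Fin (n + 1) → ZMod m) (E : Fin (n + 1) → M)

theorem st_rot (t : ℕ) : st (rot (Equiv.subRight 1) a) (rot (Equiv.refl M) E) t =
    Fin.snoc (α := fun _ => M) (Fin.tail (st a E t)) (st a E (t + 1) 0) := by
  funext p
  induction p using Fin.lastCases with
  | last => simp [st, rot_apply, eq_sub_iff_add_eq]
  | cast p => simp [st, rot_apply, Fin.tail]

theorem base_succ (t : ℕ) : base a E (t + 1) =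
    base a E t * st a E t 0 * (List.ofFn (Fin.tail (st a E t))).prod := by
  rw [base, List.ofFn_succ, List.prod_cons, mul_assoc]
  rfl

theorem base_rot_succ (t : ℕ) : base (rot (Equiv.subRight 1) a) (rot (Equiv.refl M) E) (t + 1) =
    base (rot (Equiv.subRight 1) a) (rot (Equiv.refl M) E) t *
      (List.ofFn (Fin.tail (st a E t))).prod * st a E (t + 1) 0 := by
  rw [base, st_rot, List.ofFn_succ', List.prod_concat, mul_assoc]
  simp only [Fin.snoc_castSucc, Fin.snoc_last]

theorem mul_base_rot (t : ℕ) :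
    st a E 0 0 * base (rot (Equiv.subRight 1) a) (rot (Equiv.refl M) E) t =
      base a E t * st a E t 0 := by
  induction t with
  | zero => rw [base, base, mul_one, one_mul]
  | succ t ih => rw [base_rot_succ, ← mul_assoc, ← mul_assoc, ih, base_succ]

theorem mul_vert_rot (q : Fin (n + 1)) (t : ℕ) :
    st a E 0 0 * vert (rot (Equiv.subRight 1) a) (rot (Equiv.refl M) E) q.castSucc t =
      vert a E q.succ t := by
  rw [vert, vert, ← mul_assoc, mul_base_rot, Fin.partialProd_succ', ← Fin.partialProd_init, st_rot,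
    Fin.init_snoc, mul_assoc]

theorem exists_rest [NeZero m] : ∃ R, base a E m = st a E 0 0 * R ∧
    base (rot (Equiv.subRight 1) a) (rot (Equiv.refl M) E) m = R * st a E 0 0 := by
  have h : st a E m 0 = st a E 0 0 := by simp [st]
  have : ∀ t, t ≠ 0 → ∃ R, base a E t = st a E 0 0 * R ∧
      base (rot (Equiv.subRight 1) a) (rot (Equiv.refl M) E) t = R * st a E t 0 := by
    rintro (_ | t) ht
    · exact (ht rfl).elim
    · exact ⟨_, by rw [base_succ, ← mul_base_rot, mul_assoc], base_rot_succ a E t⟩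
  exact h ▸ this m (NeZero.ne m)

end monoid

theorem sgn_rot {n m : ℕ} [NeZero m] (hn : Even n) (a : Fin (n + 1) → ZMod m) :
    sgnA (rot (Equiv.subRight 1) a) = sgnA a := by
  rw [rot_apply, ← Fin.insertNth_last', CB.sgn_insert]
  conv_rhs => rw [← Fin.cons_self_tail a, ← Fin.insertNth_zero', CB.sgn_insert]
  simp only [Fin.castSucc_lt_last, if_true, Fin.not_lt_zero, if_false, Equiv.subRight_apply]
  refine congrArg _ ?_
  rcases h : (a 0).val with _ | k
  · obtain ⟨m, rfl⟩ := Nat.exists_eq_succ_of_ne_zero (NeZero.ne m)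
    rw [(ZMod.val_eq_zero _).1 h, zero_sub, ZMod.val_neg_one]
    refine Finset.prod_congr rfl fun j _ => ?_
    rw [if_neg (Nat.not_lt_zero _), if_neg (Nat.le_of_lt_succ (ZMod.val_lt _)).not_gt]
  · have h1 : (a 0 - 1).val = k := by
      have := ZMod.val_lt (a 0)
      rw [← ZMod.natCast_zmod_val (a 0), h, Nat.cast_succ, add_sub_cancel_right,
        ZMod.val_cast_of_lt (by omega)]
    have h3 : ∏ _j : Fin n, (-1 : ℝ) = 1 := by rw [Fin.prod_const, hn.neg_one_pow]
    rw [h1]
    refine Eq.trans ?_ (one_mul _)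
    refine Eq.trans ?_ (congrArg (· * _) h3)
    rw [← Finset.prod_mul_distrib]
    refine Finset.prod_congr rfl fun j _ => ?_
    by_cases h2 : k < (Fin.tail a j).val
    · rw [if_pos h2, if_neg (by omega), mul_one]
    · rw [if_neg h2, if_pos (by omega), neg_mul_neg, mul_one]

variable {G A : Type*} [Group G] [NormedRing A] {tr : A →+ ℝ} {c : ℝ} {e : G → A} {C : Set G}
  {n m : ℕ}

theorem wt_rot [NeZero m] (hI : Idem tr c e C) (a : Fin (n + 1) → ZMod m) (H : Fin (n + 1) → G) :
    wt tr e C (rot (Equiv.subRight 1) a) (rot (Equiv.refl G) H) = wt tr e C a H := by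
  have h0 : (fun p => e (rot (Equiv.refl G) H p)) = rot (Equiv.refl A) fun p => e (H p) := by
    funext p
    induction p using Fin.lastCases with
    | last => simp [rot_apply]
    | cast p => simp [rot_apply, Fin.tail]
  obtain ⟨R, h1, h2⟩ := exists_rest a fun p => e (H p)
  obtain ⟨S, h3, h4⟩ := exists_rest a H
  rw [wt, wt, h0, h1, h2, h3, h4, hI.comm]
  by_cases hC : st a H 0 0 * S ∈ C
  · rw [Set.indicator_of_mem hC, Set.indicator_of_mem (by simpa [mul_assoc] using hI.conj S _ hC)]
  · rw [Set.indicator_of_notMem hC, Set.indicator_of_notMem fun h => hC (by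
      simpa using hI.conj S⁻¹ _ h)]

theorem face_rot (a : Fin (n + 1) → ZMod m) (H : Fin (n + 1) → G) (i : Fin n) :
    (fun q t => st a H 0 0 * vert (rot (Equiv.subRight 1) a) (rot (Equiv.refl G) H)
      (i.castSucc.succAbove q).castSucc t) =
      rotT fun q => vert a H (i.succ.succAbove q).castSucc := by
  funext q t
  rw [mul_vert_rot, rotT]
  split_ifs with h
  · refine congrArg (fun p => vert a H p t) (Fin.ext ?_)
    simp only [Fin.succAbove, Fin.lt_def, Fin.val_castSucc, Fin.val_succ]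
    split_ifs <;> simp only [Fin.val_castSucc, Fin.val_succ] <;> omega
  · have e1 : (i.castSucc.succAbove q).succ = Fin.last _ := by
      have := i.2
      have := q.2
      rw [Fin.succAbove_castSucc_of_le _ _ (by rw [Fin.le_def]; omega), Fin.ext_iff]
      simp only [Fin.val_succ, Fin.val_last]
      omega
    have e2 : (i.succ.succAbove ⟨0, q.pos⟩).castSucc = 0 := by
      rw [Fin.succAbove_succ_of_le _ _ (by rw [Fin.le_def]; exact Nat.zero_le _)]
      rfl
    rw [e1, e2, vert_last, Tsh, vert_zero]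

end CC

variable {G A : Type*} [Group G] [NormedRing A] [NormOneClass A] [CompleteSpace A]
  {tr : A →+ ℝ} {c : ℝ} {e : G → A} {C : Set G} {n m : ℕ}

/-- Rotation: neighbouring faces are opposite. -/
theorem faceSum_castSucc [NeZero m] (hI : Idem tr c e C) (hn : Even n)
    (Θ : (Fin n → ℕ → G) → ℝ)
    (hleft : ∀ (x : G) u, Θ (fun i t => x * u i t) = Θ u)
    (hrot : ∀ g ∈ C, ∀ u : Fin n → ℕ → G, (∀ i, QP m g (u i)) → Θ (rotT u) = -Θ u)
    (i : Fin n) :
    faceSum (m := m) tr e C Θ i.castSucc = -faceSum (m := m) tr e C Θ i.succ := by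
  rw [faceSum, faceSum, ← Finset.sum_neg_distrib, ← (CC.rot (Equiv.subRight 1)).sum_comp]
  refine Finset.sum_congr rfl fun a _ => ?_
  rw [CC.sgn_rot hn, ← mul_neg, ← tsum_neg, ← (CC.rot (Equiv.refl G)).tsum_eq]
  refine congrArg _ (tsum_congr fun H => ?_)
  rw [CC.wt_rot hI, ← hleft (st a H 0 0), CC.face_rot]
  by_cases hC : base a H m ∈ C
  · rw [hrot _ hC _ fun q => qp_vert a H _, mul_neg]
  · rw [wt, Set.indicator_of_notMem hC, zero_mul, zero_mul, neg_zero]

/-- Stokes theorem: every face sum vanishes. -/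
theorem faceSum_eq_zero [NeZero m] (hI : Idem tr c e C) (hn : Even n) (hn0 : 0 < n)
    (Θ : (Fin n → ℕ → G) → ℝ) (R : ℝ) (hb : ∀ u, |Θ u| ≤ R)
    (hleft : ∀ (x : G) u, Θ (fun i t => x * u i t) = Θ u)
    (hrot : ∀ g ∈ C, ∀ u : Fin n → ℕ → G, (∀ i, QP m g (u i)) → Θ (rotT u) = -Θ u)
    (p : Fin (n + 1)) : faceSum (m := m) tr e C Θ p = 0 := by
  have h1 : ∀ p : Fin (n + 1), faceSum (m := m) tr e C Θ p =
      (-1) ^ (p : ℕ) * faceSum (m := m) tr e C Θ 0 := fun p => by
    induction p using Fin.induction with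
    | zero => simp
    | succ p ih =>
      rw [faceSum_castSucc hI hn Θ hleft hrot, neg_eq_iff_eq_neg] at ih
      rw [ih, Fin.val_succ, Fin.val_castSucc, pow_succ]
      ring
  have h2 := sum_faceSum_succ (m := m) hI hn Θ R hb
  have h3 : ∀ i : Fin n, (-1 : ℝ) ^ (i : ℕ) * faceSum (m := m) tr e C Θ i.succ =
      -faceSum (m := m) tr e C Θ 0 := fun i => by
    rw [h1, Fin.val_succ, ← mul_assoc, ← pow_add, ← add_assoc, pow_succ,
      Even.neg_one_pow ⟨_, rfl⟩, one_mul, neg_one_mul]
  simp only [h3, Finset.sum_const, card_univ, Fintype.card_fin, smul_eq_zero, hn0.ne', false_or,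
    neg_eq_zero] at h2
  rw [h1, h2, mul_zero]

end Vale.Agent.P184
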