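import Vale.Agent.P184.DeformL1

/-!
# P184: deformation of an idempotent (Newton iteration in the convolution algebra)
-/

namespace Vale.Agent.P184

open Finset Filter Topology

universe u v

section newton
variable {B : Type*} [Ring B]

/-- one step of the Newton iteration for idempotents -/
def nstep (a : B) : B := a + ((a * a - a) - ((a * a - a) * a + (a * a - a) * a))

theorem nstep_res (a : B) : nstep a * nstep a - nstep a =
    (a * a - a) * ((a * a - a) * (((a * a - a) + (a * a - a) + (a * a - a) + (a * a - a))) -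
      ((a * a - a) + (a * a - a) + (a * a - a))) := by
  unfold nstep
  noncomm_ring

/-- a submultiplicative seminorm -/
structure IsSemi (ν : B → ℝ) : Prop where
  nonneg : ∀ a, 0 ≤ ν a
  zero : ν 0 = 0
  add : ∀ a b, ν (a + b) ≤ ν a + ν b
  neg : ∀ a, ν (-a) = ν a
  mul : ∀ a b, ν (a * b) ≤ ν a * ν b

theorem IsSemi.sub {ν : B → ℝ} (h : IsSemi ν) (a b : B) : ν (a - b) ≤ ν a + ν b := by
  rw [sub_eq_add_neg, ← h.neg b]; exact h.add _ _

theorem IsSemi.step_sub {ν : B → ℝ} (h : IsSemi ν) (a : B) :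
    ν (nstep a - a) ≤ ν (a * a - a) * (1 + 2 * ν a) := by
  rw [nstep, add_sub_cancel_left]
  have h1 := h.sub (a * a - a) ((a * a - a) * a + (a * a - a) * a)
  have h2 := h.add ((a * a - a) * a) ((a * a - a) * a)
  have h3 := h.mul (a * a - a) a
  linarith

theorem IsSemi.step_res {ν : B → ℝ} (h : IsSemi ν) (a : B) (hr : ν (a * a - a) ≤ 1 / 14) :
    ν (nstep a * nstep a - nstep a) ≤ ν (a * a - a) / 2 := by
  rw [nstep_res]
  generalize a * a - a = r at hr
  have h0 := h.nonneg r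
  have h3 : ν (r + r + r) ≤ 3 * ν r := by linarith [h.add (r + r) r, h.add r r]
  have h4 : ν (r + r + r + r) ≤ 4 * ν r := by linarith [h.add (r + r + r) r]
  have h5 : ν (r * (r + r + r + r)) ≤ ν r * (4 * ν r) :=
    (h.mul _ _).trans (mul_le_mul_of_nonneg_left h4 h0)
  have h6 : ν (r * (r + r + r + r) - (r + r + r)) ≤ 1 / 2 := by
    have := h.sub (r * (r + r + r + r)) (r + r + r)
    nlinarith
  have := (h.mul r _).trans (mul_le_mul_of_nonneg_left h6 h0)
  linarith

theorem IsSemi.newton {ν : B → ℝ} (h : IsSemi ν) (a : B) {R ε : ℝ} (hR : ν a ≤ R)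
    (hε : ν (a * a - a) ≤ ε) (h1 : ε ≤ 1 / 14) (h2 : ε * (2 * R + 3) ≤ 1 / 4) (n : ℕ) :
    ν (nstep^[n] a * nstep^[n] a - nstep^[n] a) ≤ ε * (1 / 2) ^ n ∧
      ν (nstep^[n] a - a) ≤ 1 / 2 - (1 / 2) * (1 / 2) ^ n ∧
      ν (nstep^[n + 1] a - nstep^[n] a) ≤ (1 / 4) * (1 / 2) ^ n := by
  have hε0 : 0 ≤ ε := (h.nonneg _).trans hε
  have aux : ∀ n : ℕ, ν (nstep^[n] a * nstep^[n] a - nstep^[n] a) ≤ ε * (1 / 2) ^ n →
      ν (nstep^[n] a - a) ≤ 1 / 2 - (1 / 2) * (1 / 2) ^ n →
      ν (nstep^[n + 1] a - nstep^[n] a) ≤ (1 / 4) * (1 / 2) ^ n := by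
    intro n e1 e2
    rw [Function.iterate_succ_apply']
    generalize nstep^[n] a = b at e1 e2
    have hp : (0 : ℝ) < (1 / 2) ^ n := by positivity
    have e3 : ν b ≤ R + 1 := by
      have := h.add (b - a) a
      rw [sub_add_cancel] at this
      linarith
    have e4 := h.step_sub b
    have e5 : ν (b * b - b) * (1 + 2 * ν b) ≤ ε * (1 / 2) ^ n * (2 * R + 3) :=
      mul_le_mul e1 (by linarith) (by linarith [h.nonneg b]) (by positivity)
    nlinarith
  induction n with
  | zero =>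
    have e0 : ν (a - a) ≤ 0 := by rw [sub_self, h.zero]
    refine ⟨by simpa using hε, by simpa using e0, aux 0 (by simpa using hε) (by simpa using e0)⟩
  | succ n ih =>
    obtain ⟨e1, e2, e3⟩ := ih
    have hp : (0 : ℝ) < (1 / 2) ^ n := by positivity
    have hp1 : ((1 : ℝ) / 2) ^ n ≤ 1 := pow_le_one₀ (by norm_num) (by norm_num)
    have f1 : ν (nstep^[n + 1] a * nstep^[n + 1] a - nstep^[n + 1] a) ≤ ε * (1 / 2) ^ (n + 1) := by
      rw [Function.iterate_succ_apply']
      have := h.step_res (nstep^[n] a) (by nlinarith)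
      rw [pow_succ]
      linarith
    have f2 : ν (nstep^[n + 1] a - a) ≤ 1 / 2 - (1 / 2) * (1 / 2) ^ (n + 1) := by
      have := h.add (nstep^[n + 1] a - nstep^[n] a) (nstep^[n] a - a)
      rw [sub_add_sub_cancel] at this
      rw [pow_succ]
      linarith
    exact ⟨f1, f2, aux _ f1 f2⟩

end newton

section banach
variable {B : Type*} [NormedRing B]

theorem isSemi_norm : IsSemi (fun a : B => ‖a‖) :=
  ⟨norm_nonneg, norm_zero, norm_add_le, norm_neg, norm_mul_le⟩

theorem exists_idem [CompleteSpace B] (a : B) {R ε : ℝ} (hR : ‖a‖ ≤ R) (hε : ‖a * a - a‖ ≤ ε)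
    (h1 : ε ≤ 1 / 14) (h2 : ε * (2 * R + 3) ≤ 1 / 4) :
    ∃ p : B, p * p = p ∧ ‖p - a‖ ≤ 1 / 2 ∧ ∀ (ν : B → ℝ) (T : ℝ), IsSemi ν →
      (∀ b, ν b ≤ T * ‖b‖) → ν a ≤ R → ν (a * a - a) ≤ ε → ν p ≤ R + 1 := by
  have H := isSemi_norm.newton a hR hε h1 h2
  have hc : CauchySeq fun n => nstep^[n] a :=
    cauchySeq_of_le_geometric (1 / 2) (1 / 4) (by norm_num) fun n => by
      rw [dist_comm, dist_eq_norm]; exact (H n).2.2
  obtain ⟨p, hp⟩ := cauchySeq_tendsto_of_complete hc
  have hpos : ∀ n : ℕ, (0 : ℝ) < (1 / 2) ^ n := fun n => by positivity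
  refine ⟨p, ?_, ?_, fun ν T hν hT e1 e2 => ?_⟩
  · have t1 : Tendsto (fun n => nstep^[n] a * nstep^[n] a - nstep^[n] a) atTop (𝓝 (p * p - p)) :=
      (hp.mul hp).sub hp
    have t2 : Tendsto (fun n => nstep^[n] a * nstep^[n] a - nstep^[n] a) atTop (𝓝 0) := by
      refine squeeze_zero_norm (fun n => (H n).1) ?_
      simpa using (tendsto_pow_atTop_nhds_zero_of_lt_one (r := (1 / 2 : ℝ)) (by norm_num)
        (by norm_num)).const_mul ε
    exact sub_eq_zero.1 (tendsto_nhds_unique t1 t2)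
  · refine le_of_tendsto' (hp.sub_const a).norm fun n => ?_
    have := (H n).2.1
    linarith [hpos n]
  · have t : Tendsto (fun n => R + 1 + T * ‖p - nstep^[n] a‖) atTop (𝓝 (R + 1 + T * ‖p - p‖)) :=
      (((hp.const_sub p).norm).const_mul T).const_add _
    rw [sub_self, norm_zero, mul_zero, add_zero] at t
    refine ge_of_tendsto' t fun n => ?_
    have f1 := (hν.newton a e1 e2 h1 h2 n).2.1
    have f2 := hν.add (p - nstep^[n] a) (nstep^[n] a - a)
    have f3 := hν.add (p - a) a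
    rw [sub_add_sub_cancel] at f2
    rw [sub_add_cancel] at f3
    linarith [hT (p - nstep^[n] a), hpos n]

theorem trace_eq_of_close (T : B →+ ℝ) {c : ℝ} (hb : ∀ x, |T x| ≤ c * ‖x‖)
    (hc : ∀ x y, T (x * y) = T (y * x)) {p q : B} (hp : p * p = p) (hq : q * q = q)
    (h : ‖p - q‖ < 1) : T p = T q := by
  have hp' : ∀ x, p * (p * x) = p * x := fun x => by rw [← mul_assoc, hp]
  have hq' : ∀ x, q * (q * x) = q * x := fun x => by rw [← mul_assoc, hq]
  have c1 : Commute p ((p - q) * (p - q)) := by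
    unfold Commute SemiconjBy
    simp only [mul_sub, sub_mul, mul_assoc, hp, hq, hp']
    abel
  have c2 : Commute q ((p - q) * (p - q)) := by
    unfold Commute SemiconjBy
    simp only [mul_sub, sub_mul, mul_assoc, hp, hq, hq']
    abel
  have e3 : (p - q) * (p - q) * (p - q) = (p - q) - p * q * p + q * p * q := by
    simp only [mul_sub, sub_mul, mul_assoc, hp, hq]
    abel
  have key : ∀ j : ℕ, T (((p - q) * (p - q)) ^ j * (p - q)) = T (p - q) := by
    intro j
    induction j with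
    | zero => simp
    | succ j ih =>
      have d1 := (c1.pow_right j).eq
      have d2 := (c2.pow_right j).eq
      rw [pow_succ, mul_assoc, e3]
      generalize ((p - q) * (p - q)) ^ j = E at ih d1 d2
      have f1 : T (E * (p * q * p)) = T (E * (p * q)) := by
        rw [← mul_assoc, hc, ← mul_assoc, d1, mul_assoc, hp']
      have f2 : T (E * (q * p * q)) = T (E * (p * q)) := by
        rw [← mul_assoc, hc, ← mul_assoc, d2, mul_assoc, hq', ← mul_assoc, hc, ← mul_assoc, d1,
          mul_assoc]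
      rw [mul_add, mul_sub, map_add, map_sub, f1, f2, ih, sub_add_cancel]
  have h2 : ‖(p - q) * (p - q)‖ < 1 :=
    (norm_mul_le _ _).trans_lt (mul_lt_one_of_nonneg_of_lt_one_left (norm_nonneg _) h h.le)
  have t : Tendsto (fun j : ℕ => c * ‖((p - q) * (p - q)) ^ j * (p - q)‖) atTop
      (𝓝 (c * ‖0 * (p - q)‖)) :=
    (((tendsto_pow_atTop_nhds_zero_of_norm_lt_one h2).mul_const _).norm).const_mul c
  rw [zero_mul, norm_zero, mul_zero] at t
  have : |T (p - q)| ≤ 0 := ge_of_tendsto' t fun j => by rw [← key j]; exact hb _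
  rw [← sub_eq_zero, ← map_sub]
  exact abs_nonpos_iff.1 this

end banach

section l1
variable {G : Type u} [Group G] {A : Type v} [NormedRing A] [CompleteSpace A]

omit [Group G] [CompleteSpace A] in
theorem summable_weight (a : L1 G A) {w : G → ℝ} {T : ℝ} (h0 : ∀ g, 0 ≤ w g) (hT : ∀ g, w g ≤ T) :
    Summable fun g => ‖a.fn g‖ * w g :=
  Summable.of_nonneg_of_le (fun g => mul_nonneg (norm_nonneg _) (h0 g))
    (fun g => mul_le_mul_of_nonneg_left (hT g) (norm_nonneg _)) (a.summable.mul_right T)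

theorem weight_le (a : L1 G A) {w : G → ℝ} {T : ℝ} (h0 : ∀ g, 0 ≤ w g)
    (hT : ∀ g, a.fn g ≠ 0 → w g ≤ T) : ∑' g, ‖a.fn g‖ * w g ≤ T * ‖a‖ := by
  have key : ∀ g, ‖a.fn g‖ * w g ≤ T * ‖a.fn g‖ := fun g => by
    by_cases hg : a.fn g = 0
    · simp [hg]
    · rw [mul_comm]; exact mul_le_mul_of_nonneg_right (hT g hg) (norm_nonneg _)
  rw [L1.norm_eq, ← tsum_mul_left]
  exact (Summable.of_nonneg_of_le (fun g => mul_nonneg (norm_nonneg _) (h0 g)) key
    (a.summable.mul_left T)).tsum_le_tsum key (a.summable.mul_left T)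

theorem isSemi_weight {w : G → ℝ} {T : ℝ} (hw : ∀ g, 0 < w g) (hT : ∀ g, w g ≤ T)
    (hwm : ∀ x y, w (x * y) ≤ w x * w y) :
    IsSemi fun a : L1 G A => ∑' g, ‖a.fn g‖ * w g := by
  have hs := fun a : L1 G A => summable_weight a (fun g => (hw g).le) hT
  refine ⟨fun a => tsum_nonneg fun g => mul_nonneg (norm_nonneg _) (hw g).le, by simp,
    fun a b => ?_, fun a => by simp, fun a b => (conv_weight hw hwm (hs a) (hs b)).2⟩
  rw [← (hs a).tsum_add (hs b)]
  refine (hs _).tsum_le_tsum (fun g => ?_) ((hs a).add (hs b))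
  rw [← add_mul]
  exact mul_le_mul_of_nonneg_right (norm_add_le _ _) (hw g).le

omit [Group G] [CompleteSpace A] in
theorem ind_bound {tr : A →+ ℝ} {c : ℝ} (hb : ∀ x, |tr x| ≤ c * ‖x‖) (C : Set G)
    (f : G → A) (g : G) : ‖C.indicator (fun g => tr (f g)) g‖ ≤ c * ‖f g‖ :=
  (norm_indicator_le_norm_self _ _).trans (hb _)

theorem tauC_mul {tr : A →+ ℝ} {c : ℝ} (hb : ∀ x, |tr x| ≤ c * ‖x‖) (C : Set G)
    (a b : L1 G A) : HasSum (fun p : G × G => C.indicator (fun _ => tr (a.fn p.1 * b.fn p.2))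
      (p.1 * p.2)) (tauC tr (a * b).fn C) := by
  have hcont : Continuous tr := AddMonoidHomClass.continuous_of_bound tr c hb
  rw [← (shear G).hasSum_iff]
  have hs : Summable fun p : G × G =>
      C.indicator (fun _ => tr (a.fn p.2 * b.fn (p.2⁻¹ * p.1))) p.1 :=
    Summable.of_norm_bounded ((summable_conv_norm a.summable b.summable).mul_left c)
      fun p => (norm_indicator_le_norm_self _ _).trans (hb _)
  have h1 : ∀ g, HasSum (fun h => C.indicator (fun _ => tr (a.fn h * b.fn (h⁻¹ * g))) g)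
      (C.indicator (fun g => tr ((a * b).fn g)) g) := by
    intro g
    by_cases hg : g ∈ C
    · simp only [Set.indicator_of_mem hg]
      exact (summable_conv a.summable b.summable g).hasSum.map tr hcont
    · simp only [Set.indicator_of_notMem hg]
      exact hasSum_zero
  have h2 := (hs.hasSum.prod_fiberwise h1).tsum_eq
  have h3 := hs.hasSum
  rw [← h2] at h3
  have e : ((fun p : G × G => C.indicator (fun _ => tr (a.fn p.1 * b.fn p.2)) (p.1 * p.2)) ∘
      shear G) = fun p : G × G =>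
        C.indicator (fun _ => tr (a.fn p.2 * b.fn (p.2⁻¹ * p.1))) p.1 := by
    funext p
    simp [shear]
  rw [e]
  exact h3

theorem tauC_eq_of_close {tr : A →+ ℝ} {c : ℝ} {C : Set G} {p q : L1 G A}
    (h : Idem tr c q.fn C) (hp : p * p = p) (hq : q * q = q) (hpq : ‖p - q‖ < 1) :
    tauC tr p.fn C = tauC tr q.fn C := by
  have hs : ∀ a : L1 G A, Summable fun g => C.indicator (fun g => tr (a.fn g)) g := fun a =>
    Summable.of_norm_bounded (a.summable.mul_left c) (ind_bound h.bound C a.fn)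
  let T : L1 G A →+ ℝ := AddMonoidHom.mk' (fun a => tauC tr a.fn C) fun a b => by
    unfold tauC
    rw [← (hs a).tsum_add (hs b)]
    refine tsum_congr fun g => ?_
    by_cases hg : g ∈ C <;> simp [hg]
  refine trace_eq_of_close T (c := c) (fun a => ?_) (fun a b => ?_) hp hq hpq
  · rw [L1.norm_eq, ← tsum_mul_left]
    exact tsum_of_norm_bounded (a.summable.mul_left c).hasSum
      (ind_bound h.bound C a.fn)
  · have h1 := tauC_mul h.bound C a b
    have h2 := (Equiv.prodComm G G).hasSum_iff.2 (tauC_mul h.bound C b a)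
    refine h1.unique ?_
    have e : (fun p : G × G => C.indicator (fun _ => tr (a.fn p.1 * b.fn p.2)) (p.1 * p.2)) =
        (fun p : G × G => C.indicator (fun _ => tr (b.fn p.1 * a.fn p.2)) (p.1 * p.2)) ∘
          Equiv.prodComm G G := by
      funext ⟨x, y⟩
      have : x * y ∈ C ↔ y * x ∈ C :=
        ⟨fun hx => by simpa [mul_assoc] using h.conj y _ hx,
          fun hx => by simpa [mul_assoc] using h.conj x _ hx⟩
      by_cases hx : x * y ∈ C
      · simp [hx, this.1 hx, h.comm]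
      · simp [hx, mt this.2 hx]
    rw [e]
    exact h2

theorem exists_restr (e : L1 G A) : ∃ a : Finset G → L1 G A, Tendsto a atTop (𝓝 e) ∧
    ∀ S, ∀ g ∉ S, (a S).fn g = 0 := by
  classical
  refine ⟨fun S => (∑ i ∈ S, lp.single 1 i (e.fn i) : lp (fun _ : G => A) 1), ?_, fun S g hg => ?_⟩
  · exact lp.hasSum_single (by simp) (show lp (fun _ : G => A) 1 from e)
  · show (∑ i ∈ S, lp.single 1 i (e.fn i) : lp (fun _ : G => A) 1) g = 0
    rw [lp.coeFn_sum, Finset.sum_apply]
    exact Finset.sum_eq_zero fun i hi => lp.single_apply_ne _ _ _ fun h => hg (h ▸ hi)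

end l1

/-- Deformation of an idempotent to one with a first moment, uniformly for all bounded lengths
that are at most one on a fixed finite set; the traces at all conjugation invariant sets agree. -/
theorem exists_deform {G : Type u} [Group G] {A : Type v} [NormedRing A] [CompleteSpace A]
    (e : G → A) (hsum : Summable fun g => ‖e g‖)
    (hidem : ∀ g, HasSum (fun h => e h * e (h⁻¹ * g)) (e g)) :
    ∃ (S : Finset G) (K : ℝ) (e' : G → A), (Summable fun g => ‖e' g‖) ∧
      (∀ g, HasSum (fun h => e' h * e' (h⁻¹ * g)) (e' g)) ∧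
      (∀ (ℓ : G → ℕ) (T : ℕ), IsLen ℓ → (∀ g, ℓ g ≤ T) → (∀ g ∈ S, ℓ g ≤ 1) →
        ∑' g, ‖e' g‖ * (1 + (ℓ g : ℝ)) ≤ K) ∧
      ∀ (tr : A →+ ℝ) (c : ℝ) (C : Set G), Idem tr c e C → tauC tr e' C = tauC tr e C := by
  let q : L1 G A := L1.mk e hsum
  have hq : q * q = q := L1.ext' fun g => (hidem g).tsum_eq
  obtain ⟨a, ha, hsupp⟩ := exists_restr q
  obtain ⟨R, hR⟩ : ∃ R, R = 2 * (‖q‖ + 1) := ⟨_, rfl⟩
  have hR0 : 2 ≤ R := by linarith [norm_nonneg q]
  obtain ⟨ε, hε0, hε⟩ : ∃ ε : ℝ, 0 < ε ∧ ε * (2 * R + 3) = 1 / 4 :=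
    ⟨1 / 4 / (2 * R + 3), by positivity, div_mul_cancel₀ _ (by positivity)⟩
  have hε1 : ε ≤ 1 / 14 := by nlinarith
  have t1 : Tendsto (fun S => ‖a S - q‖) atTop (𝓝 0) := tendsto_iff_norm_sub_tendsto_zero.1 ha
  have t2 : Tendsto (fun S => ‖a S * a S - a S‖) atTop (𝓝 0) := by
    have := ((ha.mul ha).sub ha).norm
    rwa [hq, sub_self, norm_zero] at this
  obtain ⟨S, s1, s2⟩ := ((t1.eventually (gt_mem_nhds (by norm_num : (0 : ℝ) < 1 / 2))).and
    (t2.eventually (gt_mem_nhds (by positivity : 0 < ε / 3)))).exists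
  have n1 : 2 * ‖a S‖ ≤ R := by linarith [norm_le_norm_add_norm_sub' (a S) q]
  obtain ⟨p, hp, hpa, hν⟩ := exists_idem (a S) (R := R) (ε := ε) (by linarith [norm_nonneg (a S)])
    (by linarith [norm_nonneg (a S * a S - a S)]) hε1 hε.le
  refine ⟨S, R + 1, p.fn, p.summable, fun g => ?_, fun ℓ T hℓ hT hS => ?_, fun tr c C h => ?_⟩
  · have := (summable_conv p.summable p.summable g).hasSum
    rwa [← L1.fn_mul, hp] at this
  · have w0 : ∀ g, (0 : ℝ) < 1 + ℓ g := fun g => by positivity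
    have wT : ∀ g, (1 : ℝ) + ℓ g ≤ 1 + T := fun g => by
      have : (ℓ g : ℝ) ≤ T := by exact_mod_cast hT g
      linarith
    refine hν _ (1 + T) (isSemi_weight w0 wT fun x y => ?_)
      (fun b => weight_le b (fun g => (w0 g).le) fun g _ => wT g) ?_ ?_
    · have h1 : (ℓ (x * y) : ℝ) ≤ ℓ x + ℓ y := by exact_mod_cast hℓ.mul x y
      nlinarith [mul_nonneg (Nat.cast_nonneg (α := ℝ) (ℓ x)) (Nat.cast_nonneg (α := ℝ) (ℓ y))]
    · refine (weight_le (a S) (T := 2) (fun g => (w0 g).le) fun g hg => ?_).trans n1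
      have : (ℓ g : ℝ) ≤ 1 := by exact_mod_cast hS g (by_contra fun h => hg (hsupp S g h))
      linarith
    · refine (weight_le _ (T := 3) (fun g => (w0 g).le) fun g hg => ?_).trans (by linarith)
      have : ℓ g ≤ 2 := by
        by_contra hl
        apply hg
        have e1 : (a S).fn g = 0 := hsupp S g fun h => hl ((hS g h).trans (by norm_num))
        have e2 : ∀ h, (a S).fn h * (a S).fn (h⁻¹ * g) = 0 := by
          intro h
          by_cases h1 : h ∈ S
          · rw [hsupp S (h⁻¹ * g) fun h2 => hl ?_, mul_zero]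
            have := hℓ.mul h (h⁻¹ * g)
            rw [mul_inv_cancel_left] at this
            linarith [hS _ h1, hS _ h2]
          · rw [hsupp S h h1, zero_mul]
        rw [L1.fn_sub, L1.fn_mul, e1]
        simp [e2]
      have : (ℓ g : ℝ) ≤ 2 := by exact_mod_cast this
      linarith
  · refine tauC_eq_of_close (q := q) h hp hq ?_
    linarith [norm_sub_le_norm_sub_add_norm_sub p (a S) q]

end Vale.Agent.P184
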