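import Vale.Agent.P184.Defs

/-!
# P184: the convolution Banach ring of summable functions
-/

namespace Vale.Agent.P184

open Finset

universe u v

section conv
variable {G : Type u} [Group G]

/-- the shear of a product of two copies of a group -/
def shear (G : Type u) [Group G] : G × G ≃ G × G where
  toFun p := (p.2, p.2⁻¹ * p.1)
  invFun p := (p.1 * p.2, p.1)
  left_inv p := by simp
  right_inv p := by simp

theorem hasSum_conv_real {U V : G → ℝ} (hU : Summable U) (hV : Summable V) (hU0 : ∀ g, 0 ≤ U g)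
    (hV0 : ∀ g, 0 ≤ V g) :
    HasSum (fun p : G × G => U p.2 * V (p.2⁻¹ * p.1)) ((∑' g, U g) * ∑' g, V g) := by
  have h1 : Summable fun p : G × G => U p.1 * V p.2 := hU.mul_of_nonneg hV hU0 hV0
  have h2 := h1.hasSum
  rw [← hU.tsum_mul_tsum hV h1] at h2
  exact (shear G).hasSum_iff.2 h2

variable {A : Type v} [NormedRing A]

theorem summable_conv_norm {a b : G → A} (ha : Summable fun g => ‖a g‖)
    (hb : Summable fun g => ‖b g‖) :
    Summable fun p : G × G => ‖a p.2 * b (p.2⁻¹ * p.1)‖ :=
  Summable.of_nonneg_of_le (fun _ => norm_nonneg _) (fun _ => norm_mul_le _ _)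
    (hasSum_conv_real ha hb (fun _ => norm_nonneg _) fun _ => norm_nonneg _).summable

theorem summable_conv [CompleteSpace A] {a b : G → A} (ha : Summable fun g => ‖a g‖)
    (hb : Summable fun g => ‖b g‖) (g : G) : Summable fun h => a h * b (h⁻¹ * g) :=
  ((summable_conv_norm ha hb).prod_factor g).of_norm

theorem conv_weight {a b : G → A} {w : G → ℝ} (hw : ∀ g, 0 < w g)
    (hwm : ∀ x y, w (x * y) ≤ w x * w y) (ha : Summable fun g => ‖a g‖ * w g)
    (hb : Summable fun g => ‖b g‖ * w g) :
    (Summable fun g => ‖∑' h, a h * b (h⁻¹ * g)‖ * w g) ∧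
      ∑' g, ‖∑' h, a h * b (h⁻¹ * g)‖ * w g ≤ (∑' g, ‖a g‖ * w g) * ∑' g, ‖b g‖ * w g := by
  have H := hasSum_conv_real ha hb (fun g => mul_nonneg (norm_nonneg _) (hw g).le)
    fun g => mul_nonneg (norm_nonneg _) (hw g).le
  have H2 := H.prod_fiberwise fun g => (H.summable.prod_factor g).hasSum
  have key : ∀ g, ‖∑' h, a h * b (h⁻¹ * g)‖ * w g ≤
      ∑' h, ‖a h‖ * w h * (‖b (h⁻¹ * g)‖ * w (h⁻¹ * g)) := by
    intro g
    rw [← le_div_iff₀ (hw g)]
    refine tsum_of_norm_bounded ((H.summable.prod_factor g).hasSum.div_const (w g)) fun h => ?_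
    rw [le_div_iff₀ (hw g)]
    have h1 := hwm h (h⁻¹ * g)
    rw [mul_inv_cancel_left] at h1
    calc ‖a h * b (h⁻¹ * g)‖ * w g ≤ ‖a h‖ * ‖b (h⁻¹ * g)‖ * (w h * w (h⁻¹ * g)) :=
          mul_le_mul (norm_mul_le _ _) h1 (hw g).le (by positivity)
      _ = _ := by ring
  have hs : Summable fun g => ‖∑' h, a h * b (h⁻¹ * g)‖ * w g :=
    Summable.of_nonneg_of_le (fun g => mul_nonneg (norm_nonneg _) (hw g).le) key H2.summable
  exact ⟨hs, H2.tsum_eq ▸ hs.tsum_le_tsum key H2.summable⟩

theorem conv_norm {a b : G → A} (ha : Summable fun g => ‖a g‖) (hb : Summable fun g => ‖b g‖) :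
    (Summable fun g => ‖∑' h, a h * b (h⁻¹ * g)‖) ∧
      ∑' g, ‖∑' h, a h * b (h⁻¹ * g)‖ ≤ (∑' g, ‖a g‖) * ∑' g, ‖b g‖ := by
  simpa using conv_weight (w := fun _ => 1) (a := a) (b := b) (fun _ => one_pos)
    (fun _ _ => by simp) (by simpa using ha) (by simpa using hb)

theorem conv_assoc [CompleteSpace A] {a b c : G → A} (ha : Summable fun g => ‖a g‖)
    (hb : Summable fun g => ‖b g‖) (hc : Summable fun g => ‖c g‖) (g : G) :
    ∑' h, (∑' k, a k * b (k⁻¹ * h)) * c (h⁻¹ * g) =
      ∑' k, a k * ∑' h, b h * c (h⁻¹ * (k⁻¹ * g)) := by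
  have hs : Summable fun p : G × G => a p.2 * b (p.2⁻¹ * p.1) * c (p.1⁻¹ * g) := by
    refine Summable.of_norm_bounded ((summable_conv_norm ha hb).mul_right (∑' g, ‖c g‖))
      fun p => (norm_mul_le _ _).trans (mul_le_mul_of_nonneg_left ?_ (norm_nonneg _))
    exact hc.le_tsum _ fun _ _ => norm_nonneg _
  have e1 : ∀ h, (∑' k, a k * b (k⁻¹ * h)) * c (h⁻¹ * g) =
      ∑' k, a k * b (k⁻¹ * h) * c (h⁻¹ * g) := fun h =>
    ((summable_conv ha hb h).tsum_mul_right _).symm
  have e2 : ∀ k, a k * ∑' h, b h * c (h⁻¹ * (k⁻¹ * g)) =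
      ∑' h, a k * b (k⁻¹ * h) * c (h⁻¹ * g) := fun k => by
    rw [← (summable_conv hb hc (k⁻¹ * g)).tsum_mul_left,
      ← (Equiv.mulLeft k).tsum_eq fun h => a k * b (k⁻¹ * h) * c (h⁻¹ * g)]
    refine tsum_congr fun h => ?_
    simp [mul_assoc]
  simp only [e1, e2]
  exact (Summable.tsum_comm (f := fun h k => a k * b (k⁻¹ * h) * c (h⁻¹ * g)) hs).symm

end conv

/-- summable functions with the convolution product -/
def L1 (G : Type u) (A : Type v) [NormedRing A] : Type (max u v) := lp (fun _ : G => A) 1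

namespace L1
variable {G : Type u} {A : Type v} [NormedRing A]

noncomputable instance : NormedAddCommGroup (L1 G A) :=
  inferInstanceAs (NormedAddCommGroup (lp (fun _ : G => A) 1))

instance [CompleteSpace A] : CompleteSpace (L1 G A) :=
  inferInstanceAs (CompleteSpace (lp (fun _ : G => A) 1))

/-- the underlying function -/
def fn (a : L1 G A) : G → A := (show lp (fun _ : G => A) 1 from a)

theorem ext' {a b : L1 G A} (h : ∀ g, a.fn g = b.fn g) : a = b := lp.ext (funext h)

theorem summable (a : L1 G A) : Summable fun g => ‖a.fn g‖ := by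
  have := (lp.memℓp (show lp (fun _ : G => A) 1 from a)).summable (by simp)
  simp only [ENNReal.toReal_one, Real.rpow_one] at this
  exact this

theorem norm_eq (a : L1 G A) : ‖a‖ = ∑' g, ‖a.fn g‖ := by
  have := lp.norm_eq_tsum_rpow (by simp) (show lp (fun _ : G => A) 1 from a)
  simp only [ENNReal.toReal_one, Real.rpow_one, div_one] at this
  exact this

/-- a summable function as an element -/
def mk (a : G → A) (ha : Summable fun g => ‖a g‖) : L1 G A :=
  (⟨a, memℓp_gen (by simpa using ha)⟩ : lp (fun _ : G => A) 1)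

@[simp] theorem fn_mk (a : G → A) (ha : Summable fun g => ‖a g‖) : (mk a ha).fn = a := rfl
@[simp] theorem fn_add (a b : L1 G A) (g : G) : (a + b).fn g = a.fn g + b.fn g := rfl
@[simp] theorem fn_sub (a b : L1 G A) (g : G) : (a - b).fn g = a.fn g - b.fn g := rfl
@[simp] theorem fn_neg (a : L1 G A) (g : G) : (-a).fn g = -a.fn g := rfl
@[simp] theorem fn_zero (g : G) : (0 : L1 G A).fn g = 0 := rfl

variable [Group G] [CompleteSpace A]

noncomputable instance : Mul (L1 G A) :=
  ⟨fun a b => mk (fun g => ∑' h, a.fn h * b.fn (h⁻¹ * g)) (conv_norm a.summable b.summable).1⟩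

omit [CompleteSpace A] in
theorem fn_mul (a b : L1 G A) (g : G) : (a * b).fn g = ∑' h, a.fn h * b.fn (h⁻¹ * g) := rfl

open Classical in
noncomputable instance : One (L1 G A) :=
  ⟨mk (fun g => if g = 1 then 1 else 0)
    (summable_of_ne_finset_zero (s := {1}) fun g hg => by simp_all)⟩

open Classical in
omit [CompleteSpace A] in
theorem fn_one (g : G) : (1 : L1 G A).fn g = if g = 1 then 1 else 0 := rfl

noncomputable instance : Ring (L1 G A) :=
  { (inferInstance : AddCommGroup (L1 G A)), (inferInstance : Mul (L1 G A)),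
    (inferInstance : One (L1 G A)) with
    left_distrib := fun a b c => ext' fun g => by
      simp only [fn_mul, fn_add, mul_add]
      exact (summable_conv a.summable b.summable g).tsum_add
        (summable_conv a.summable c.summable g)
    right_distrib := fun a b c => ext' fun g => by
      simp only [fn_mul, fn_add, add_mul]
      exact (summable_conv a.summable c.summable g).tsum_add
        (summable_conv b.summable c.summable g)
    zero_mul := fun a => ext' fun g => by simp [fn_mul]
    mul_zero := fun a => ext' fun g => by simp [fn_mul]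
    mul_assoc := fun a b c => ext' fun g => conv_assoc a.summable b.summable c.summable g
    one_mul := fun a => ext' fun g => by
      rw [fn_mul, tsum_eq_single 1 fun h hh => by simp [fn_one, hh]]
      simp [fn_one]
    mul_one := fun a => ext' fun g => by
      rw [fn_mul, tsum_eq_single g fun h hh => by
        simp [fn_one, inv_mul_eq_one, hh]]
      simp [fn_one] }

noncomputable instance : NormedRing (L1 G A) :=
  { (inferInstance : NormedAddCommGroup (L1 G A)), (inferInstance : Ring (L1 G A)) with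
    norm_mul_le := fun a b => by
      rw [norm_eq, norm_eq, norm_eq]
      exact (conv_norm a.summable b.summable).2 }

end L1

end Vale.Agent.P184
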