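import Vale.Agent.P184.Defs

/-!
# P184: the sawtooth weight
-/

namespace Vale.Agent.P184

open Finset

theorem saw_abel_aux (h : ℕ) (f : ℕ → ℝ) (n : ℕ) :
    ∑ u ∈ range n, saw h u * (f (u + 1) - f u) =
      f 0 + saw h n * f n - (h : ℝ)⁻¹ * ∑ u ∈ range n, f (u + 1) := by
  induction n with
  | zero => simp [saw]
  | succ n ih =>
    rw [sum_range_succ, ih, sum_range_succ]
    simp only [saw]
    push_cast
    ring

/-- Abel summation for the sawtooth. -/
theorem saw_abel (h : ℕ) (hh : 0 < h) (f : ℕ → ℝ) :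
    ∑ u ∈ range h, saw h u * (f (u + 1) - f u) =
      f 0 - (h : ℝ)⁻¹ * ∑ u ∈ range h, f (u + 1) := by
  have h0 : (h : ℝ) ≠ 0 := by positivity
  rw [saw_abel_aux]
  simp [saw, div_self h0]

theorem abs_saw_le {h u : ℕ} (hu : u < h) : |saw h u| ≤ 1 := by
  have h0 : (0 : ℝ) < h := by exact_mod_cast (by omega : 0 < h)
  have h1 : (u : ℝ) / h ≤ 1 := by
    rw [div_le_one h0]; exact_mod_cast hu.le
  have h2 : (0 : ℝ) ≤ (u : ℝ) / h := by positivity
  rw [saw, abs_le]
  constructor <;> linarith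

/-- A periodic sequence has the same sum over all periods. -/
theorem sum_range_shift_of_periodic (m : ℕ) (f : ℕ → ℝ) (hf : ∀ a, f (a + m) = f a) (u : ℕ) :
    ∑ a ∈ range m, f (a + u) = ∑ a ∈ range m, f a := by
  induction u with
  | zero => simp
  | succ u ih =>
    have h1 := sum_range_succ (fun a => f (a + u)) m
    have h2 := sum_range_succ' (fun a => f (a + u)) m
    have h3 : f (m + u) = f (0 + u) := by rw [zero_add, add_comm, hf]
    have h4 : ∑ a ∈ range m, f (a + (u + 1)) = ∑ a ∈ range m, f (a + 1 + u) :=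
      sum_congr rfl fun a _ => by rw [add_assoc, add_comm 1 u]
    rw [h4, ← ih]
    linarith

end Vale.Agent.P184
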