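import Vale.Agent.P184.Minor
import Vale.Agent.P184.Saw

/-!
# P184: level zero
-/

namespace Vale.Agent.P184

open Finset

namespace Level0

theorem sum_hi {S : Type*} [Fintype S] (F : S → S → ℝ) (hF : ∀ s t, 0 ≤ F s t) (c : ℝ)
    (hc : ∀ t, ∑ s, F s t ≤ c) (hc0 : 0 ≤ c) (n : ℕ) (hn : n * c ≤ Fintype.card S) :
    ∑ a : Fin n → S, ∏ i, (1 + ∑ l, if i < l then F (a i) (a l) else 0)
      ≤ (2 * Fintype.card S : ℝ) ^ n := by
  induction n with
  | zero => simp
  | succ n ih =>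
    have hn' : n * c ≤ Fintype.card S := by push_cast at hn; nlinarith
    rw [← (Fin.consEquiv fun _ : Fin (n + 1) => S).sum_comp, Fintype.sum_prod_type, sum_comm]
    have key : ∀ a : Fin n → S, ∑ s : S, ∏ i, (1 + ∑ l, if i < l then
        F ((Fin.consEquiv fun _ : Fin (n + 1) => S) (s, a) i)
          ((Fin.consEquiv fun _ : Fin (n + 1) => S) (s, a) l) else 0)
        ≤ (2 * Fintype.card S : ℝ) * ∏ i, (1 + ∑ l, if i < l then F (a i) (a l) else 0) := by
      intro a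
      have e : ∀ s : S, ∏ i, (1 + ∑ l, if i < l then
          F ((Fin.consEquiv fun _ : Fin (n + 1) => S) (s, a) i)
            ((Fin.consEquiv fun _ : Fin (n + 1) => S) (s, a) l) else 0)
          = (1 + ∑ l, F s (a l)) * ∏ i, (1 + ∑ l, if i < l then F (a i) (a l) else 0) := by
        intro s
        simp [Fin.prod_univ_succ, Fin.sum_univ_succ, Fin.consEquiv]
      simp only [e, ← sum_mul]
      refine mul_le_mul_of_nonneg_right ?_ (prod_nonneg fun i _ => ?_)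
      · rw [sum_add_distrib, sum_comm]
        have : ∑ l, ∑ s, F s (a l) ≤ n * c := by
          calc ∑ l, ∑ s, F s (a l) ≤ ∑ _l : Fin n, c := sum_le_sum fun l _ => hc _
            _ = n * c := by simp
        simp only [sum_const, card_univ, nsmul_eq_mul, mul_one]
        linarith
      · have : 0 ≤ ∑ l, if i < l then F (a i) (a l) else 0 :=
          sum_nonneg fun l _ => by split_ifs; exacts [hF _ _, le_rfl]
        linarith
    refine (sum_le_sum fun a _ => key a).trans ?_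
    rw [← mul_sum, pow_succ']
    exact mul_le_mul_of_nonneg_left (ih hn') (by positivity)

theorem sum_lo {S : Type*} [Fintype S] (F : S → S → ℝ) (hF : ∀ s t, 0 ≤ F s t) (c : ℝ)
    (hc : ∀ t, ∑ s, F s t ≤ c) (hc0 : 0 ≤ c) (n : ℕ) (hn : n * c ≤ Fintype.card S) :
    ∑ a : Fin n → S, ∏ i, (1 + ∑ l, if l < i then F (a i) (a l) else 0)
      ≤ (2 * Fintype.card S : ℝ) ^ n := by
  refine le_trans (le_of_eq ?_) (sum_hi F hF c hc hc0 n hn)
  refine Fintype.sum_equiv (Equiv.arrowCongr Fin.revPerm (Equiv.refl S)) _ _ fun a => ?_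
  refine Fintype.prod_equiv Fin.revPerm _ _ fun i => ?_
  congr 1
  refine Fintype.sum_equiv Fin.revPerm _ _ fun l => ?_
  simp [Equiv.arrowCongr]

theorem card_window {m : ℕ} [NeZero m] (w : ℕ) (t : ZMod m) :
    (univ.filter fun s : ZMod m => (t - s).val ≤ w).card ≤ w + 1 := by
  rw [← card_range (w + 1)]
  refine card_le_card_of_injOn (fun s => (t - s).val) (fun s hs => ?_) fun s _ s' _ h => ?_
  · simp only [coe_filter, mem_univ, true_and, Set.mem_ofPred_eq] at hs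
    simp only [coe_range, Set.mem_Iio]
    omega
  · exact sub_right_injective (ZMod.val_injective m h)

/-- a sum over a period in which only one residue contributes -/
theorem abs_sum_one {m : ℕ} [NeZero m] (B : ℕ → ℝ) (c : ℝ) (hB : ∀ t, |B t| ≤ c) (u : ℕ)
    (s : ZMod m) (h0 : ∀ t, ((t + u : ℕ) : ZMod m) ≠ s → B t = 0) :
    |∑ t ∈ range m, B t| ≤ c := by
  have hc : 0 ≤ c := (abs_nonneg _).trans (hB 0)
  refine (abs_sum_le_sum_abs _ _).trans ?_
  have : ∀ t ∈ range m, |B t| ≤ if t = (s - u).val then c else 0 := by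
    intro t ht
    split_ifs with h
    · exact hB t
    · rw [h0 t, abs_zero]
      intro e
      apply h
      rw [← e]; push_cast
      rw [add_sub_cancel_right, ZMod.val_cast_of_lt (mem_range.1 ht)]
  refine (sum_le_sum this).trans ?_
  rw [sum_ite_eq']
  split_ifs
  exacts [le_rfl, hc]

/-- a double sum in which only one term contributes -/
theorem abs_sum_two {m h : ℕ} [NeZero m] (hm : h < m) (d : ℕ) (hd : d ≤ 1) (B : ℕ → ℕ → ℝ)
    (c : ℝ) (hB : ∀ t s, |B t s| ≤ c) (α β : ZMod m)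
    (h1 : ∀ t s : ℕ, (t : ZMod m) ≠ α → B t s = 0)
    (h2 : ∀ t s : ℕ, (s : ZMod m) ≠ β → B t s = 0) :
    |∑ t ∈ range m, ∑ u ∈ range h, saw h u * B t (t + u + d)|
      ≤ if (β - α).val ≤ h then c else 0 := by
  have hc : 0 ≤ c := (abs_nonneg _).trans (hB 0 0)
  have hc' : 0 ≤ if (β - α).val ≤ h then c else 0 := by split_ifs; exacts [hc, le_rfl]
  refine abs_sum_one _ _ (fun t => ?_) 0 α fun t ht => ?_
  · refine (abs_sum_le_sum_abs _ _).trans ?_
    have : ∀ u ∈ range h, |saw h u * B t (t + u + d)| ≤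
        if u = (β - α).val - d then (if (β - α).val ≤ h then c else 0) else 0 := by
      intro u hu
      have hu' := mem_range.1 hu
      by_cases e1 : (t : ZMod m) = α
      · by_cases e2 : ((t + u + d : ℕ) : ZMod m) = β
        · have e3 : (β - α).val = u + d := by
            rw [← e1, ← e2, add_assoc, Nat.cast_add, add_sub_cancel_left,
              ZMod.val_cast_of_lt (by omega)]
          rw [if_pos (by omega), if_pos (by omega), abs_mul]
          exact (mul_le_of_le_one_left (abs_nonneg _) (abs_saw_le hu')).trans (hB _ _)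
        · rw [h2 _ _ e2, mul_zero, abs_zero]
          split_ifs; exacts [hc, le_rfl, le_rfl]
      · rw [h1 _ _ e1, mul_zero, abs_zero]
        split_ifs; exacts [hc, le_rfl, le_rfl]
    refine (sum_le_sum this).trans ?_
    rw [sum_ite_eq']
    split_ifs
    exacts [le_rfl, le_rfl, hc, le_rfl]
  · refine sum_eq_zero fun u _ => ?_
    rw [h1 _ _ (by simpa using ht), mul_zero]

end Level0

open Level0

/-- Average of the random factor of level zero. -/
theorem sum_Del0_le {n m : ℕ} [NeZero m] (w : ℕ) (y : ℝ) (hy : 0 < y)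
    (h : (n : ℝ) * (w + 1) ≤ y * m) :
    ∑ a : Fin n → ZMod m, Del0 w y a ≤ (2 * m : ℝ) ^ n := by
  let F : ZMod m → ZMod m → ℝ := fun s t => if (t - s).val ≤ w then y⁻¹ else 0
  have hF : ∀ s t, 0 ≤ F s t := fun s t => by
    simp only [F]; split_ifs; exacts [by positivity, le_rfl]
  have hc : ∀ t, ∑ s, F s t ≤ (w + 1) * y⁻¹ := fun t => by
    simp only [F]
    rw [← sum_filter, sum_const, nsmul_eq_mul]
    refine mul_le_mul_of_nonneg_right ?_ (by positivity)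
    exact_mod_cast card_window w t
  have hn : n * ((w + 1) * y⁻¹) ≤ Fintype.card (ZMod m) := by
    rw [ZMod.card, ← mul_assoc, ← div_eq_mul_inv, div_le_iff₀ hy]; linarith
  have h1 := sum_hi F hF _ hc (by positivity) n hn
  have h2 := sum_lo F hF _ hc (by positivity) n hn
  rw [ZMod.card] at h1 h2
  have key : ∀ a : Fin n → ZMod m, Del0 w y a ≤
      (∏ i, (1 + ∑ l, if i < l then F (a i) (a l) else 0)
        + ∏ i, (1 + ∑ l, if l < i then F (a i) (a l) else 0)) / 2 := by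
    intro a
    set A : Fin n → ℝ := fun i => ∑ l, if i < l then F (a i) (a l) else 0 with hA
    set B : Fin n → ℝ := fun i => ∑ l, if l < i then F (a i) (a l) else 0 with hB
    have hA0 : ∀ i, 0 ≤ A i := fun i =>
      sum_nonneg fun l _ => by split_ifs; exacts [hF _ _, le_rfl]
    have hB0 : ∀ i, 0 ≤ B i := fun i =>
      sum_nonneg fun l _ => by split_ifs; exacts [hF _ _, le_rfl]
    have hcnt : ∀ i, (cnt w a i : ℝ) / y = A i + B i := by
      intro i
      simp only [hA, hB, ← sum_add_distrib, cnt]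
      rw [card_filter, Nat.cast_sum, sum_div]
      refine sum_congr rfl fun l _ => ?_
      rcases lt_trichotomy i l with hl | hl | hl
      · by_cases hw : (a l - a i).val ≤ w <;> simp [F, hl, hl.ne', hl.not_gt, hw]
      · simp [hl]
      · by_cases hw : (a l - a i).val ≤ w <;> simp [F, hl, hl.ne, hl.not_gt, hw]
    have h3 : Del0 w y a ≤ Real.sqrt (∏ i, (1 + A i)) * Real.sqrt (∏ i, (1 + B i)) := by
      rw [Real.sqrt_prod _ fun i _ => by linarith [hA0 i],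
        Real.sqrt_prod _ fun i _ => by linarith [hB0 i], ← prod_mul_distrib, Del0]
      refine prod_le_prod (fun i _ => Real.sqrt_nonneg _) fun i _ => ?_
      rw [hcnt, ← Real.sqrt_mul (by linarith [hA0 i])]
      exact Real.sqrt_le_sqrt (by nlinarith [mul_nonneg (hA0 i) (hB0 i)])
    have h4 : Real.sqrt (∏ i, (1 + A i)) ^ 2 = ∏ i, (1 + A i) :=
      Real.sq_sqrt (prod_nonneg fun i _ => by linarith [hA0 i])
    have h5 : Real.sqrt (∏ i, (1 + B i)) ^ 2 = ∏ i, (1 + B i) :=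
      Real.sq_sqrt (prod_nonneg fun i _ => by linarith [hB0 i])
    nlinarith [sq_nonneg (Real.sqrt (∏ i, (1 + A i)) - Real.sqrt (∏ i, (1 + B i)))]
  refine (sum_le_sum fun a _ => key a).trans ?_
  rw [← sum_div, sum_add_distrib]
  linarith

variable {G : Type*} [Group G] {ℓ : G → ℕ}

theorem k0_nonneg (τ : ℕ) (x y : G) : 0 ≤ k0 ℓ τ x y := by
  have : min (ℓ (x⁻¹ * y) : ℝ) τ / τ ≤ 1 :=
    div_le_one_of_le₀ (min_le_right _ _) (Nat.cast_nonneg _)
  simp only [k0]; linarith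

theorem k0_le_one (τ : ℕ) (x y : G) : k0 ℓ τ x y ≤ 1 := by
  have : 0 ≤ min (ℓ (x⁻¹ * y) : ℝ) τ / τ := by positivity
  simp only [k0]; linarith

theorem Level0.abs_k_sub (τ : ℕ) (a b c : ℕ) (h1 : a ≤ b + c) (h2 : b ≤ a + c) :
    |(1 - min (a : ℝ) τ / τ) - (1 - min (b : ℝ) τ / τ)| ≤ (c : ℝ) / τ := by
  have e : (1 - min (a : ℝ) τ / τ) - (1 - min (b : ℝ) τ / τ)
      = (min (b : ℝ) τ - min (a : ℝ) τ) / τ := by ring
  rw [e, abs_div, Nat.abs_cast]
  refine div_le_div_of_nonneg_right ?_ (Nat.cast_nonneg _)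
  have h1' : (a : ℝ) ≤ b + c := by exact_mod_cast h1
  have h2' : (b : ℝ) ≤ a + c := by exact_mod_cast h2
  have hc : (0 : ℝ) ≤ c := Nat.cast_nonneg _
  rw [abs_le]
  constructor <;> simp only [min_def] <;> split_ifs <;> linarith

theorem abs_k0_sub_right (hℓ : IsLen ℓ) (τ : ℕ) (x y g : G) :
    |k0 ℓ τ x (y * g) - k0 ℓ τ x y| ≤ (ℓ g : ℝ) / τ := by
  refine Level0.abs_k_sub τ _ _ _ ?_ ?_
  · rw [← mul_assoc]; exact hℓ.mul _ _
  · have := hℓ.mul (x⁻¹ * (y * g)) g⁻¹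
    rw [hℓ.inv] at this
    simpa [mul_assoc] using this

theorem abs_k0_sub_left (hℓ : IsLen ℓ) (τ : ℕ) (x y g : G) :
    |k0 ℓ τ (x * g) y - k0 ℓ τ x y| ≤ (ℓ g : ℝ) / τ := by
  refine Level0.abs_k_sub τ _ _ _ ?_ ?_
  · have := hℓ.mul g⁻¹ (x⁻¹ * y)
    rw [hℓ.inv, add_comm] at this
    simpa [mul_assoc] using this
  · have := hℓ.mul g ((x * g)⁻¹ * y)
    rw [add_comm] at this
    simpa [mul_assoc] using this

namespace Level0

theorem abs_k0_sub_le_one (τ : ℕ) (x y x' y' : G) : |k0 ℓ τ x y - k0 ℓ τ x' y'| ≤ 1 := by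
  have := k0_nonneg (ℓ := ℓ) τ x y
  have := k0_nonneg (ℓ := ℓ) τ x' y'
  have := k0_le_one (ℓ := ℓ) τ x y
  have := k0_le_one (ℓ := ℓ) τ x' y'
  rw [abs_le]; constructor <;> linarith

/-- the mixed bracket -/
noncomputable def br (ℓ : G → ℕ) (τ : ℕ) (x x' y y' : G) : ℝ :=
  k0 ℓ τ x' y' - k0 ℓ τ x y' - k0 ℓ τ x' y + k0 ℓ τ x y

theorem abs_br_le_two (τ : ℕ) (x x' y y' : G) : |br ℓ τ x x' y y'| ≤ 2 := by
  have h1 := abs_le.1 (abs_k0_sub_le_one (ℓ := ℓ) τ x' y' x y')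
  have h2 := abs_le.1 (abs_k0_sub_le_one (ℓ := ℓ) τ x' y x y)
  rw [br, abs_le]; constructor <;> linarith [h1.1, h1.2, h2.1, h2.2]

theorem abs_br_le (hℓ : IsLen ℓ) (τ : ℕ) (x y g g' : G) :
    |br ℓ τ x (x * g) y (y * g')| ≤ (τ : ℝ)⁻¹ * (1 + ℓ g) * (1 + ℓ g') := by
  have h1 := abs_le.1 (abs_k0_sub_left hℓ τ x (y * g') g)
  have h2 := abs_le.1 (abs_k0_sub_left hℓ τ x y g)
  have h3 := abs_le.1 (abs_k0_sub_right hℓ τ (x * g) y g')
  have h4 := abs_le.1 (abs_k0_sub_right hℓ τ x y g')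
  have h5 : (ℓ g : ℝ) / τ + (ℓ g' : ℝ) / τ ≤ (τ : ℝ)⁻¹ * (1 + ℓ g) * (1 + ℓ g') := by
    rw [← add_div, div_eq_inv_mul, mul_assoc]
    refine mul_le_mul_of_nonneg_left ?_ (by positivity)
    have : (0 : ℝ) ≤ (ℓ g : ℝ) * ℓ g' := by positivity
    nlinarith
  rw [br, abs_le]
  constructor <;> linarith [h1.1, h1.2, h2.1, h2.2, h3.1, h3.2, h4.1, h4.2]

/-- the numerator with a delay -/
noncomputable def Nd (ℓ : G → ℕ) (P : Par) (d : ℕ) (v v' : ℕ → G) : ℝ :=
  ∑ t ∈ range P.m, ∑ u ∈ range P.h0, saw P.h0 u * k0 ℓ P.τ (v t) (v' (t + u + d))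

theorem mixed_Nd (P : Par) (d : ℕ) {n : ℕ} (u : Fin (n + 1) → ℕ → G) (i l : Fin n) :
    mixed (fun p q => Nd ℓ P d (u p) (u q)) i l =
      ∑ t ∈ range P.m, ∑ s ∈ range P.h0, saw P.h0 s * br ℓ P.τ (u i.castSucc t) (u i.succ t)
        (u l.castSucc (t + s + d)) (u l.succ (t + s + d)) := by
  simp only [mixed, Nd, br, ← sum_sub_distrib, ← sum_add_distrib]
  refine sum_congr rfl fun t _ => sum_congr rfl fun s _ => ?_
  ring

theorem Nd_sub (P : Par) (hh : 0 < P.h0) (v v' : ℕ → G) :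
    Nd ℓ P 1 v v' - Nd ℓ P 0 v v' = ∑ t ∈ range P.m, k0 ℓ P.τ (v t) (v' (t + 0)) -
      (P.h0 : ℝ)⁻¹ * ∑ s ∈ range P.h0, ∑ t ∈ range P.m, k0 ℓ P.τ (v t) (v' (t + (s + 1))) := by
  rw [sum_comm, mul_sum, ← sum_sub_distrib]
  simp only [Nd, ← sum_sub_distrib]
  refine sum_congr rfl fun t _ => ?_
  rw [← saw_abel P.h0 hh fun s => k0 ℓ P.τ (v t) (v' (t + s))]
  refine sum_congr rfl fun s _ => ?_
  rw [mul_sub]; rfl

theorem abs_avg_le (h : ℕ) (hh : 0 < h) (a : ℝ) (f : ℕ → ℝ) (ha : |a| ≤ 1)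
    (hf : ∀ s, |f s| ≤ 1) : |a - (h : ℝ)⁻¹ * ∑ s ∈ range h, f s| ≤ 2 := by
  have h0 : (0 : ℝ) < h := by exact_mod_cast hh
  have h1 : |∑ s ∈ range h, f s| ≤ h := by
    refine (abs_sum_le_sum_abs _ _).trans ((sum_le_sum fun s _ => hf s).trans ?_)
    simp
  have h2 : |(h : ℝ)⁻¹ * ∑ s ∈ range h, f s| ≤ 1 := by
    rw [abs_mul, abs_of_pos (inv_pos.2 h0), inv_mul_le_iff₀ h0]; linarith
  have := abs_sub a ((h : ℝ)⁻¹ * ∑ s ∈ range h, f s)
  linarith

end Level0

/-- The estimates of level zero. -/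
theorem levelOK_zero {P : Par} (hP : Good ℓ P) {n : ℕ} (a : Fin n → ZMod P.m) (H : Fin n → G)
    (u : Fin (n + 1) → ℕ → G) (hu : Steps P.m a H u) {x y : ℝ} (hy : 0 < y)
    (hx : y ≤ (P.τ : ℝ) ^ 2 * x ^ 4) :
    LevelOK (fun p q => num0 ℓ P (u p) (u q)) (fun p q => num0 ℓ P (u p) (Tsh (u q)))
      (fun i => 1 + (ℓ (H i) : ℝ)) x (Del0 P.h0 y a) 0 2 P.h0 2 := by
  have hm := hP.h0_lt
  have : NeZero P.m := ⟨by omega⟩
  change LevelOK (fun p q => Nd ℓ P 0 (u p) (u q)) (fun p q => Nd ℓ P 1 (u p) (u q))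
      (fun i => 1 + (ℓ (H i) : ℝ)) x (Del0 P.h0 y a) 0 2 P.h0 2
  have hs : ∀ (i : Fin n) (t : ℕ), (t : ZMod P.m) ≠ a i → u i.succ t = u i.castSucc t :=
    fun i t h => by rw [hu i t, if_neg h, mul_one]
  have hz1 : ∀ (i l : Fin n) (t s : ℕ), (t : ZMod P.m) ≠ a i →
      br ℓ P.τ (u i.castSucc t) (u i.succ t) (u l.castSucc s) (u l.succ s) = 0 :=
    fun i l t s h => by rw [hs i t h, br]; ring
  have hz2 : ∀ (i l : Fin n) (t s : ℕ), (s : ZMod P.m) ≠ a l →
      br ℓ P.τ (u i.castSucc t) (u i.succ t) (u l.castSucc s) (u l.succ s) = 0 :=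
    fun i l t s h => by rw [hs l s h, br]; ring
  have hb : ∀ (i l : Fin n) (t s : ℕ),
      |br ℓ P.τ (u i.castSucc t) (u i.succ t) (u l.castSucc s) (u l.succ s)|
        ≤ (P.τ : ℝ)⁻¹ * (1 + ℓ (H i)) * (1 + ℓ (H l)) := by
    intro i l t s
    by_cases h1 : (t : ZMod P.m) = a i
    · by_cases h2 : (s : ZMod P.m) = a l
      · rw [hu i t, hu l s, if_pos h1, if_pos h2]
        exact abs_br_le hP.len _ _ _ _ _
      · rw [hz2 i l t s h2, abs_zero]; positivity
    · rw [hz1 i l t s h1, abs_zero]; positivity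
  have hmix : ∀ d ≤ 1, ∀ i l : Fin n, |mixed (fun p q => Nd ℓ P d (u p) (u q)) i l| ≤
      if (a l - a i).val ≤ P.h0 then (P.τ : ℝ)⁻¹ * (1 + ℓ (H i)) * (1 + ℓ (H l)) else 0 := by
    intro d hd i l
    rw [mixed_Nd]
    exact abs_sum_two hm d hd (fun t s => br ℓ P.τ (u i.castSucc t) (u i.succ t)
      (u l.castSucc s) (u l.succ s)) _ (hb i l) _ _ (hz1 i l) (hz2 i l)
  have hcol : ∀ p (l : Fin n) (s : ℕ), |∑ t ∈ range P.m, k0 ℓ P.τ (u p t) (u l.succ (t + s))
      - ∑ t ∈ range P.m, k0 ℓ P.τ (u p t) (u l.castSucc (t + s))| ≤ 1 := by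
    intro p l s
    rw [← sum_sub_distrib]
    exact abs_sum_one _ _ (fun t => abs_k0_sub_le_one _ _ _ _ _) s (a l)
      fun t ht => by rw [hs l _ ht, sub_self]
  have hrow : ∀ (i : Fin n) q (s : ℕ), |∑ t ∈ range P.m, k0 ℓ P.τ (u i.succ t) (u q (t + s))
      - ∑ t ∈ range P.m, k0 ℓ P.τ (u i.castSucc t) (u q (t + s))| ≤ 1 := by
    intro i q s
    rw [← sum_sub_distrib]
    exact abs_sum_one _ _ (fun t => abs_k0_sub_le_one _ _ _ _ _) 0 (a i)
      fun t ht => by rw [hs i t ht, sub_self]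
  refine ⟨⟨fun i l => if i < l then mixed (fun p q => Nd ℓ P 0 (u p) (u q)) i l else
    if l < i then mixed (fun p q => Nd ℓ P 1 (u p) (u q)) i l else 0, ?_, ?_, ?_⟩, ?_, ?_, ?_, ?_⟩
  · have hτ : (0 : ℝ) < P.τ := by exact_mod_cast hP.τ_pos
    refine minorBd_sparse _ _ (fun i => by positivity)
      (fun i l => l ≠ i ∧ (a l - a i).val ≤ P.h0) (θ := (P.τ : ℝ)⁻¹) hy ?_ fun i l => ?_
    · rw [inv_pow, inv_mul_le_iff₀ (by positivity)]; exact hx
    · rcases lt_trichotomy i l with h | h | h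
      · simpa [h, h.ne'] using hmix 0 (by omega) i l
      · simp [h]
      · simpa [h, h.ne, h.not_gt] using hmix 1 le_rfl i l
  · intro i l h; simp [h]
  · intro i l h; simp [h, h.not_gt]
  · intro p l
    rw [Nd_sub P hP.h0_pos, Nd_sub P hP.h0_pos]
    have := abs_avg_le P.h0 hP.h0_pos _ _ (hcol p l 0) fun s => hcol p l (s + 1)
    refine le_trans (le_of_eq ?_) this
    rw [sum_sub_distrib]; congr 1; ring
  · intro i q
    rw [Nd_sub P hP.h0_pos, Nd_sub P hP.h0_pos]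
    have := abs_avg_le P.h0 hP.h0_pos _ _ (hrow i q 0) fun s => hrow i q (s + 1)
    refine le_trans (le_of_eq ?_) this
    rw [sum_sub_distrib]; congr 1; ring
  · intro l
    have e : Nd ℓ P 0 (u 0) (u l.succ) - Nd ℓ P 0 (u 0) (u l.castSucc) =
        ∑ s ∈ range P.h0, saw P.h0 s * (∑ t ∈ range P.m, k0 ℓ P.τ (u 0 t) (u l.succ (t + s))
          - ∑ t ∈ range P.m, k0 ℓ P.τ (u 0 t) (u l.castSucc (t + s))) := by
      simp only [Nd, mul_sub, mul_sum, sum_sub_distrib, add_zero]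
      rw [sum_comm]
      congr 1
      rw [sum_comm]
    rw [e]
    refine (abs_sum_le_sum_abs _ _).trans ?_
    have : ∀ s ∈ range P.h0, |saw P.h0 s *
        (∑ t ∈ range P.m, k0 ℓ P.τ (u 0 t) (u l.succ (t + s))
          - ∑ t ∈ range P.m, k0 ℓ P.τ (u 0 t) (u l.castSucc (t + s)))| ≤ 1 := by
      intro s hs'
      rw [abs_mul]
      exact mul_le_one₀ (abs_saw_le (mem_range.1 hs')) (abs_nonneg _) (hcol 0 l s)
    refine (sum_le_sum this).trans ?_
    simp
  · intro i l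
    rw [mixed_Nd]
    have := abs_sum_two hm 0 (by omega) (fun t s => br ℓ P.τ (u i.castSucc t) (u i.succ t)
      (u l.castSucc s) (u l.succ s)) 2 (fun t s => abs_br_le_two _ _ _ _ _) _ _ (hz1 i l) (hz2 i l)
    refine this.trans ?_
    split_ifs <;> norm_num

end Vale.Agent.P184
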