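import Vale.Agent.P184.Soft
import Vale.Agent.P184.Level0
import Vale.Agent.P184.Saw

/-!
# P184: features over a finite set of labels
-/

namespace Vale.Agent.P184

open Finset

variable {G : Type*} [Group G] {ℓ : G → ℕ} {P : Par} (Y : Finset G)

theorem k0_mem_A (ℓ : G → ℕ) (τ : ℕ) (x y : G) : 0 ≤ k0 ℓ τ x y ∧ k0 ℓ τ x y ≤ 1 := by
  have h1 : min (ℓ (x⁻¹ * y) : ℝ) τ / τ ≤ 1 :=
    div_le_one_of_le₀ (min_le_right _ _) (Nat.cast_nonneg _)
  have h2 : 0 ≤ min (ℓ (x⁻¹ * y) : ℝ) τ / τ := by positivity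
  unfold k0
  constructor <;> linarith

theorem kb_mem_A (ℓ : G → ℕ) (r : ℕ) (x y : G) : 0 ≤ kb ℓ r x y ∧ kb ℓ r x y ≤ 1 := by
  unfold kb
  split_ifs <;> norm_num

theorem avg_le_one_A (h : ℕ) {f : ℕ → ℝ} (hf : ∀ u, f u ≤ 1) :
    (h : ℝ)⁻¹ * ∑ u ∈ range h, f u ≤ 1 := by
  refine inv_mul_le_one_of_le₀ ?_ (Nat.cast_nonneg _)
  simpa using sum_le_card_nsmul (range h) f 1 fun u _ => hf u

theorem exists_gt_one_A (h : ℕ) {f g : ℕ → ℝ} (hf : 1 / 2 < (h : ℝ)⁻¹ * ∑ u ∈ range h, f u)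
    (hg : 1 / 2 < (h : ℝ)⁻¹ * ∑ u ∈ range h, g u) : ∃ u, 1 < f u + g u := by
  by_contra hn
  push Not at hn
  have := avg_le_one_A h hn
  rw [sum_add_distrib, mul_add] at this
  linarith

omit [Group G] in
theorem abs_pair_A (f g : G → ℝ) {α c : ℝ} (hc : 0 ≤ c) (hf : l1 Y f ≤ α)
    (hg : ∀ x ∈ Y, |g x| ≤ c) : |sumY Y fun x => f x * g x| ≤ α * c := by
  refine (abs_sum_le_sum_abs _ _).trans (le_trans ?_ (mul_le_mul_of_nonneg_right hf hc))
  rw [l1, sum_mul]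
  refine sum_le_sum fun x hx => ?_
  rw [abs_mul]
  exact mul_le_mul_of_nonneg_left (hg x hx) (abs_nonneg _)

theorem abs_bil_A (r : ℕ) (f F : G → ℝ) {α β : ℝ} (hf : l1 Y f ≤ α) (hF : l1 Y F ≤ β) :
    |sumY Y fun x => f x * sumY Y fun y => kb ℓ r x y * F y| ≤ α * β := by
  refine abs_pair_A Y f _ ((sum_nonneg fun _ _ => abs_nonneg _).trans hF) hf fun x _ => ?_
  refine (abs_sum_le_sum_abs _ _).trans (le_trans (sum_le_sum fun y _ => ?_) hF)
  rw [abs_mul, abs_of_nonneg (kb_mem_A _ _ _ _).1]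
  exact mul_le_of_le_one_left (abs_nonneg _) (kb_mem_A _ _ _ _).2

theorem Par.two_le_p (P : Par) (j : ℕ) : 2 ≤ P.p j := by
  unfold Par.p
  omega

theorem Par.Q_le (P : Par) (j : ℕ) : 64 * P.Q j ≤ 2 ^ P.p j := by
  unfold Par.p Par.Q
  rw [pow_add]
  norm_num

theorem Wt_nonneg (j : ℕ) (v : ℕ → G) (a : ℕ) (x : G) : 0 ≤ Wt (sumY Y) ℓ P j v a x := by
  cases j with
  | zero =>
    exact mul_nonneg (by positivity) (sum_nonneg fun u _ => (k0_mem_A _ _ _ _).1)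
  | succ j =>
    exact mul_nonneg (by positivity) (sum_nonneg fun u _ => sum_nonneg fun y _ =>
      mul_nonneg (kb_mem_A _ _ _ _).1 (soft_nonneg Y _ _))

theorem Wt_le_one (j : ℕ) (v : ℕ → G) (a : ℕ) (x : G) : Wt (sumY Y) ℓ P j v a x ≤ 1 := by
  cases j with
  | zero => exact avg_le_one_A _ fun u => (k0_mem_A _ _ _ _).2
  | succ j =>
    refine avg_le_one_A _ fun u => le_trans (sum_le_sum fun y _ => ?_)
      (sum_soft_le_one (p := P.p j) Y (Wt (sumY Y) ℓ P j v (a + u + 1)))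
    exact mul_le_of_le_one_left (soft_nonneg Y _ _) (kb_mem_A _ _ _ _).2

/-- Two candidates are close. -/
theorem Wt_diam (hP : Good ℓ P) (j : ℕ) (v : ℕ → G) (a : ℕ) (x y : G)
    (hx : 1 / 2 < Wt (sumY Y) ℓ P j v a x) (hy : 1 / 2 < Wt (sumY Y) ℓ P j v a y) :
    ℓ (x⁻¹ * y) ≤ P.r j := by
  have tri : ∀ z, ℓ (x⁻¹ * y) ≤ ℓ (x⁻¹ * z) + ℓ (y⁻¹ * z) := fun z => by
    have := hP.len.mul (x⁻¹ * z) (y⁻¹ * z)⁻¹
    rw [hP.len.inv] at this
    simpa [mul_assoc] using this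
  cases j with
  | zero =>
    obtain ⟨u, hu⟩ := exists_gt_one_A _ hx hy
    have h0 : (0 : ℝ) < P.τ := by exact_mod_cast hP.τ_pos
    have h1 := tri (v (a + u + 1))
    simp only [k0] at hu
    set s : ℝ := (ℓ (x⁻¹ * v (a + u + 1)) : ℝ) with hs
    set t : ℝ := (ℓ (y⁻¹ * v (a + u + 1)) : ℝ) with ht
    have h2 : min s P.τ + min t P.τ < P.τ := by
      rw [← div_lt_one h0, add_div]
      linarith
    have hs0 : 0 ≤ s := Nat.cast_nonneg _
    have ht0 : 0 ≤ t := Nat.cast_nonneg _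
    have h3 : s + t ≤ P.τ := by
      rcases le_total s P.τ with h | h <;> rcases le_total t P.τ with h' | h' <;>
        simp only [min_eq_left, min_eq_right, h, h'] at h2 <;> linarith
    rw [hs, ht] at h3
    have h4 : ℓ (x⁻¹ * v (a + u + 1)) + ℓ (y⁻¹ * v (a + u + 1)) ≤ P.τ := by exact_mod_cast h3
    simp only [Par.r]
    omega
  | succ j =>
    obtain ⟨u, hu⟩ := exists_gt_one_A _ hx hy
    simp only [sumY] at hu
    by_contra hn
    have h1 := sum_soft_le_one (p := P.p j) Y (Wt (sumY Y) ℓ P j v (a + u + 1))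
    rw [← sum_add_distrib] at hu
    refine absurd (le_trans (sum_le_sum fun z _ => ?_) h1) (not_le.2 hu)
    rw [← add_mul]
    refine mul_le_of_le_one_left (soft_nonneg Y _ _) ?_
    have h2 := tri z
    have h3 : P.r (j + 1) = 2 * P.r j := by simp only [Par.r]; ring
    unfold kb
    split_ifs <;> first | omega | norm_num

theorem cand_Wt (hP : Good ℓ P) {j : ℕ} (hj : j ≤ P.J) (v : ℕ → G) (a : ℕ) :
    Cand Y (P.Q j) (Wt (sumY Y) ℓ P j v a) := by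
  classical
  refine ⟨Wt_le_one Y j v a, ?_⟩
  obtain ⟨B, hB, hB'⟩ := hP.ball j hj
  rcases (Y.filter fun y => 1 / 2 < Wt (sumY Y) ℓ P j v a y).eq_empty_or_nonempty with h | ⟨x, hx⟩
  · rw [h]
    exact Nat.zero_le _
  refine le_trans (card_le_card_of_injOn (fun y => x⁻¹ * y) (fun y hy => ?_)
    fun y _ z _ h => mul_left_cancel h) hB
  exact hB' _ (Wt_diam Y hP j v a x y (mem_filter.1 hx).2 (mem_filter.1 hy).2)

theorem finite_cand (hP : Good ℓ P) {j : ℕ} (hj : j ≤ P.J) (v : ℕ → G) (a : ℕ) :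
    {x | 1 / 2 < Wt (sumY Y) ℓ P j v a x}.Finite := by
  obtain ⟨B, -, hB'⟩ := hP.ball j hj
  rcases {x | 1 / 2 < Wt (sumY Y) ℓ P j v a x}.eq_empty_or_nonempty with h | ⟨x, hx⟩
  · rw [h]
    exact Set.finite_empty
  refine Set.Finite.of_injOn (f := fun y => x⁻¹ * y) (fun y hy => ?_)
    (fun y _ z _ h => mul_left_cancel h) B.finite_toSet
  exact hB' _ (Wt_diam Y hP j v a x y hx hy)

theorem Ft_nonneg (j : ℕ) (v : ℕ → G) (a : ℕ) (x : G) : 0 ≤ Ft (sumY Y) ℓ P j v a x := by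
  exact soft_nonneg Y _ _

theorem l1_Ft_le_one (j : ℕ) (v : ℕ → G) (a : ℕ) : l1 Y (Ft (sumY Y) ℓ P j v a) ≤ 1 := by
  refine le_trans (le_of_eq (sum_congr rfl fun x _ => abs_of_nonneg (Ft_nonneg Y j v a x))) ?_
  exact sum_soft_le_one Y _

theorem jx_le (hP : Good ℓ P) (g x : G) : jx ℓ (P.r P.J) g x ≤ P.Q P.J := by
  obtain ⟨B, hB, hB'⟩ := hP.ball P.J le_rfl
  unfold jx
  set y := x⁻¹ * g * x
  set S := {j : ℕ | P.r P.J < ℓ (y ^ j)} with hS
  rcases S.eq_empty_or_nonempty with h | h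
  · simp [h]
  have h1 := Nat.sInf_mem h
  have key : ∀ a b, a < b → b < sInf S → y ^ a ≠ y ^ b := fun a b hab hb he => by
    refine Nat.notMem_of_lt_sInf (m := a + (sInf S - b)) (s := S) (by omega) ?_
    have : y ^ (a + (sInf S - b)) = y ^ sInf S := by
      rw [pow_add, he, ← pow_add, Nat.add_sub_cancel' hb.le]
    show _ < ℓ _
    rw [this]
    exact h1
  rw [← card_range (sInf S)]
  refine le_trans (card_le_card_of_injOn (fun i => y ^ i) (fun i hi => ?_) fun a ha b hb h => ?_) hB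
  · exact hB' _ (not_lt.1 (Nat.notMem_of_lt_sInf (s := S) (by simpa using hi)))
  · rcases lt_trichotomy a b with h' | h' | h'
    · exact absurd h (key a b h' (by simpa using hb))
    · exact h'
    · exact absurd h.symm (key b a h' (by simpa using ha))

theorem jx_spec (M : ℕ) (g x : G) (h : ∃ j : ℕ, M < ℓ ((x⁻¹ * g * x) ^ j)) :
    M < ℓ ((x⁻¹ * g * x) ^ jx ℓ M g x) := by
  exact Nat.sInf_mem (s := {j : ℕ | M < ℓ ((x⁻¹ * g * x) ^ j)}) h

theorem BL_sub_left (j : ℕ) (f g : G → ℝ) (F : ℕ → G → ℝ) :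
    BL (sumY Y) ℓ P j (f - g) F = BL (sumY Y) ℓ P j f F - BL (sumY Y) ℓ P j g F := by
  simp only [BL, sumY, Pi.sub_apply, sub_mul, sum_sub_distrib, mul_sub]

theorem BL_sub_right (j : ℕ) (f : G → ℝ) (F F' : ℕ → G → ℝ) :
    BL (sumY Y) ℓ P j f (fun u => F u - F' u) =
      BL (sumY Y) ℓ P j f F - BL (sumY Y) ℓ P j f F' := by
  simp only [BL, sumY, Pi.sub_apply, sum_sub_distrib, mul_sub]

theorem abs_BL_le (j : ℕ) (f : G → ℝ) (F : ℕ → G → ℝ) (α β : ℝ) (hf : l1 Y f ≤ α)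
    (hF : ∀ u, l1 Y (F u) ≤ β) : |BL (sumY Y) ℓ P j f F| ≤ P.h j * α * β := by
  refine (abs_sum_le_sum_abs _ _).trans ((sum_le_card_nsmul _ _ (α * β) fun u hu => ?_).trans
    (by simp [mul_assoc]))
  rw [abs_mul]
  exact (mul_le_of_le_one_left (abs_nonneg _) (abs_saw_le (mem_range.1 hu))).trans
    (abs_bil_A Y _ f (F u) hf (hF u))

theorem abs_BL_shift_le (hP : Good ℓ P) (j : ℕ) (f : G → ℝ) (F : ℕ → G → ℝ) (α β : ℝ)
    (hf : l1 Y f ≤ α) (hF : ∀ u, l1 Y (F u) ≤ β) :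
    |BL (sumY Y) ℓ P j f (fun u => F (u + 1)) - BL (sumY Y) ℓ P j f F| ≤ 2 * α * β := by
  have h := saw_abel (P.h j) (hP.h_pos j)
    fun u => sumY Y fun x => f x * sumY Y fun y => kb ℓ (P.r j) x y * F u y
  simp only [mul_sub, sum_sub_distrib] at h
  unfold BL
  rw [h]
  refine (abs_sub _ _).trans ?_
  have h1 := abs_bil_A (ℓ := ℓ) Y (P.r j) f (F 0) hf (hF 0)
  have h0 : (0 : ℝ) < P.h j := by exact_mod_cast hP.h_pos j
  have h2 : |((P.h j : ℝ))⁻¹ * ∑ u ∈ range (P.h j),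
      sumY Y fun x => f x * sumY Y fun y => kb ℓ (P.r j) x y * F (u + 1) y| ≤ α * β := by
    rw [abs_mul, abs_of_pos (inv_pos.2 h0), inv_mul_le_iff₀ h0]
    exact (abs_sum_le_sum_abs _ _).trans ((sum_le_card_nsmul _ _ (α * β) fun u _ =>
      abs_bil_A Y _ f _ hf (hF _)).trans (by simp))
  linarith

theorem BD_sub_left (g : G) (f f' : G → ℝ) (F : ℕ → G → ℝ) :
    BD (sumY Y) ℓ P g (f - f') F = BD (sumY Y) ℓ P g f F - BD (sumY Y) ℓ P g f' F := by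
  simp only [BD, sumY, Pi.sub_apply, sub_mul, sum_sub_distrib]
  ring

theorem BD_sub_right (g : G) (f : G → ℝ) (F F' : ℕ → G → ℝ) :
    BD (sumY Y) ℓ P g f (fun u => F u - F' u) =
      BD (sumY Y) ℓ P g f F - BD (sumY Y) ℓ P g f F' := by
  simp only [BD, sumY, Pi.sub_apply, mul_sub, sum_sub_distrib]
  ring

theorem abs_BD_le (hP : Good ℓ P) (g : G) (f : G → ℝ) (F : ℕ → G → ℝ) (α β : ℝ)
    (hf : l1 Y f ≤ α) (hF : ∀ u, l1 Y (F u) ≤ β) :
    |BD (sumY Y) ℓ P g f F| ≤ (P.Q P.J * P.m : ℕ) * α * β := by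
  have hβ : 0 ≤ β := (sum_nonneg fun _ _ => abs_nonneg _).trans (hF 0)
  rw [BD, abs_neg]
  refine (abs_pair_A Y f _ (c := (P.Q P.J * P.m : ℕ) * β) (by positivity) hf fun x hx => ?_).trans_eq
    (by ring)
  refine (abs_sum_le_sum_abs _ _).trans ((sum_le_card_nsmul _ _ β fun u _ =>
    (single_le_sum (f := fun y => |F u y|) (fun _ _ => abs_nonneg _) hx).trans (hF u)).trans ?_)
  rw [card_range, nsmul_eq_mul]
  exact mul_le_mul_of_nonneg_right
    (by exact_mod_cast Nat.mul_le_mul_right _ (jx_le hP g x)) hβ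

theorem abs_BD_shift_le (g : G) (f : G → ℝ) (F : ℕ → G → ℝ) (α β : ℝ)
    (hf : l1 Y f ≤ α) (hF : ∀ u, l1 Y (F u) ≤ β) :
    |BD (sumY Y) ℓ P g f (fun u => F (u + 1)) - BD (sumY Y) ℓ P g f F| ≤ 2 * α * β := by
  have hβ : 0 ≤ β := (sum_nonneg fun _ _ => abs_nonneg _).trans (hF 0)
  rw [← BD_sub_right, BD, abs_neg]
  refine (abs_pair_A Y f _ (c := 2 * β) (by positivity) hf fun x hx => ?_).trans_eq (by ring)
  have h : ∀ u, |F u x| ≤ β := fun u =>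
    (single_le_sum (f := fun y => |F u y|) (fun _ _ => abs_nonneg _) hx).trans (hF u)
  simp only [Pi.sub_apply]
  rw [sum_range_sub fun u => F u x]
  refine (abs_sub _ _).trans ?_
  linarith [h 0, h (jx ℓ (P.r P.J) g x * P.m)]

theorem exists_abs_num_le (hP : Good ℓ P) :
    ∃ R : ℝ, ∀ (Y : Finset G) g v v', |num (sumY Y) ℓ P g v v'| ≤ R := by
  refine ⟨128 * (P.m * P.h0) + ∑ j ∈ range P.J, (128 : ℝ) * (P.m * P.h j) +
    2 * P.Q P.J * (P.m * (P.Q P.J * P.m : ℕ)), fun Y g v v' => ?_⟩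
  have hs : ∀ (f : ℕ → ℝ) (n : ℕ) (c : ℝ), (∀ a ∈ range n, |f a| ≤ c) →
      |∑ a ∈ range n, f a| ≤ n * c := fun f n c h =>
    (abs_sum_le_sum_abs _ _).trans ((sum_le_card_nsmul _ _ c h).trans (by simp))
  refine (abs_add_le _ _).trans (add_le_add ((abs_add_le _ _).trans (add_le_add ?_ ?_)) ?_)
  · rw [abs_mul, abs_of_pos (by norm_num : (0 : ℝ) < 128)]
    refine mul_le_mul_of_nonneg_left (hs _ _ _ fun a _ => ?_) (by norm_num)
    refine (hs _ _ 1 fun u hu => ?_).trans_eq (mul_one _)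
    rw [abs_mul, abs_of_nonneg (k0_mem_A _ _ _ _).1]
    exact mul_le_one₀ (abs_saw_le (mem_range.1 hu)) (k0_mem_A _ _ _ _).1 (k0_mem_A _ _ _ _).2
  · refine (abs_sum_le_sum_abs _ _).trans (sum_le_sum fun j _ => ?_)
    rw [abs_mul, abs_of_pos (by norm_num : (0 : ℝ) < 128)]
    refine mul_le_mul_of_nonneg_left (hs _ _ _ fun a _ => ?_) (by norm_num)
    simpa using abs_BL_le (ℓ := ℓ) (P := P) Y j _ _ 1 1 (l1_Ft_le_one Y j v a)
      fun u => l1_Ft_le_one Y j v' (a + u)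
  · rw [abs_mul, abs_of_nonneg (by positivity)]
    refine mul_le_mul_of_nonneg_left (hs _ _ _ fun a _ => ?_) (by positivity)
    simpa only [mul_one] using abs_BD_le Y hP g _ _ 1 1 (l1_Ft_le_one Y P.J v a)
      fun u => l1_Ft_le_one Y P.J v' (a + u)

end Vale.Agent.P184
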