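import Vale.Agent.P184.FeatA

/-!
# P184: invariance and localisation of the features
-/

namespace Vale.Agent.P184

open Finset Filter

variable {G : Type*} [Group G] {ℓ : G → ℕ} {P : Par}

namespace FeatB

theorem Wt_add (S : (G → ℝ) → ℝ) (k j : ℕ) (v : ℕ → G) (a : ℕ) :
    Wt S ℓ P j (fun t => v (t + k)) a = Wt S ℓ P j v (a + k) := by
  induction j generalizing a with
  | zero =>
    funext x
    simp only [Wt, show ∀ u, a + u + 1 + k = a + k + u + 1 from fun u => by omega]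
  | succ j ih =>
    funext x
    simp only [Wt, ih, show ∀ u, a + u + 1 + k = a + k + u + 1 from fun u => by omega]

theorem sumF_left (z : G) {f f' : G → ℝ} (h : ∀ x, f (z * x) = f' x) : sumF f = sumF f' := by
  rw [sumF, ← finsum_comp_equiv (Equiv.mulLeft z)]
  exact finsum_congr h

theorem soft_left (z : G) (p : ℕ) {W W' : G → ℝ} (h : ∀ x, W (z * x) = W' x) (x : G) :
    soft sumF p W (z * x) = soft sumF p W' x := by
  rw [soft, soft, h, sumF_left z fun y => congrArg (phi p) (h y)]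

theorem k0_left (τ : ℕ) (z x y : G) : k0 ℓ τ (z * x) (z * y) = k0 ℓ τ x y := by
  simp [k0, mul_assoc]

theorem kb_left (r : ℕ) (z x y : G) : kb ℓ r (z * x) (z * y) = kb ℓ r x y := by
  simp [kb, mul_assoc]

theorem jx_left (M : ℕ) (g z x : G) : jx ℓ M (z * g * z⁻¹) (z * x) = jx ℓ M g x := by
  simp [jx, mul_assoc]

theorem BL_left (z : G) (j : ℕ) {f f' : G → ℝ} {F F' : ℕ → G → ℝ} (h : ∀ x, f (z * x) = f' x)
    (hF : ∀ u x, F u (z * x) = F' u x) : BL sumF ℓ P j f F = BL sumF ℓ P j f' F' := by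
  refine sum_congr rfl fun u _ => congrArg _ (sumF_left z fun x => ?_)
  rw [h, sumF_left z fun y => by rw [kb_left, hF]]

theorem BD_left (g z : G) {f f' : G → ℝ} {F F' : ℕ → G → ℝ} (h : ∀ x, f (z * x) = f' x)
    (hF : ∀ u x, F u (z * x) = F' u x) :
    BD sumF ℓ P (z * g * z⁻¹) f F = BD sumF ℓ P g f' F' := by
  refine congrArg _ (sumF_left z fun x => ?_)
  simp only [h, hF, jx_left]

omit [Group G] in
theorem ev_mem {s : Set G} (hs : s.Finite) : ∀ᶠ Y : Finset G in atTop, ∀ x ∈ s, x ∈ Y :=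
  (eventually_ge_atTop hs.toFinset).mono fun _ hY _ hx => hY (hs.mem_toFinset.2 hx)

omit [Group G] in
theorem sumY_eq {Y : Finset G} {f : G → ℝ} (h : ∀ x, f x ≠ 0 → x ∈ Y) : sumY Y f = sumF f :=
  (finsum_eq_sum_of_support_subset f h).symm

theorem Ft_of_Wt {Y : Finset G} {j : ℕ} {v : ℕ → G} {a : ℕ}
    (h : Wt (sumY Y) ℓ P j v a = Wt sumF ℓ P j v a ∧ ∀ x, 1 / 2 < Wt sumF ℓ P j v a x → x ∈ Y) :
    Ft (sumY Y) ℓ P j v a = Ft sumF ℓ P j v a ∧ ∀ x, Ft sumF ℓ P j v a x ≠ 0 → x ∈ Y := by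
  have hp : 1 ≤ P.p j := one_le_two.trans (P.two_le_p j)
  refine ⟨funext fun x => ?_, fun x hx => h.2 x (half_lt_of_soft_ne_zero _ hp _ x hx)⟩
  rw [Ft, Ft, h.1, soft, soft, sumY_eq fun y hy => h.2 y ?_]
  by_contra hc
  exact hy (phi_eq_zero hp (not_lt.1 hc))

end FeatB

open FeatB

theorem Wt_shift (S : (G → ℝ) → ℝ) (j : ℕ) (v : ℕ → G) (a : ℕ) :
    Wt S ℓ P j (Tsh v) a = Wt S ℓ P j v (a + 1) :=
  Wt_add S 1 j v a

theorem Ft_shift (S : (G → ℝ) → ℝ) (j : ℕ) (v : ℕ → G) (a : ℕ) :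
    Ft S ℓ P j (Tsh v) a = Ft S ℓ P j v (a + 1) := by
  rw [Ft, Ft, Wt_shift]

theorem Wt_left (j : ℕ) (z : G) (v : ℕ → G) (a : ℕ) (x : G) :
    Wt sumF ℓ P j (fun t => z * v t) a (z * x) = Wt sumF ℓ P j v a x := by
  induction j generalizing a x with
  | zero => simp only [Wt, k0_left]
  | succ j ih =>
    simp only [Wt]
    refine congrArg _ (sum_congr rfl fun u _ => sumF_left z fun y => ?_)
    rw [kb_left, soft_left z _ (ih _)]

theorem Ft_left (j : ℕ) (z : G) (v : ℕ → G) (a : ℕ) (x : G) :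
    Ft sumF ℓ P j (fun t => z * v t) a (z * x) = Ft sumF ℓ P j v a x :=
  soft_left z _ (Wt_left j z v a) x

theorem Ft_period {g : G} {v : ℕ → G} (hv : QP P.m g v) (j : ℕ) (a : ℕ) (x : G) :
    Ft sumF ℓ P j v (a + P.m) (g * x) = Ft sumF ℓ P j v a x := by
  rw [← Ft_left j g v a x, Ft, Ft, ← Wt_add, funext hv]

theorem eventually_Wt (hP : Good ℓ P) {j : ℕ} (hj : j ≤ P.J) (v : ℕ → G) (a : ℕ) :
    ∀ᶠ Y : Finset G in atTop, Wt (sumY Y) ℓ P j v a = Wt sumF ℓ P j v a ∧
      ∀ x, 1 / 2 < Wt sumF ℓ P j v a x → x ∈ Y := by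
  induction j generalizing a with
  | zero =>
    filter_upwards [ev_mem (finite_cand (Y := ∅) hP hj v a)] with Y hY
    exact ⟨funext fun x => by simp only [Wt], hY⟩
  | succ j ih =>
    have h1 : ∀ᶠ Y : Finset G in atTop,
        Wt (sumY Y) ℓ P (j + 1) v a = Wt sumF ℓ P (j + 1) v a := by
      filter_upwards [(eventually_all_finset (range (P.h j))).2 fun u _ =>
        ih (by omega) (a + u + 1)] with Y hY
      funext x
      simp only [Wt]
      refine congrArg _ (sum_congr rfl fun u hu => ?_)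
      obtain ⟨e, hs⟩ := Ft_of_Wt (hY u hu)
      rw [Ft, Ft] at e
      rw [e]
      exact sumY_eq fun y hy => hs y (right_ne_zero_of_mul hy)
    obtain ⟨Y, hY⟩ := h1.exists
    have h2 := finite_cand (Y := Y) hP hj v a
    rw [hY] at h2
    exact h1.and (ev_mem h2)

theorem eventually_Ft (hP : Good ℓ P) {j : ℕ} (hj : j ≤ P.J) (v : ℕ → G) (a : ℕ) :
    ∀ᶠ Y : Finset G in atTop, Ft (sumY Y) ℓ P j v a = Ft sumF ℓ P j v a ∧
      ∀ x, Ft sumF ℓ P j v a x ≠ 0 → x ∈ Y :=
  (eventually_Wt hP hj v a).mono fun _ => Ft_of_Wt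

theorem eventually_num (hP : Good ℓ P) (g : G) (v v' : ℕ → G) :
    ∀ᶠ Y : Finset G in atTop, num (sumY Y) ℓ P g v v' = num sumF ℓ P g v v' := by
  have h1 : ∀ j ∈ range P.J, ∀ᶠ Y : Finset G in atTop,
      numL (sumY Y) ℓ P j v v' = numL sumF ℓ P j v v' := by
    intro j hj
    have hj' : j ≤ P.J := (mem_range.1 hj).le
    filter_upwards [(eventually_all_finset (range P.m)).2 fun a _ =>
      (eventually_Ft hP hj' v a).and ((eventually_all_finset (range (P.h j))).2 fun u _ =>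
        eventually_Ft hP hj' v' (a + u))] with Y hY
    refine sum_congr rfl fun a ha => sum_congr rfl fun u hu => congrArg _ ?_
    obtain ⟨⟨e, hs⟩, h'⟩ := hY a ha
    obtain ⟨e', hs'⟩ := h' u hu
    simp only [e, e']
    rw [sumY_eq fun x hx => hs x (left_ne_zero_of_mul hx)]
    refine congrArg _ (funext fun x => congrArg _ ?_)
    exact sumY_eq fun y hy => hs' y (right_ne_zero_of_mul hy)
  have h2 : ∀ᶠ Y : Finset G in atTop, numD (sumY Y) ℓ P g v v' = numD sumF ℓ P g v v' := by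
    filter_upwards [(eventually_all_finset (range P.m)).2 fun a _ =>
      (eventually_Ft hP le_rfl v a).and
        ((eventually_all_finset (range (P.Q P.J * P.m))).2 fun u _ =>
          eventually_Ft hP le_rfl v' (a + u))] with Y hY
    refine sum_congr rfl fun a ha => congrArg Neg.neg ?_
    obtain ⟨⟨e, hs⟩, h'⟩ := hY a ha
    simp only [e]
    rw [sumY_eq fun x hx => hs x (left_ne_zero_of_mul hx)]
    refine congrArg _ (funext fun x => congrArg _ (sum_congr rfl fun u hu => ?_))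
    rw [(h' u (mem_range.2 ((mem_range.1 hu).trans_le
      (Nat.mul_le_mul_right _ (jx_le hP g x))))).1]
  filter_upwards [(eventually_all_finset _).2 h1, h2] with Y h3 h4
  rw [num, num, h4, sum_congr rfl fun j hj => by rw [h3 j hj]]

theorem num_left (g z : G) (v v' : ℕ → G) :
    num sumF ℓ P (z * g * z⁻¹) (fun t => z * v t) (fun t => z * v' t) =
      num sumF ℓ P g v v' := by
  have h1 : ∀ j, numL sumF ℓ P j (fun t => z * v t) (fun t => z * v' t) = numL sumF ℓ P j v v' :=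
    fun j => sum_congr rfl fun a _ => BL_left z j (Ft_left j z v a) fun u => Ft_left j z v' _
  have h2 : numD sumF ℓ P (z * g * z⁻¹) (fun t => z * v t) (fun t => z * v' t) =
      numD sumF ℓ P g v v' :=
    sum_congr rfl fun a _ => BD_left g z (Ft_left _ z v a) fun u => Ft_left _ z v' _
  simp only [num, h1, h2, num0, term0, k0_left]

theorem num_shift {g : G} {v v' : ℕ → G} (hv : QP P.m g v) (hv' : QP P.m g v') :
    num sumF ℓ P g (Tsh v) (Tsh v') = num sumF ℓ P g v v' := by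
  have hF : ∀ j a u x, Ft sumF ℓ P j v' (a + P.m + u) (g * x) = Ft sumF ℓ P j v' (a + u) x :=
    fun j a u x => by rw [Nat.add_right_comm, Ft_period hv']
  have h0 : num0 ℓ P (Tsh v) (Tsh v') = num0 ℓ P v v' := by
    rw [num0, num0, ← sum_range_shift_of_periodic P.m (term0 ℓ P v v') (fun a => ?_) 1]
    · simp only [term0, Tsh, Nat.add_right_comm _ 1]
    · simp only [term0, Nat.add_right_comm a P.m, hv a, hv' _, k0_left]
  have h1 : ∀ j, numL sumF ℓ P j (Tsh v) (Tsh v') = numL sumF ℓ P j v v' := by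
    intro j
    rw [numL, numL, ← sum_range_shift_of_periodic P.m (fun a => BL sumF ℓ P j (Ft sumF ℓ P j v a)
      fun u => Ft sumF ℓ P j v' (a + u)) (fun a => BL_left g j (Ft_period hv j a) (hF j a)) 1]
    simp only [Ft_shift, Nat.add_right_comm _ 1]
  have h2 : numD sumF ℓ P g (Tsh v) (Tsh v') = numD sumF ℓ P g v v' := by
    rw [numD, numD, ← sum_range_shift_of_periodic P.m (fun a => BD sumF ℓ P g
      (Ft sumF ℓ P P.J v a) fun u => Ft sumF ℓ P P.J v' (a + u)) (fun a => ?_) 1]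
    · simp only [Ft_shift, Nat.add_right_comm _ 1]
    · have := BD_left (ℓ := ℓ) (P := P) g g (Ft_period (ℓ := ℓ) hv P.J a) (hF P.J a)
      rwa [mul_inv_cancel_right] at this
  simp only [num, h0, h1, h2]

theorem hol_eq {m : ℕ} {g : G} {v : ℕ → G} (hv : QP m g v) : hol m v = g := by
  have := hv 0
  rw [zero_add] at this
  rw [hol, this, mul_inv_cancel_right]

theorem QP.tsh {m : ℕ} {g : G} {v : ℕ → G} (hv : QP m g v) : QP m g (Tsh v) := fun t => by
  rw [Tsh, Tsh, Nat.add_right_comm, hv]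

theorem bker_left (z : G) (v v' : ℕ → G) :
    bker ℓ P (fun t => z * v t) (fun t => z * v' t) = bker ℓ P v v' := by
  have h1 : hol P.m (fun t => z * v t) = z * hol P.m v * z⁻¹ := by simp [hol, mul_assoc]
  have h2 : Tsh (fun t => z * v t) = fun t => z * Tsh v t := rfl
  rw [bker, bker, h1, h2, num_left, num_left, num_left]

theorem bker_shift {g : G} {v v' : ℕ → G} (hv : QP P.m g v) (hv' : QP P.m g v') :
    bker ℓ P (Tsh v) (Tsh v') = bker ℓ P v v' := by
  rw [bker, bker, hol_eq hv, hol_eq hv.tsh, num_shift hv hv', num_shift hv hv.tsh,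
    num_shift hv hv]

theorem exists_abs_bker_le (hP : Good ℓ P) : ∃ R : ℝ, ∀ v v', |bker ℓ P v v'| ≤ R := by
  obtain ⟨R, hR⟩ := exists_abs_num_le hP
  refine ⟨R, fun v v' => ?_⟩
  obtain ⟨Y, hY⟩ := (eventually_num hP (hol P.m v) v v').exists
  have h1 : (1 : ℝ) ≤ P.m := by exact_mod_cast hP.h0_lt.le.trans' hP.h0_pos
  have h2 := h1.trans (le_max_right
    (num sumF ℓ P (hol P.m v) v (Tsh v) - num sumF ℓ P (hol P.m v) v v) _)
  rw [bker, abs_div, abs_of_nonneg (zero_le_one.trans h2)]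
  exact (div_le_self (abs_nonneg _) h2).trans (hY ▸ hR Y _ v v')

end Vale.Agent.P184
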