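import Vale.Agent.P184.Defs

/-!
# P184: antisymmetrised products of matrices
-/

namespace Vale.Agent.P184

open Finset

variable {k : ℕ}

section aux

open Equiv

lemma psi_sg_sq {n : ℕ} (τ : Perm (Fin n)) :
    ((Perm.sign τ : ℤ) : ℝ) * ((Perm.sign τ : ℤ) : ℝ) = 1 := by
  rcases Int.units_eq_one_or (Perm.sign τ) with h | h <;> simp [h]

lemma psi_abs_sg {n : ℕ} (τ : Perm (Fin n)) : |((Perm.sign τ : ℤ) : ℝ)| = 1 := by
  rcases Int.units_eq_one_or (Perm.sign τ) with h | h <;> simp [h]

lemma psi_sg_mul {n : ℕ} (π τ : Perm (Fin n)) :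
    ((Perm.sign (π * τ) : ℤ) : ℝ) = ((Perm.sign π : ℤ) : ℝ) * ((Perm.sign τ : ℤ) : ℝ) := by
  rw [Perm.sign_mul]; push_cast; rfl

lemma psi_sum_right {n : ℕ} (τ : Perm (Fin n)) (F : Perm (Fin n) → ℝ) :
    ∑ π : Perm (Fin n), ((Perm.sign π : ℤ) : ℝ) * F (π * τ) =
      ((Perm.sign τ : ℤ) : ℝ) * ∑ π : Perm (Fin n), ((Perm.sign π : ℤ) : ℝ) * F π := by
  rw [Finset.mul_sum]
  refine Fintype.sum_equiv (Equiv.mulRight τ) _ _ fun π => ?_
  rw [Equiv.coe_mulRight, psi_sg_mul]
  linear_combination (-((Perm.sign π : ℤ) : ℝ) * F (π * τ)) * psi_sg_sq τ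

lemma psi_sum_left {n : ℕ} (τ : Perm (Fin n)) (F : Perm (Fin n) → ℝ) :
    ∑ π : Perm (Fin n), ((Perm.sign π : ℤ) : ℝ) * F (τ * π) =
      ((Perm.sign τ : ℤ) : ℝ) * ∑ π : Perm (Fin n), ((Perm.sign π : ℤ) : ℝ) * F π := by
  rw [Finset.mul_sum]
  refine Fintype.sum_equiv (Equiv.mulLeft τ) _ _ fun π => ?_
  rw [Equiv.coe_mulLeft, psi_sg_mul]
  linear_combination (-((Perm.sign π : ℤ) : ℝ) * F (τ * π)) * psi_sg_sq τ

lemma psi_sum_swap {n : ℕ} {a b : Fin n} (hab : a ≠ b) (F : Perm (Fin n) → ℝ) :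
    ∑ π : Perm (Fin n), ((Perm.sign π : ℤ) : ℝ) * F (π * swap a b) =
      -∑ π : Perm (Fin n), ((Perm.sign π : ℤ) : ℝ) * F π := by
  rw [psi_sum_right, Perm.sign_swap hab]; simp

lemma psi_sum_zero {n : ℕ} {a b : Fin n} (hab : a ≠ b) (F : Perm (Fin n) → ℝ)
    (hF : ∀ π, F (π * swap a b) = F π) :
    ∑ π : Perm (Fin n), ((Perm.sign π : ℤ) : ℝ) * F π = 0 := by
  have := psi_sum_swap hab F
  simp only [hF] at this
  linarith

lemma psi_cob {n : ℕ} {ι : Type} [DecidableEq ι] (L R : ι → Fin n) (z : Fin n)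
    (hL : Function.Injective L) (hR : Function.Injective R) (hLR : ∀ i j, L i ≠ R j)
    (hzR : ∀ i, z ≠ R i) (C : ι → Fin n → Fin n → ℝ) (α α' : ι → Fin n → ℝ) (s : Finset ι) :
    (∀ i ∈ s, z ≠ L i) → ∀ c : Perm (Fin n) → ℝ,
      (∀ π, ∀ i ∈ s, c (π * swap z (L i)) = c π ∧ c (π * swap z (R i)) = c π) →
      ∑ π : Perm (Fin n), ((Perm.sign π : ℤ) : ℝ) * (c π *
        ∏ i ∈ s, (C i (π (L i)) (π (R i)) + α i (π (L i)) + α' i (π (R i)))) =
      ∑ π : Perm (Fin n), ((Perm.sign π : ℤ) : ℝ) * (c π * ∏ i ∈ s, C i (π (L i)) (π (R i))) := by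
  induction s using Finset.induction_on with
  | empty => intro _ c _; simp
  | insert j s hj ih =>
    intro hz c hc
    have hzj : z ≠ L j := hz j (mem_insert_self _ _)
    have hzs : ∀ i ∈ s, z ≠ L i := fun i hi => hz i (mem_insert_of_mem hi)
    have hne : ∀ i ∈ s, i ≠ j := fun i hi h => hj (h ▸ hi)
    have e1 := ih hzs (fun π => c π * (C j (π (L j)) (π (R j)) + α j (π (L j)) + α' j (π (R j))))
      (by
        intro π i hi
        have := hc π i (mem_insert_of_mem hi)
        simp only [Perm.mul_apply, this.1, this.2]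
        rw [swap_apply_of_ne_of_ne hzj.symm (hL.ne (hne i hi).symm),
          swap_apply_of_ne_of_ne (hzR j).symm (hLR i j).symm,
          swap_apply_of_ne_of_ne hzj.symm (hLR j i),
          swap_apply_of_ne_of_ne (hzR j).symm (hR.ne (hne i hi).symm)]
        exact ⟨rfl, rfl⟩)
    have e2 := psi_sum_zero (hzR j)
      (fun π => c π * α j (π (L j)) * ∏ i ∈ s, C i (π (L i)) (π (R i))) (by
        intro π
        simp only [Perm.mul_apply, (hc π j (mem_insert_self _ _)).2]
        rw [swap_apply_of_ne_of_ne hzj.symm (hLR j j)]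
        congr 1
        refine prod_congr rfl fun i hi => ?_
        rw [swap_apply_of_ne_of_ne (hzs i hi).symm (hLR i j),
          swap_apply_of_ne_of_ne (hzR i).symm (hR.ne (hne i hi))])
    have e3 := psi_sum_zero hzj
      (fun π => c π * α' j (π (R j)) * ∏ i ∈ s, C i (π (L i)) (π (R i))) (by
        intro π
        simp only [Perm.mul_apply, (hc π j (mem_insert_self _ _)).1]
        rw [swap_apply_of_ne_of_ne (hzR j).symm (hLR j j).symm]
        congr 1
        refine prod_congr rfl fun i hi => ?_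
        rw [swap_apply_of_ne_of_ne (hzs i hi).symm (hL.ne (hne i hi)),
          swap_apply_of_ne_of_ne (hzR i).symm (hLR j i).symm])
    simp only [prod_insert hj, ← mul_assoc (c _)]
    rw [e1, ← add_zero (∑ π : Perm (Fin n), ((Perm.sign π : ℤ) : ℝ) *
      (c π * C j (π (L j)) (π (R j)) * ∏ i ∈ s, C i (π (L i)) (π (R i)))), ← add_zero (0 : ℝ)]
    nth_rewrite 1 [← e2]
    rw [← e3, ← sum_add_distrib, ← sum_add_distrib]
    exact sum_congr rfl fun π _ => by ring

lemma psi_decomp {n : ℕ} (G : Fin (n + 1) → (Fin n → Fin (n + 1)) → ℝ) :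
    ∑ π : Perm (Fin (n + 1)), ((Perm.sign π : ℤ) : ℝ) * G (π 0) (fun x => π x.succ) =
      ∑ p : Fin (n + 1), (-1 : ℝ) ^ (p : ℕ) *
        ∑ π : Perm (Fin n), ((Perm.sign π : ℤ) : ℝ) * G p (fun x => p.succAbove (π x)) := by
  let e : Fin (n + 1) × Perm (Fin n) → Perm (Fin (n + 1)) :=
    fun q => q.1.cycleRange⁻¹ * Perm.decomposeFin.symm (0, q.2)
  have e0 : ∀ q, e q 0 = q.1 := by
    intro q
    simp [e, Perm.inv_def]
  have es : ∀ q (x : Fin n), e q x.succ = q.1.succAbove (q.2 x) := by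
    intro q x
    simp [e, Perm.inv_def]
  have hinj : Function.Injective e := by
    rintro ⟨p, π⟩ ⟨p', π'⟩ h
    have h1 : p = p' := by
      have := e0 (p, π); rw [h, e0] at this; exact this.symm
    subst h1
    have h2 := mul_left_cancel h
    have h3 := Perm.decomposeFin.symm.injective h2
    rw [Prod.mk.injEq] at h3 ⊢
    exact ⟨rfl, h3.2⟩
  have hb : Function.Bijective e := by
    rw [Fintype.bijective_iff_injective_and_card]
    refine ⟨hinj, ?_⟩
    simp [Fintype.card_perm, Nat.factorial_succ]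
  rw [← hb.sum_comp, Fintype.sum_prod_type]
  refine sum_congr rfl fun p _ => ?_
  rw [mul_sum]
  refine sum_congr rfl fun π _ => ?_
  simp only [e0, es]
  have : ((Perm.sign (e (p, π)) : ℤ) : ℝ) = (-1) ^ (p : ℕ) * ((Perm.sign π : ℤ) : ℝ) := by
    simp [e, Perm.decomposeFin.symm_sign]
  rw [this, mul_assoc]

lemma psi_LR (i j : Fin k) : Fin.castAdd k i ≠ Fin.natAdd k j := by
  intro h
  have := congrArg Fin.val h
  simp only [Fin.val_castAdd, Fin.val_natAdd] at this
  omega

lemma psi_sum_det {n : ℕ} (X : Matrix (Fin n) (Fin n) ℝ) (g : (Fin n → Fin n) → ℝ) :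
    ∑ φ : Fin n → Fin n, g φ * (X.submatrix φ id).det =
      X.det * ∑ σ : Perm (Fin n), ((Perm.sign σ : ℤ) : ℝ) * g σ := by
  rw [mul_sum]
  symm
  refine Fintype.sum_of_injective (fun σ : Perm (Fin n) => (σ : Fin n → Fin n))
    DFunLike.coe_injective _ _ ?_ ?_
  · intro φ hφ
    have : ¬ Function.Injective φ := fun h =>
      hφ ⟨Equiv.ofBijective φ (Finite.injective_iff_bijective.mp h), rfl⟩
    obtain ⟨a, b, h1, h2⟩ := Function.not_injective_iff.mp this
    rw [Matrix.det_zero_of_row_eq h2 (by funext c; simp [h1]), mul_zero]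
  · intro σ
    rw [Matrix.det_permute]; ring

lemma MP_congr (X : Matrix (Fin (k + k)) (Fin (k + k)) ℝ) (D : Fin (k + k) → Fin (k + k) → ℝ) :
    MP (fun p q => ∑ a, ∑ b, X a p * D a b * X b q) = X.det * MP D := by
  unfold MP
  rw [← psi_sum_det X (fun φ => ∏ i, D (φ (Fin.castAdd k i)) (φ (Fin.natAdd k i)))]
  have h1 : ∀ π : Perm (Fin (k + k)),
      ∏ i, ∑ a, ∑ b, X a (π (Fin.castAdd k i)) * D a b * X b (π (Fin.natAdd k i)) =
      ∑ φ : Fin (k + k) → Fin (k + k),
        (∏ i, D (φ (Fin.castAdd k i)) (φ (Fin.natAdd k i))) * ∏ y, X (φ y) (π y) := by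
    intro π
    rw [prod_univ_sum, Fintype.piFinset_univ, ← (Fin.appendEquiv k k).sum_comp,
      Fintype.sum_prod_type]
    refine sum_congr rfl fun f _ => ?_
    rw [prod_univ_sum, Fintype.piFinset_univ]
    refine sum_congr rfl fun g _ => ?_
    rw [Fin.prod_univ_add]
    simp only [Fin.appendEquiv_apply, Fin.append_left, Fin.append_right, ← prod_mul_distrib]
    exact prod_congr rfl fun i _ => by ring
  simp only [h1, mul_sum]
  rw [sum_comm]
  refine sum_congr rfl fun φ _ => ?_
  rw [← Matrix.det_transpose, Matrix.det_apply', mul_sum]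
  refine sum_congr rfl fun π _ => ?_
  simp only [Matrix.transpose_apply, Matrix.submatrix_apply, id]
  ring

/-- The permutation acting by `σ` on the left positions and by `τ` on the right positions. -/
def psiExt (σ τ : Perm (Fin k)) : Perm (Fin (k + k)) :=
  finSumFinEquiv.permCongr (Equiv.sumCongr σ τ)

lemma psiExt_L (σ τ : Perm (Fin k)) (i : Fin k) :
    psiExt σ τ (Fin.castAdd k i) = Fin.castAdd k (σ i) := by
  simp [psiExt]

lemma psiExt_R (σ τ : Perm (Fin k)) (i : Fin k) :
    psiExt σ τ (Fin.natAdd k i) = Fin.natAdd k (τ i) := by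
  rw [psiExt, Equiv.permCongr_apply, finSumFinEquiv_symm_apply_natAdd]
  rfl

lemma psiExt_sign (σ τ : Perm (Fin k)) :
    Perm.sign (psiExt σ τ) = Perm.sign σ * Perm.sign τ := by
  rw [psiExt, Perm.sign_permCongr]
  exact Perm.sign_sumCongr σ τ

end aux

/-- Stokes formula. -/
theorem psi_eq_sum_eta (i₀ : Fin k) (B : Fin k → Fin (k + k + 1) → Fin (k + k + 1) → ℝ) :
    psi B = ∑ p : Fin (k + k + 1), (-1 : ℝ) ^ (p : ℕ) *
      eta i₀ (fun i x y => B i (p.succAbove x) (p.succAbove y)) := by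
  have hd := psi_decomp (fun (p : Fin (k + k + 1)) (f : Fin (k + k) → Fin (k + k + 1)) =>
    (∑ r : Fin (k + k), B i₀ (p.succAbove r) (f (Fin.natAdd k i₀))) *
      ∏ i ∈ univ.erase i₀, B i (f (Fin.castAdd k i)) (f (Fin.natAdd k i)))
  unfold eta
  rw [← hd]
  have hz : (0 : Fin (k + k + 1)) ≠ (Fin.castAdd k i₀).succ := (Fin.succ_ne_zero _).symm
  have hR : ∀ i, Equiv.swap 0 (Fin.castAdd k i₀).succ (Fin.natAdd k i).succ =
      (Fin.natAdd k i).succ := fun i =>
    Equiv.swap_apply_of_ne_of_ne (Fin.succ_ne_zero _)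
      (fun h => psi_LR i₀ i (Fin.succ_injective _ h).symm)
  have hL : ∀ i ∈ univ.erase i₀, Equiv.swap 0 (Fin.castAdd k i₀).succ (Fin.castAdd k i).succ =
      (Fin.castAdd k i).succ := fun i hi =>
    Equiv.swap_apply_of_ne_of_ne (Fin.succ_ne_zero _)
      (fun h => (ne_of_mem_erase hi) (Fin.castAdd_injective _ _ (Fin.succ_injective _ h)))
  have hP : ∀ π : Equiv.Perm (Fin (k + k + 1)),
      ∏ i ∈ univ.erase i₀, B i ((π * Equiv.swap 0 (Fin.castAdd k i₀).succ) (Fin.castAdd k i).succ)
        ((π * Equiv.swap 0 (Fin.castAdd k i₀).succ) (Fin.natAdd k i).succ) =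
      ∏ i ∈ univ.erase i₀, B i (π (Fin.castAdd k i).succ) (π (Fin.natAdd k i).succ) := by
    intro π
    refine prod_congr rfl fun i hi => ?_
    rw [Equiv.Perm.mul_apply, Equiv.Perm.mul_apply, hL i hi, hR]
  have e1 := psi_sum_zero hz (fun π => (∑ r, B i₀ r (π (Fin.natAdd k i₀).succ)) *
      ∏ i ∈ univ.erase i₀, B i (π (Fin.castAdd k i).succ) (π (Fin.natAdd k i).succ)) (by
    intro π
    rw [hP, Equiv.Perm.mul_apply, hR])
  have e2 := psi_sum_swap hz (fun π => B i₀ (π 0) (π (Fin.natAdd k i₀).succ) *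
      ∏ i ∈ univ.erase i₀, B i (π (Fin.castAdd k i).succ) (π (Fin.natAdd k i).succ))
  simp only [hP] at e2
  simp only [Equiv.Perm.mul_apply, hR, Equiv.swap_apply_left] at e2
  unfold psi
  have e3 : ∀ π : Equiv.Perm (Fin (k + k + 1)),
      ∏ i, B i (π (Fin.castAdd k i).succ) (π (Fin.natAdd k i).succ) =
      B i₀ (π (Fin.castAdd k i₀).succ) (π (Fin.natAdd k i₀).succ) *
      ∏ i ∈ univ.erase i₀, B i (π (Fin.castAdd k i).succ) (π (Fin.natAdd k i).succ) := fun π =>
    (mul_prod_erase univ (fun i => B i (π (Fin.castAdd k i).succ) (π (Fin.natAdd k i).succ))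
      (mem_univ i₀)).symm
  simp only [e3]
  rw [e2, ← zero_sub, ← e1, ← sum_sub_distrib]
  refine sum_congr rfl fun π _ => ?_
  rw [Fin.sum_univ_succAbove _ (π 0)]
  ring

/-- `eta` is alternating and does not see coboundaries outside the slot `i₀`. -/
theorem eta_perm (i₀ : Fin k) (B B' : Fin k → Fin (k + k) → Fin (k + k) → ℝ)
    (ρ : Equiv.Perm (Fin (k + k))) (α α' : Fin k → Fin (k + k) → ℝ)
    (h₀ : ∀ x y, B' i₀ x y = B i₀ (ρ x) (ρ y))
    (h₁ : ∀ i, i ≠ i₀ → ∀ x y, B' i x y = B i (ρ x) (ρ y) + α i x + α' i y) :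
    eta i₀ B' = ((Equiv.Perm.sign ρ : ℤ) : ℝ) * eta i₀ B := by
  unfold eta
  have e1 := psi_cob (Fin.castAdd k) (Fin.natAdd k) (Fin.castAdd k i₀) (Fin.castAdd_injective _ _)
    (Fin.natAdd_injective _ _) psi_LR (psi_LR i₀) (fun i x y => B i (ρ x) (ρ y)) α α'
    (univ.erase i₀) (fun i hi h => ne_of_mem_erase hi (Fin.castAdd_injective _ _ h).symm)
    (fun π => ∑ r, B i₀ r (ρ (π (Fin.natAdd k i₀)))) (by
      intro π i hi
      simp only [Equiv.Perm.mul_apply]
      rw [Equiv.swap_apply_of_ne_of_ne (psi_LR i₀ i₀).symm (psi_LR i i₀).symm,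
        Equiv.swap_apply_of_ne_of_ne (psi_LR i₀ i₀).symm
          ((Fin.natAdd_injective _ _).ne (ne_of_mem_erase hi).symm)]
      exact ⟨rfl, rfl⟩)
  rw [← psi_sum_left ρ (fun π => (∑ r, B i₀ r (π (Fin.natAdd k i₀))) *
      ∏ i ∈ univ.erase i₀, B i (π (Fin.castAdd k i)) (π (Fin.natAdd k i)))]
  simp only [Equiv.Perm.mul_apply]
  rw [← e1]
  refine sum_congr rfl fun π _ => ?_
  simp only [h₀]
  rw [Equiv.sum_comp ρ (fun r => B i₀ r (ρ (π (Fin.natAdd k i₀)))),
    prod_congr rfl fun i hi => h₁ i (ne_of_mem_erase hi) _ _]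

theorem psi_sub (i₀ : Fin k) (B B' B'' : Fin k → Fin (k + k + 1) → Fin (k + k + 1) → ℝ)
    (h₀ : ∀ x y, B'' i₀ x y = B i₀ x y - B' i₀ x y)
    (h₁ : ∀ i, i ≠ i₀ → B' i = B i) (h₂ : ∀ i, i ≠ i₀ → B'' i = B i) :
    psi B - psi B' = psi B'' := by
  unfold psi
  rw [← sum_sub_distrib]
  refine sum_congr rfl fun π _ => ?_
  rw [← mul_prod_erase univ _ (mem_univ i₀), ← mul_prod_erase univ _ (mem_univ i₀),
    ← mul_prod_erase univ _ (mem_univ i₀), h₀,
    prod_congr (s₁ := univ.erase i₀) (f := fun i => B' i _ _) rfl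
      fun i hi => by rw [h₁ i (ne_of_mem_erase hi)],
    prod_congr (s₁ := univ.erase i₀) (f := fun i => B'' i _ _) rfl
      fun i hi => by rw [h₂ i (ne_of_mem_erase hi)]]
  ring

theorem abs_eta_le (i₀ : Fin k) (B : Fin k → Fin (k + k) → Fin (k + k) → ℝ) (R : ℝ)
    (h : ∀ i x y, |B i x y| ≤ R) :
    |eta i₀ B| ≤ (k + k).factorial * ((k + k : ℕ) * R ^ k) := by
  have hR : 0 ≤ R := (abs_nonneg _).trans (h i₀ (Fin.castAdd k i₀) (Fin.castAdd k i₀))
  unfold eta
  refine (abs_sum_le_sum_abs _ _).trans ?_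
  refine (sum_le_card_nsmul _ _ (((k + k : ℕ) : ℝ) * R ^ k) fun π _ => ?_).trans ?_
  · rw [abs_mul, psi_abs_sg, one_mul, abs_mul, abs_prod]
    have h1 : |∑ r, B i₀ r (π (Fin.natAdd k i₀))| ≤ ((k + k : ℕ) : ℝ) * R := by
      refine (abs_sum_le_sum_abs _ _).trans ?_
      refine (sum_le_card_nsmul _ _ R fun r _ => h _ _ _).trans ?_
      simp
    have h2 : ∏ i ∈ univ.erase i₀, |B i (π (Fin.castAdd k i)) (π (Fin.natAdd k i))| ≤
        ∏ _i ∈ univ.erase i₀, R := prod_le_prod (fun _ _ => abs_nonneg _) fun i _ => h _ _ _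
    have h3 : R * ∏ _i ∈ univ.erase i₀, R = R ^ k := by
      rw [mul_prod_erase univ (fun _ => R) (mem_univ i₀)]; simp
    calc _ ≤ ((k + k : ℕ) : ℝ) * R * ∏ _i ∈ univ.erase i₀, R :=
          mul_le_mul h1 h2 (prod_nonneg fun _ _ => abs_nonneg _) (by positivity)
      _ = _ := by rw [mul_assoc, h3]
  · simp [Fintype.card_perm]

theorem abs_psi_le (B : Fin k → Fin (k + k + 1) → Fin (k + k + 1) → ℝ) (R : ℝ)
    (h : ∀ i x y, |B i x y| ≤ R) : |psi B| ≤ (k + k + 1).factorial * R ^ k := by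
  unfold psi
  refine (abs_sum_le_sum_abs _ _).trans ?_
  refine (sum_le_card_nsmul _ _ (R ^ k) fun π _ => ?_).trans ?_
  · rw [abs_mul, psi_abs_sg, one_mul, abs_prod]
    refine (prod_le_prod (g := fun _ => R) (fun _ _ => abs_nonneg _) fun i _ => h _ _ _).trans ?_
    simp
  · simp [Fintype.card_perm]

theorem psi_eq_MP (B : Fin (k + k + 1) → Fin (k + k + 1) → ℝ) :
    psi (fun _ : Fin k => B) = MP (mixed B) := by
  let T : Fin (k + k + 1) → Fin (k + k + 1) → ℝ := fun p q => B p q - B 0 q - B p 0 + B 0 0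
  have T0 : ∀ q, T 0 q = 0 := fun q => by simp [T]
  have T0' : ∀ q, T q 0 = 0 := fun q => by simp [T]
  have e1 := psi_cob (fun i => (Fin.castAdd k i).succ) (fun i => (Fin.natAdd k i).succ) 0
    ((Fin.succ_injective _).comp (Fin.castAdd_injective _ _))
    ((Fin.succ_injective _).comp (Fin.natAdd_injective _ _))
    (fun i j h => psi_LR i j (Fin.succ_injective _ h)) (fun i => (Fin.succ_ne_zero _).symm)
    (fun _ => T) (fun _ p => B p 0 - B 0 0) (fun _ q => B 0 q) univ
    (fun i _ => (Fin.succ_ne_zero _).symm) (fun _ => 1) (fun _ _ _ => ⟨rfl, rfl⟩)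
  have e2 : psi (fun _ : Fin k => B) = psi (fun _ : Fin k => T) := by
    unfold psi
    simp only [one_mul] at e1
    rw [← e1]
    refine sum_congr rfl fun π _ => ?_
    congr 1
    refine prod_congr rfl fun i _ => ?_
    simp only [T]; ring
  have e3 : psi (fun _ : Fin k => T) = MP (fun p q : Fin (k + k) => T p.succ q.succ) := by
    have hd := psi_decomp (fun (_ : Fin (k + k + 1)) (f : Fin (k + k) → Fin (k + k + 1)) =>
      ∏ i, T (f (Fin.castAdd k i)) (f (Fin.natAdd k i)))
    beta_reduce at hd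
    unfold psi MP
    rw [hd, Fin.sum_univ_succ, sum_eq_zero (s := univ) (f := fun p : Fin (k + k) => _)]
    · simp
    · intro p _
      rw [sum_eq_zero, mul_zero]
      intro π _
      obtain ⟨x, hx⟩ := Fin.exists_succAbove_eq (Fin.succ_ne_zero p).symm
      obtain ⟨y, rfl⟩ := π.surjective x
      induction y using Fin.addCases with
      | left i => rw [prod_eq_zero (mem_univ i) (by rw [hx, T0]), mul_zero]
      | right i => rw [prod_eq_zero (mem_univ i) (by rw [hx, T0']), mul_zero]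
  let Y : Matrix (Fin (k + k)) (Fin (k + k)) ℝ := Matrix.of fun p i =>
    (if p = i then 1 else 0) - if p.succ = i.castSucc then 1 else 0
  have hY : ∀ (f : Fin (k + k + 1) → ℝ), f 0 = 0 → ∀ i,
      ∑ p, Y p i * f p.succ = f i.succ - f i.castSucc := by
    intro f hf i
    have := Fin.sum_univ_succ (fun r => (if r = i.castSucc then 1 else 0) * f r)
    simp only [hf, mul_zero, zero_add] at this
    simp only [Y, Matrix.of_apply, sub_mul, sum_sub_distrib, ← this]
    simp
  have hdet : Y.det = 1 := by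
    rw [Matrix.det_of_isUpperTriangular]
    · refine prod_eq_one fun i _ => ?_
      have : i.succ ≠ i.castSucc := (Fin.castSucc_lt_succ (i := i)).ne'
      simp [Y, this]
    · intro i j hij
      have h1 : i ≠ j := (ne_of_gt hij)
      have h2 : i.succ ≠ j.castSucc := by
        intro h
        have := congrArg Fin.val h
        have h3 : j.val < i.val := hij
        simp only [Fin.val_succ, Fin.val_castSucc] at this
        omega
      simp [Y, h1, h2]
  have e4 := MP_congr Y (fun p q : Fin (k + k) => T p.succ q.succ)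
  rw [hdet, one_mul] at e4
  rw [e2, e3, ← e4]
  congr 1
  funext p q
  have : ∀ a : Fin (k + k), ∑ b, Y a p * T a.succ b.succ * Y b q =
      Y a p * (T a.succ q.succ - T a.succ q.castSucc) := by
    intro a
    rw [← hY (T a.succ) (T0' _), mul_sum]
    exact sum_congr rfl fun b _ => by ring
  simp only [this]
  rw [hY (fun a => T a q.succ - T a q.castSucc) (by simp [T0])]
  simp only [T, mixed]
  ring

theorem abs_MP_le (D : Fin (k + k) → Fin (k + k) → ℝ) (β : ℝ)
    (h : ∀ π : Equiv.Perm (Fin (k + k)), |(Matrix.of fun i j : Fin k =>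
      D (π (Fin.castAdd k i)) (π (Fin.natAdd k j))).det| ≤ β) :
    |MP D| * k.factorial ≤ (k + k).factorial * β := by
  have e : ∑ π : Equiv.Perm (Fin (k + k)), ((Equiv.Perm.sign π : ℤ) : ℝ) *
      (Matrix.of fun i j : Fin k => D (π (Fin.castAdd k i)) (π (Fin.natAdd k j))).det =
      MP D * k.factorial := by
    have h1 : ∀ π : Equiv.Perm (Fin (k + k)),
        (Matrix.of fun i j : Fin k => D (π (Fin.castAdd k i)) (π (Fin.natAdd k j))).det =
        ∑ τ : Equiv.Perm (Fin k), ((Equiv.Perm.sign τ : ℤ) : ℝ) *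
          ∏ i, D ((π * psiExt 1 τ) (Fin.castAdd k i)) ((π * psiExt 1 τ) (Fin.natAdd k i)) := by
      intro π
      rw [← Matrix.det_transpose, Matrix.det_apply']
      simp only [Matrix.transpose_apply, Matrix.of_apply, Equiv.Perm.mul_apply, psiExt_L, psiExt_R,
        Equiv.Perm.one_apply]
    simp only [h1, mul_sum]
    rw [sum_comm]
    have h2 : ∀ τ : Equiv.Perm (Fin k), ∑ π : Equiv.Perm (Fin (k + k)),
        ((Equiv.Perm.sign π : ℤ) : ℝ) * (((Equiv.Perm.sign τ : ℤ) : ℝ) *
          ∏ i, D ((π * psiExt 1 τ) (Fin.castAdd k i)) ((π * psiExt 1 τ) (Fin.natAdd k i))) =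
        MP D := by
      intro τ
      have := psi_sum_right (psiExt 1 τ)
        (fun π => ∏ i, D (π (Fin.castAdd k i)) (π (Fin.natAdd k i)))
      rw [psiExt_sign, Equiv.Perm.sign_one, one_mul] at this
      simp only [mul_left_comm _ ((Equiv.Perm.sign τ : ℤ) : ℝ), ← mul_sum]
      rw [this, ← mul_assoc, psi_sg_sq, one_mul, MP]
    simp only [h2]
    simp [Fintype.card_perm, mul_comm]
  have : |MP D| * k.factorial = |MP D * k.factorial| := by
    rw [abs_mul, Nat.abs_cast]
  rw [this, ← e]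
  refine (abs_sum_le_sum_abs _ _).trans ?_
  refine (sum_le_card_nsmul _ _ β fun π _ => ?_).trans ?_
  · rw [abs_mul, psi_abs_sg, one_mul]; exact h π
  · simp [Fintype.card_perm]

theorem abs_MP_std :
    |MP (mixed fun p q : Fin (k + k + 1) => if p ≤ q then (0 : ℝ) else -1)| = k.factorial := by
  have hD : ∀ i l : Fin (k + k), i ≠ l →
      mixed (fun p q : Fin (k + k + 1) => if p ≤ q then (0 : ℝ) else -1) i l =
        if i.val = l.val + 1 then -1 else 0 := by
    intro i l hil
    have h0 : i.val ≠ l.val := fun h => hil (Fin.ext h)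
    simp only [mixed, Fin.le_def, Fin.val_succ, Fin.val_castSucc]
    split_ifs <;> first | omega | norm_num
  obtain ⟨π₀, hL, hR⟩ : ∃ π₀ : Equiv.Perm (Fin (k + k)),
      (∀ j, (π₀ (Fin.castAdd k j)).val = 2 * j + 1) ∧ ∀ j, (π₀ (Fin.natAdd k j)).val = 2 * j := by
    let f : Fin (k + k) → Fin (k + k) := Fin.addCases
      (fun j : Fin k => ⟨2 * j + 1, by omega⟩) (fun j : Fin k => ⟨2 * j, by omega⟩)
    have fL : ∀ j, (f (Fin.castAdd k j)).val = 2 * j + 1 := fun j => by
      simp only [f, Fin.addCases_left]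
    have fR : ∀ j, (f (Fin.natAdd k j)).val = 2 * j := fun j => by
      simp only [f, Fin.addCases_right]
    have hf : Function.Injective f := by
      intro a b h
      have h' := congrArg Fin.val h
      induction a using Fin.addCases with
      | left i =>
        induction b using Fin.addCases with
        | left j => rw [fL, fL] at h'; rw [show i = j from Fin.ext (by omega)]
        | right j => rw [fL, fR] at h'; omega
      | right i =>
        induction b using Fin.addCases with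
        | left j => rw [fL, fR] at h'; omega
        | right j => rw [fR, fR] at h'; rw [show i = j from Fin.ext (by omega)]
    exact ⟨Equiv.ofBijective f (Finite.injective_iff_bijective.mp hf), fL, fR⟩
  have key : ∑ _τ : Equiv.Perm (Fin k), ((Equiv.Perm.sign π₀ : ℤ) : ℝ) * (-1) ^ k =
      MP (mixed fun p q : Fin (k + k + 1) => if p ≤ q then (0 : ℝ) else -1) := by
    unfold MP
    refine Fintype.sum_of_injective (fun τ => π₀ * psiExt τ τ) ?_ _ _ ?_ ?_
    · intro τ τ' h
      have h1 := mul_left_cancel h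
      ext i
      have h2 := congrArg (fun e : Equiv.Perm (Fin (k + k)) => e (Fin.castAdd k i)) h1
      simp only [psiExt_L] at h2
      rw [Fin.castAdd_injective _ _ h2]
    · intro π hπ
      by_contra hne
      have h1 : ∀ i, (π (Fin.castAdd k i)).val = (π (Fin.natAdd k i)).val + 1 := by
        intro i
        by_contra h
        refine hne ?_
        rw [prod_eq_zero (mem_univ i), mul_zero]
        rw [hD _ _ (π.injective.ne (psi_LR i i)), if_neg h]
      have h2 : ∀ j : ℕ, j < k → ∃ i, (π (Fin.natAdd k i)).val = 2 * j := by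
        intro j
        induction j with
        | zero =>
          intro hj
          obtain ⟨y, hy⟩ := π.surjective ⟨0, by omega⟩
          have hy' := congrArg Fin.val hy
          induction y using Fin.addCases with
          | left i => rw [h1] at hy'; simp at hy'
          | right i => exact ⟨i, hy'⟩
        | succ j ih =>
          intro hj
          obtain ⟨i', hi'⟩ := ih (by omega)
          obtain ⟨y, hy⟩ := π.surjective ⟨2 * (j + 1), by omega⟩
          have hy' := congrArg Fin.val hy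
          induction y using Fin.addCases with
          | left i =>
            exfalso
            refine psi_LR i' i (π.injective (Fin.ext ?_))
            rw [h1] at hy'
            rw [h1]
            simp only at hy'
            omega
          | right i => exact ⟨i, hy'⟩
      choose g hg using fun j : Fin k => h2 j j.isLt
      have hgi : Function.Injective g := by
        intro a b h
        have := hg a
        rw [h, hg b] at this
        exact Fin.ext (by omega)
      let σ := Equiv.ofBijective g (Finite.injective_iff_bijective.mp hgi)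
      have hσ : ∀ i, (π (Fin.natAdd k i)).val = 2 * (σ.symm i).val := by
        intro i
        rw [← hg (σ.symm i)]
        exact congrArg (fun x => (π (Fin.natAdd k x)).val) (σ.apply_symm_apply i).symm
      refine hπ ⟨σ.symm, ?_⟩
      ext y
      induction y using Fin.addCases with
      | left i => simp only [Equiv.Perm.mul_apply, psiExt_L, hL, h1, hσ]
      | right i => simp only [Equiv.Perm.mul_apply, psiExt_R, hR, hσ]
    · intro τ
      rw [psi_sg_mul, psiExt_sign, Units.val_mul, Int.cast_mul, psi_sg_sq, mul_one]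
      congr 1
      rw [prod_congr rfl (g := fun _ => (-1 : ℝ))]
      · simp
      · intro i _
        rw [hD _ _ ((π₀ * psiExt τ τ).injective.ne (psi_LR i i)), if_pos]
        simp only [Equiv.Perm.mul_apply, psiExt_L, psiExt_R, hL, hR]
  rw [← key]
  simp [abs_mul, psi_abs_sg, Fintype.card_perm]

end Vale.Agent.P184
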