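import Vale.Agent.P184.ConfigC
import Vale.Agent.P184.Psi

/-!
# P184: the key inequality
-/

namespace Vale.Agent.P184

open Finset

namespace KeyAux

variable {G : Type*}

theorem mat_succAbove (b : (ℕ → G) → (ℕ → G) → ℝ) {n : ℕ} (u : Fin (n + 1) → ℕ → G)
    (p : Fin (n + 1)) (x y : Fin n) :
    mat b (fun i => u (p.succAbove i)) x y = mat b u (p.succAbove x) (p.succAbove y) := by
  simp only [mat, (Fin.strictMono_succAbove p).le_iff_le]

theorem abs_mat_le {b : (ℕ → G) → (ℕ → G) → ℝ} {R : ℝ} (hb : ∀ v v', |b v v'| ≤ R) {n : ℕ}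
    (u : Fin n → ℕ → G) (p q : Fin n) : |mat b u p q| ≤ R + 1 := by
  unfold mat
  split_ifs
  · linarith [hb (u p) (u q)]
  · exact (abs_sub _ _).trans (by rw [abs_one]; linarith [hb (u p) (Tsh (u q))])

theorem val_finRotate {n : ℕ} (p : Fin n) :
    (finRotate n p).val = if p.val + 1 < n then p.val + 1 else 0 := by
  rcases n with _ | n
  · exact p.elim0
  rw [coe_finRotate]
  have := p.2
  by_cases h : p = Fin.last n
  · rw [if_pos h, if_neg (by rw [h]; simp)]
  · rw [if_neg h, if_pos (by have := Fin.val_lt_last h; omega)]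

theorem rotT_eq {n : ℕ} (w : Fin n → ℕ → G) (p : Fin n) :
    rotT w p = if p.val + 1 < n then w (finRotate n p) else Tsh (w (finRotate n p)) := by
  have h := val_finRotate p
  unfold rotT
  split_ifs at h ⊢
  · congr 1
    exact Fin.ext h.symm
  · congr 2
    exact Fin.ext h.symm

theorem mat_rot (b : (ℕ → G) → (ℕ → G) → ℝ) {n : ℕ} (w : Fin n → ℕ → G)
    (hT : ∀ p q, b (Tsh (w p)) (Tsh (w q)) = b (w p) (w q)) (p q : Fin n) :
    mat b (rotT w) p q = mat b w (finRotate n p) (finRotate n q) +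
      (if p.val + 1 < n then 0 else -1) + (if q.val + 1 < n then 0 else 1) := by
  have h1 := val_finRotate p
  have h2 := val_finRotate q
  have h3 := p.2
  have h4 := q.2
  simp only [mat, rotT_eq, Fin.le_def, h1, h2]
  by_cases hp : p.val + 1 < n <;> by_cases hq : q.val + 1 < n <;> simp only [hp, hq, if_true,
    if_false, Nat.add_le_add_iff_right, hT]
  · ring
  · rw [if_pos (by omega), if_neg (by omega)]
    ring
  · rw [if_neg (by omega), if_pos (by omega)]
    ring
  · rw [if_pos (by omega), if_pos (by omega)]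
    ring

/-- The zero kernel. -/
def b0 : (ℕ → G) → (ℕ → G) → ℝ := fun _ _ => 0

/-- The interpolating family of matrices. -/
noncomputable def Bm (b : (ℕ → G) → (ℕ → G) → ℝ) (k j : ℕ) {n : ℕ} (w : Fin n → ℕ → G) :
    Fin k → Fin n → Fin n → ℝ := fun i => if i.val < j then mat b w else mat b0 w

/-- The difference family. -/
noncomputable def Dm (b : (ℕ → G) → (ℕ → G) → ℝ) {k : ℕ} (i₀ : Fin k) {n : ℕ}
    (w : Fin n → ℕ → G) : Fin k → Fin n → Fin n → ℝ :=
  fun i => if i = i₀ then fun x y => mat b w x y - mat b0 w x y else Bm b k i₀ w i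

theorem abs_Bm_le {b : (ℕ → G) → (ℕ → G) → ℝ} {R : ℝ} (hb : ∀ v v', |b v v'| ≤ R) (k j : ℕ)
    {n : ℕ} (w : Fin n → ℕ → G) (i : Fin k) (x y : Fin n) : |Bm b k j w i x y| ≤ R + 1 := by
  unfold Bm
  split_ifs
  · exact abs_mat_le hb w x y
  · exact abs_mat_le (fun v v' => by simpa [b0] using (abs_nonneg _).trans (hb v v')) w x y

theorem abs_Dm_le {b : (ℕ → G) → (ℕ → G) → ℝ} {R : ℝ} (hb : ∀ v v', |b v v'| ≤ R) {k : ℕ}
    (i₀ : Fin k) {n : ℕ} (w : Fin n → ℕ → G) (i : Fin k) (x y : Fin n) :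
    |Dm b i₀ w i x y| ≤ 2 * (R + 1) := by
  have h0 := abs_mat_le (b := b0) (R := R)
    (fun v v' => by simpa [b0] using (abs_nonneg _).trans (hb v v')) w x y
  unfold Dm
  split_ifs
  · exact (abs_sub _ _).trans (by linarith [abs_mat_le hb w x y])
  · linarith [abs_Bm_le hb k i₀ w i x y, abs_nonneg (mat b0 w x y)]

theorem psi_step (b : (ℕ → G) → (ℕ → G) → ℝ) {k : ℕ} (i₀ : Fin k) (u : Fin (k + k + 1) → ℕ → G) :
    psi (Bm b k (i₀ + 1) u) - psi (Bm b k i₀ u) = ∑ p : Fin (k + k + 1), (-1 : ℝ) ^ (p : ℕ) *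
      eta i₀ (Dm b i₀ fun i => u (p.succAbove i)) := by
  have h : ∀ i : Fin k, i ≠ i₀ → Bm b k i₀ u i = Bm b k (i₀ + 1) u i := fun i hi => by
    have : i.val ≠ i₀.val := fun h => hi (Fin.ext h)
    simp only [Bm, show i.val < i₀ + 1 ↔ i.val < i₀ by omega]
  rw [psi_sub i₀ _ _ (Dm b i₀ u) (fun x y => by simp [Dm, Bm]) h
    (fun i hi => by rw [Dm, if_neg hi, h i hi]), psi_eq_sum_eta i₀]
  refine sum_congr rfl fun p _ => ?_
  congr 2
  funext i x y
  unfold Dm Bm
  split_ifs <;> simp only [mat_succAbove]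

theorem eta_rot (b : (ℕ → G) → (ℕ → G) → ℝ) {k : ℕ} (i₀ : Fin k) (w : Fin (k + k) → ℕ → G)
    (hT : ∀ p q, b (Tsh (w p)) (Tsh (w q)) = b (w p) (w q)) :
    eta i₀ (Dm b i₀ (rotT w)) = -eta i₀ (Dm b i₀ w) := by
  have h0 := mat_rot b0 w fun _ _ => rfl
  rw [eta_perm i₀ (Dm b i₀ w) _ (finRotate (k + k))
    (fun _ p => if p.val + 1 < k + k then 0 else -1) (fun _ q => if q.val + 1 < k + k then 0 else 1)
    (fun x y => ?_) fun i hi x y => ?_]
  · have : ((Equiv.Perm.sign (finRotate (k + k)) : ℤ) : ℝ) = -1 := by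
      have := i₀.pos
      rw [sign_finRotate, Odd.neg_one_pow ⟨k - 1, by omega⟩]
      simp
    rw [this, neg_one_mul]
  · simp only [Dm, if_true, mat_rot b w hT, h0]
    ring
  · simp only [Dm, if_neg hi, Bm]
    by_cases h : i.val < i₀.val
    · simp only [if_pos h, mat_rot b w hT]
    · simp only [if_neg h, h0]

end KeyAux

open KeyAux

variable {G A : Type*} [Group G] [NormedRing A] [NormOneClass A] [CompleteSpace A]
  {tr : A →+ ℝ} {c : ℝ} {e : G → A} {C : Set G}

theorem key_ineq (hI : Idem tr c e C) (k m : ℕ) [NeZero m]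
    (b : (ℕ → G) → (ℕ → G) → ℝ) (R : ℝ) (hb : ∀ v v', |b v v'| ≤ R)
    (hleft : ∀ (x : G) v v', b (fun t => x * v t) (fun t => x * v' t) = b v v')
    (hT : ∀ g ∈ C, ∀ v v', QP m g v → QP m g v' → b (Tsh v) (Tsh v') = b v v')
    (lam : G → ℝ) (hlam : ∀ g, 1 ≤ lam g) (hsum : Summable fun g => ‖e g‖ * lam g)
    (K : ℝ) (hK : ∑' g, ‖e g‖ * lam g ≤ K)
    (β : (Fin (k + k) → ZMod m) → ℝ) (hβ0 : ∀ a, 0 ≤ β a)
    (hβ : ∀ (a : Fin (k + k) → ZMod m) (H : Fin (k + k) → G) (u : Fin (k + k + 1) → ℕ → G),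
      ∀ g ∈ C, (∀ p, QP m g (u p)) → Steps m a H u → ∀ π : Equiv.Perm (Fin (k + k)),
        |(Matrix.of fun i j : Fin k =>
          mixed (mat b u) (π (Fin.castAdd k i)) (π (Fin.natAdd k j))).det| ≤
          β a * ∏ i, lam (H i)) :
    |tauC tr e C| * (m : ℝ) ^ k * k.factorial * k.factorial ≤
      (k + k).factorial * c * K ^ (k + k + 1) * ∑ a, β a := by
  let U : (Fin (k + k + 1) → ZMod m) → (Fin (k + k + 1) → G) → Fin (k + k + 1) → ℕ → G :=
    fun a H p => vert a H p.castSucc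
  let P : ℕ → ℝ := fun j => ∑ a : Fin (k + k + 1) → ZMod m, sgnA a *
    ∑' H : Fin (k + k + 1) → G, wt tr e C a H * psi (Bm b k j (U a H))
  have summ : ∀ (a : Fin (k + k + 1) → ZMod m) (F : (Fin (k + k + 1) → G) → ℝ) (S : ℝ),
      (∀ H, |F H| ≤ S) → Summable fun H => wt tr e C a H * F H := fun a F S h =>
    Summable.of_norm_bounded ((summable_wt hI a).mul_right S) fun H => by
      rw [Real.norm_eq_abs, abs_mul]
      exact mul_le_mul_of_nonneg_left (h H) (abs_nonneg _)
  have step : ∀ i₀ : Fin k, P (i₀ + 1) = P i₀ := by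
    intro i₀
    let Θ : (Fin (k + k) → ℕ → G) → ℝ := fun w => eta i₀ (Dm b i₀ w)
    have hΘ : ∀ w, |Θ w| ≤ _ := fun w => abs_eta_le i₀ _ _ (abs_Dm_le hb i₀ w)
    have h1 : ∀ p, faceSum (m := m) tr e C Θ p = 0 :=
      faceSum_eq_zero hI ⟨k, rfl⟩ (by have := i₀.pos; omega) Θ _ hΘ (fun x u => by
        have e1 : mat b (fun i t => x * u i t) = mat b u := by
          funext p q
          simp only [mat, hleft]
          rw [← hleft x (u p) (Tsh (u q))]
          rfl
        have e2 : mat b0 (fun i t => x * u i t) = mat b0 u := rfl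
        simp only [Θ]
        unfold Dm Bm
        rw [e1, e2]) fun g hg u hu => eta_rot b i₀ u fun p q => hT g hg _ _ (hu p) (hu q)
    rw [← sub_eq_zero, ← sum_sub_distrib]
    have h2 : ∀ a : Fin (k + k + 1) → ZMod m,
        sgnA a * ∑' H, wt tr e C a H * psi (Bm b k (i₀ + 1) (U a H)) -
          sgnA a * ∑' H, wt tr e C a H * psi (Bm b k i₀ (U a H)) =
        ∑ p : Fin (k + k + 1), (-1 : ℝ) ^ (p : ℕ) * (sgnA a *
          ∑' H, wt tr e C a H * Θ fun i => vert a H (p.succAbove i).castSucc) := fun a => by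
      rw [← mul_sub, ← Summable.tsum_sub
        (summ a _ _ fun H => abs_psi_le _ _ (abs_Bm_le hb k _ _))
        (summ a _ _ fun H => abs_psi_le _ _ (abs_Bm_le hb k _ _))]
      simp only [← mul_sub, psi_step, mul_sum]
      rw [Summable.tsum_finsetSum fun p _ => ?_, mul_sum]
      · refine sum_congr rfl fun p _ => ?_
        simp only [mul_left_comm _ ((-1 : ℝ) ^ (p : ℕ)), tsum_mul_left]
        rfl
      · simp only [mul_left_comm _ ((-1 : ℝ) ^ (p : ℕ))]
        exact (summ a _ _ fun H => hΘ _).mul_left _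
    rw [sum_congr rfl fun a _ => h2 a, sum_comm]
    refine sum_eq_zero fun p _ => ?_
    rw [← mul_sum]
    exact mul_eq_zero_of_right _ (h1 p)
  have hP : ∀ j ≤ k, P j = P 0 := by
    intro j hj
    induction j with
    | zero => rfl
    | succ j ih => exact (step ⟨j, hj⟩).trans (ih (Nat.le_of_succ_le hj))
  have h0 : |P 0| = |tauC tr e C| * (m : ℝ) ^ (k + 1) * k.factorial := by
    have e1 : ∀ a H, Bm b k 0 (U a H) =
        fun _ (p q : Fin (k + k + 1)) => if p ≤ q then (0 : ℝ) else -1 := fun a H => by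
      funext i p q
      simp [Bm, mat, b0]
    simp only [P, e1, psi_eq_MP, tsum_mul_right, tsum_wt hI]
    rw [← sum_mul, sum_sgnA, abs_mul, abs_mul, abs_MP_std, abs_of_nonneg (by positivity)]
    ring
  have f0 : ∀ g, 0 ≤ ‖e g‖ * lam g := fun g => mul_nonneg (norm_nonneg _) (by linarith [hlam g])
  have hc := hI.c_nonneg
  have hk : |P k| * k.factorial ≤ ∑ a : Fin (k + k + 1) → ZMod m,
      (k + k).factorial * c * K ^ (k + k + 1) * β (Fin.init a) := by
    have e1 : ∀ a H, Bm b k k (U a H) = fun _ => mat b (U a H) := fun a H => by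
      funext i
      simp [Bm]
    simp only [P, e1, psi_eq_MP]
    refine (mul_le_mul_of_nonneg_right (abs_sum_le_sum_abs _ _) (by positivity)).trans ?_
    rw [sum_mul]
    refine sum_le_sum fun a _ => ?_
    rw [abs_mul, abs_sgnA, one_mul, ← abs_of_nonneg (Nat.cast_nonneg (α := ℝ) k.factorial),
      ← abs_mul, ← tsum_mul_right, ← Real.norm_eq_abs]
    have hb0 := hβ0 (Fin.init a)
    refine (tsum_of_norm_bounded ((hasSum_prod_pi _ f0 hsum (k + k + 1)).mul_left
      ((k + k).factorial * c * β (Fin.init a))) fun H => ?_).trans ?_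
    · have p0 : 0 ≤ ∏ p, ‖e (H p)‖ * lam (H p) := prod_nonneg fun p _ => f0 _
      by_cases hg : base a H m ∈ C
      · have b1 := abs_MP_le (mixed (mat b (U a H))) _ (hβ (Fin.init a) (Fin.init H) (U a H) _ hg
          (fun p => qp_vert a H _) fun i t => vert_succ a H i.castSucc t)
        have b2 := abs_wt_le hI a H
        have l0 : 0 ≤ ∏ i, lam (Fin.init H i) := prod_nonneg fun i _ => by linarith [hlam (Fin.init H i)]
        have b3 : ∏ i, lam (Fin.init H i) ≤ ∏ p, lam (H p) := by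
          rw [Fin.prod_univ_castSucc]
          exact le_mul_of_one_le_right l0 (hlam _)
        rw [Real.norm_eq_abs, mul_assoc, abs_mul, abs_mul, Nat.abs_cast, prod_mul_distrib]
        have n0 : 0 ≤ ∏ p, ‖e (H p)‖ := prod_nonneg fun p _ => norm_nonneg _
        calc _ ≤ (c * ∏ p, ‖e (H p)‖) * ((k + k).factorial * (β (Fin.init a) * ∏ p, lam (H p))) :=
              mul_le_mul b2 (b1.trans (by gcongr)) (by positivity) (by positivity)
          _ = _ := by ring
      · rw [wt, Set.indicator_of_notMem hg, zero_mul, zero_mul, norm_zero]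
        positivity
    · have : (∑' g, ‖e g‖ * lam g) ^ (k + k + 1) ≤ K ^ (k + k + 1) :=
        pow_le_pow_left₀ (tsum_nonneg f0) hK _
      calc _ ≤ (k + k).factorial * c * β (Fin.init a) * K ^ (k + k + 1) := by gcongr
        _ = _ := by ring
  have hs : ∑ a : Fin (k + k + 1) → ZMod m, β (Fin.init a) = m * ∑ a, β a := by
    rw [← (Fin.snocEquiv fun _ => ZMod m).sum_comp, Fintype.sum_prod_type]
    simp [Fin.snocEquiv]
  rw [← mul_sum, hs, hP k le_rfl, h0] at hk
  have hm : (0 : ℝ) < m := by exact_mod_cast NeZero.pos m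
  refine le_of_mul_le_mul_right ?_ hm
  calc _ = |tauC tr e C| * (m : ℝ) ^ (k + 1) * k.factorial * k.factorial := by ring
    _ ≤ _ := hk
    _ = _ := by ring

end Vale.Agent.P184
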