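import Vale.Agent.P184.Minor

/-!
# P184: algebra of level estimates
-/

namespace Vale.Agent.P184

open Finset

variable {n : ℕ} {np nm np' nm' : Fin (n + 1) → Fin (n + 1) → ℝ} {lam : Fin n → ℝ}
  {x Δ η c1 c2 C x' Δ' η' c1' c2' C' : ℝ}

theorem LevelOK.add (h : LevelOK np nm lam x Δ η c1 c2 C)
    (h' : LevelOK np' nm' lam x' Δ' η' c1' c2' C') (hlam : ∀ i, 0 ≤ lam i) (hx : 0 ≤ x)
    (hx' : 0 ≤ x') :
    LevelOK (fun p q => np p q + np' p q) (fun p q => nm p q + nm' p q) lam (x + x') (Δ * Δ')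
      (η + η') (c1 + c1') (c2 + c2') (C + C') := by
  obtain ⟨D, d1, d2, d3⟩ := h.approx
  obtain ⟨D', e1, e2, e3⟩ := h'.approx
  have key : ∀ {a b c u v : ℝ}, |a| ≤ u → |b| ≤ v → c = a + b → |c| ≤ u + v :=
    fun h1 h2 h3 => h3 ▸ (abs_add_le _ _).trans (add_le_add h1 h2)
  exact ⟨⟨fun i l => D i l + D' i l, d1.add e1 hlam hx hx',
    fun i l hil => key (d2 i l hil) (e2 i l hil) (by simp only [mixed]; ring),
    fun i l hil => key (d3 i l hil) (e3 i l hil) (by simp only [mixed]; ring)⟩,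
    fun p l => key (h.rcol p l) (h'.rcol p l) (by ring),
    fun i q => key (h.rrow i q) (h'.rrow i q) (by ring),
    fun l => key (h.base l) (h'.base l) (by ring),
    fun i l => key (h.mix i l) (h'.mix i l) (by simp only [mixed]; ring)⟩

theorem LevelOK.smul (h : LevelOK np nm lam x Δ η c1 c2 C) (w s : ℝ) (hw : 0 ≤ w)
    (hs : w ≤ s ^ 2) :
    LevelOK (fun p q => w * np p q) (fun p q => w * nm p q) lam (s * x) Δ
      (w * η) (w * c1) (w * c2) (w * C) := by
  obtain ⟨D, d1, d2, d3⟩ := h.approx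
  have key : ∀ {a c u : ℝ}, |a| ≤ u → c = w * a → |c| ≤ w * u := fun h1 h3 => by
    rw [h3, abs_mul, abs_of_nonneg hw]
    exact mul_le_mul_of_nonneg_left h1 hw
  exact ⟨⟨fun i l => w * D i l, d1.smul w s (by rwa [abs_of_nonneg hw]),
    fun i l hil => key (d2 i l hil) (by simp only [mixed]; ring),
    fun i l hil => key (d3 i l hil) (by simp only [mixed]; ring)⟩,
    fun p l => key (h.rcol p l) (by ring), fun i q => key (h.rrow i q) (by ring),
    fun l => key (h.base l) (by ring), fun i l => key (h.mix i l) (by simp only [mixed]; ring)⟩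

theorem LevelOK.mono (h : LevelOK np nm lam x Δ η c1 c2 C) (hlam : ∀ i, 0 ≤ lam i)
    (hx0 : 0 ≤ x) (hx : x ≤ x') (hΔ : Δ ≤ Δ') (hη : η ≤ η') (h1 : c1 ≤ c1') (h2 : c2 ≤ c2')
    (hC : C ≤ C') : LevelOK np nm lam x' Δ' η' c1' c2' C' := by
  obtain ⟨D, d1, d2, d3⟩ := h.approx
  exact ⟨⟨D, d1.mono hlam hx0 hx hΔ, fun i l hil => (d2 i l hil).trans hη,
    fun i l hil => (d3 i l hil).trans hη⟩, fun p l => (h.rcol p l).trans h1,
    fun i q => (h.rrow i q).trans h1, fun l => (h.base l).trans h2,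
    fun i l => (h.mix i l).trans hC⟩

theorem LevelOK.sum (J : ℕ) (NP NM : ℕ → Fin (n + 1) → Fin (n + 1) → ℝ) (X D : ℕ → ℝ)
    (hlam : ∀ i, 0 ≤ lam i) (hX : ∀ j, 0 ≤ X j)
    (h : ∀ j < J, LevelOK (NP j) (NM j) lam (X j) (D j) η c1 c2 C) :
    LevelOK (fun p q => ∑ j ∈ range J, NP j p q) (fun p q => ∑ j ∈ range J, NM j p q) lam
      (∑ j ∈ range J, X j) (∏ j ∈ range J, D j) (J * η) (J * c1) (J * c2) (J * C) := by
  induction J with
  | zero =>
    simp only [range_zero, sum_empty, prod_empty, Nat.cast_zero, zero_mul]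
    exact ⟨⟨fun _ _ => 0, MinorBd.zero, fun i l _ => by simp [mixed],
      fun i l _ => by simp [mixed]⟩, by simp, by simp, by simp, fun i l => by simp [mixed]⟩
  | succ J ih =>
    have := (ih fun j hj => h j (Nat.lt_succ_of_lt hj)).add (h J (Nat.lt_succ_self J)) hlam
      (sum_nonneg fun j _ => hX j) (hX J)
    simp only [sum_range_succ, prod_range_succ, Nat.cast_succ, add_mul, one_mul]
    exact this

/-- A level given by a bilinear form on slowly varying features. -/
theorem levelOK_bilin {V : Type*} [AddCommGroup V] (Nm : V → ℝ) (𝔅 : V → (ℕ → V) → ℝ)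
    (m : ℕ) (L ε ε₂ : ℝ)
    (hl : ∀ f g F, 𝔅 (f - g) F = 𝔅 f F - 𝔅 g F)
    (hr : ∀ f F F', 𝔅 f (fun u => F u - F' u) = 𝔅 f F - 𝔅 f F')
    (hb1 : ∀ f F (α β : ℝ), Nm f ≤ α → (∀ u, Nm (F u) ≤ β) → |𝔅 f F| ≤ L * α * β)
    (hb2 : ∀ f F (α β : ℝ), Nm f ≤ α → (∀ u, Nm (F u) ≤ β) →
      |𝔅 f (fun u => F (u + 1)) - 𝔅 f F| ≤ 2 * α * β)
    (hL : 0 ≤ L) (hε : 0 ≤ ε) (hε₂ : 0 ≤ ε₂)
    (F : Fin (n + 1) → ℕ → V) (lin : Fin n → ℕ → V)
    (hF : ∀ p a, Nm (F p a) ≤ 1)
    (hd : ∀ (i : Fin n) a, Nm (F i.succ a - F i.castSucc a) ≤ ε)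
    (hlin : ∀ i a, Nm (lin i a) ≤ ε)
    (herr : ∀ (i : Fin n) a, Nm (F i.succ a - F i.castSucc a - lin i a) ≤ ε₂)
    (hD : MinorBd (fun i l => ∑ a ∈ range m, 𝔅 (lin i a) (fun u => lin l (a + u))) lam x Δ) :
    LevelOK (fun p q => ∑ a ∈ range m, 𝔅 (F p a) (fun u => F q (a + u)))
      (fun p q => ∑ a ∈ range m, 𝔅 (F p a) (fun u => F q (a + u + 1))) lam x Δ
      (2 * m * L * ε * ε₂ + 2 * m * ε ^ 2) (2 * m * ε) (m * L * ε) (m * L * ε ^ 2) := by
  have key : ∀ (f : ℕ → ℝ) {c b u : ℝ}, (∀ a, |f a| ≤ b) → c = ∑ a ∈ range m, f a →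
      m * b ≤ u → |c| ≤ u := fun f c b u h1 h2 h3 => by
    rw [h2]
    refine (abs_sum_le_sum_abs _ _).trans ((sum_le_sum fun a _ => h1 a).trans ?_)
    rwa [sum_const, card_range, nsmul_eq_mul]
  let d : Fin n → ℕ → V := fun i a => F i.succ a - F i.castSucc a
  have a1 : ∀ i l a, |𝔅 (d i a) (fun u => d l (a + u)) -
      𝔅 (lin i a) (fun u => lin l (a + u))| ≤ 2 * L * ε * ε₂ := fun i l a => by
    have b1 := hb1 (d i a - lin i a) (fun u => d l (a + u)) _ _ (herr i a) fun u => hd l _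
    have b2 := hb1 (lin i a) (fun u => d l (a + u) - lin l (a + u)) _ _ (hlin i a)
      fun u => herr l _
    rw [hl] at b1
    rw [hr] at b2
    refine (abs_sub_le _ _ _).trans ((add_le_add b1 b2).trans (le_of_eq (by ring)))
  have a2 : ∀ i l a, |𝔅 (d i a) (fun u => d l (a + u + 1)) -
      𝔅 (d i a) (fun u => d l (a + u))| ≤ 2 * ε * ε := fun i l a =>
    hb2 (d i a) (fun u => d l (a + u)) _ _ (hd i a) fun u => hd l _
  have hm : (0 : ℝ) ≤ m := Nat.cast_nonneg m
  refine ⟨⟨_, hD, fun i l _ => key _ (a1 i l) ?_ ?_, fun i l _ => key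
    (fun a => 𝔅 (d i a) (fun u => d l (a + u + 1)) - 𝔅 (lin i a) (fun u => lin l (a + u)))
    (fun a => (abs_sub_le _ _ _).trans (add_le_add (a2 i l a) (a1 i l a))) ?_ (le_of_eq ?_)⟩,
    fun p l => key _ (fun a => hb2 (F p a) (fun u => d l (a + u)) _ _ (hF p a) fun u => hd l _)
      ?_ (le_of_eq ?_),
    fun i q => key _ (fun a => hb2 (d i a) (fun u => F q (a + u)) _ _ (hd i a) fun u => hF q _)
      ?_ (le_of_eq ?_),
    fun l => key _ (fun a => hb1 (F 0 a) (fun u => d l (a + u)) _ _ (hF 0 a) fun u => hd l _)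
      ?_ (le_of_eq ?_),
    fun i l => key _ (fun a => hb1 (d i a) (fun u => d l (a + u)) _ _ (hd i a) fun u => hd l _)
      ?_ (le_of_eq ?_)⟩
  · simp only [mixed, d, hl, hr, sum_sub_distrib]
    ring
  · nlinarith [mul_nonneg hm (sq_nonneg ε)]
  · simp only [mixed, d, hl, hr, sum_sub_distrib]
    ring
  · ring
  · simp only [d, hr, sum_sub_distrib, add_assoc]
    ring
  · ring
  · simp only [d, hl, sum_sub_distrib, add_assoc]
    ring
  · ring
  · simp only [d, hr, sum_sub_distrib]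
  · ring
  · simp only [mixed, d, hl, hr, sum_sub_distrib]
    ring
  · ring

/-- Normalisation by the row sums. -/
theorem LevelOK.normalize (h : LevelOK np nm lam x Δ η c1 c2 C) (hlam : ∀ i, 1 ≤ lam i)
    (hx : 0 ≤ x) (hη0 : 0 ≤ η) (hc1 : 0 ≤ c1) (hc2 : 0 ≤ c2) (hC : 0 ≤ C) {μ x1 x2 : ℝ}
    (hμ : 0 < μ)
    (hS : ∀ p, μ ≤ nm p p - np p p) (hx1 : 0 < x1) (hx2 : 0 ≤ x2)
    (hη : n * (η + 2 * c1 * (n * C + c1) / μ) ≤ x2 ^ 2) :
    ∃ D : Fin n → Fin n → ℝ,
      MinorBd D lam (x + x1 + x2) (Δ * (1 + 2 * c1 * c2 / μ / x1 ^ 2)) ∧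
      ∀ i l, i ≠ l → D i l = μ * mixed (fun p q =>
        if p ≤ q then np p q / (nm p p - np p p) else nm p q / (nm p p - np p p) - 1) i l := by
  classical
  obtain ⟨D, d1, d2, d3⟩ := h.approx
  let S : Fin (n + 1) → ℝ := fun p => nm p p - np p p
  have hS0 : ∀ p, 0 < S p := fun p => hμ.trans_le (hS p)
  let dN : Fin (n + 1) → Fin n → ℝ := fun p l =>
    if p ≤ l.castSucc then np p l.succ - np p l.castSucc else nm p l.succ - nm p l.castSucc
  let M : Fin (n + 1) → Fin (n + 1) → ℝ := fun p q =>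
    if p ≤ q then np p q / S p else nm p q / S p - 1
  have hM : ∀ p l, M p l.succ - M p l.castSucc = dN p l / S p := by
    intro p l
    have := (hS0 p).ne'
    simp only [M, dN]
    by_cases h1 : p ≤ l.castSucc
    · rw [if_pos h1, if_pos h1, if_pos (h1.trans (Fin.castSucc_lt_succ).le), sub_div]
    · rw [if_neg h1, if_neg h1]
      by_cases h2 : p ≤ l.succ
      · obtain rfl : p = l.succ := le_antisymm h2 (Fin.castSucc_lt_iff_succ_le.1 (not_le.1 h1))
        rw [if_pos h2]
        field_simp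
        simp only [S]
        ring
      · rw [if_neg h2, sub_div]
        ring
  let θ : Fin n → ℝ := fun i => μ / S i.succ
  let α : Fin n → ℝ := fun i => μ * (1 / S i.succ - 1 / S i.castSucc)
  let β : Fin n → ℝ := fun l => np 0 l.succ - np 0 l.castSucc
  have hθ : ∀ i, |θ i| ≤ 1 := fun i => by
    rw [abs_of_pos (div_pos hμ (hS0 _))]
    exact (div_le_one (hS0 _)).2 (hS _)
  have hα : ∀ i, |α i| ≤ 2 * c1 / μ := fun i => by
    have b1 : |S i.castSucc - S i.succ| ≤ 2 * c1 := by
      rw [abs_sub_comm]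
      refine (abs_sub_le _ (nm i.succ i.castSucc - np i.succ i.castSucc) _).trans ?_
      linarith [h.rcol i.succ i, h.rrow i i.castSucc]
    have p1 := hS0 i.succ
    have p2 := hS0 i.castSucc
    have e : α i = (S i.castSucc - S i.succ) * (μ / S i.succ) / S i.castSucc := by
      simp only [α]
      field_simp
    rw [e, abs_div, abs_mul, abs_of_pos p2]
    refine div_le_div₀ (by positivity) ?_ hμ (hS _)
    exact (mul_le_of_le_one_right (abs_nonneg _) (hθ i)).trans b1
  have hβ : ∀ p l, |dN p l - β l| ≤ n * C + c1 := by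
    intro p l
    have b1 : |np p l.succ - np p l.castSucc - β l| ≤ (p : ℕ) * C := by
      induction p using Fin.induction with
      | zero => simp [β]
      | succ p ih =>
        have := h.mix p l
        refine (abs_sub_le _ (np p.castSucc l.succ - np p.castSucc l.castSucc) _).trans ?_
        have e : np p.succ l.succ - np p.succ l.castSucc -
          (np p.castSucc l.succ - np p.castSucc l.castSucc) = mixed np p l := by
          simp only [mixed]
          ring
        rw [e]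
        simp only [Fin.val_succ, Fin.val_castSucc, Nat.cast_succ] at ih ⊢
        linarith
    have b2 : ((p : ℕ) : ℝ) * C ≤ n * C :=
      mul_le_mul_of_nonneg_right (by exact_mod_cast Nat.lt_succ_iff.1 p.2) hC
    simp only [dN]
    split_ifs
    · linarith
    · refine (abs_sub_le _ (np p l.succ - np p l.castSucc) _).trans ?_
      have := h.rcol p l
      rw [show nm p l.succ - np p l.succ - (nm p l.castSucc - np p l.castSucc) =
        nm p l.succ - nm p l.castSucc - (np p l.succ - np p l.castSucc) by ring] at this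
      linarith
  let E : Fin n → Fin n → ℝ := fun i l =>
    if i = l then 0 else μ * mixed M i l - θ i * D i l - α i * β l
  have hE : ∀ i l, |E i l| ≤ η + 2 * c1 * (n * C + c1) / μ := by
    intro i l
    simp only [E]
    split_ifs with hil
    · rw [abs_zero]
      positivity
    have e : μ * mixed M i l - θ i * D i l - α i * β l =
        θ i * (dN i.succ l - dN i.castSucc l - D i l) + α i * (dN i.castSucc l - β l) := by
      have : mixed M i l = dN i.succ l / S i.succ - dN i.castSucc l / S i.castSucc := by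
        rw [← hM, ← hM, mixed]
        ring
      rw [this]
      simp only [θ, α]
      ring
    have b1 : |dN i.succ l - dN i.castSucc l - D i l| ≤ η := by
      rcases lt_or_gt_of_ne hil with h1 | h1
      · have c1 : i.succ ≤ l.castSucc := Fin.succ_le_castSucc_iff.2 h1
        have := d2 i l h1
        simp only [dN, if_pos c1, if_pos ((Fin.castSucc_lt_succ).le.trans c1)]
        simp only [mixed] at this
        exact le_of_eq_of_le (congrArg _ (by ring)) this
      · have c1 : ¬ i.castSucc ≤ l.castSucc := by simpa using h1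
        have c2 : ¬ i.succ ≤ l.castSucc := fun h => c1 ((Fin.castSucc_lt_succ).le.trans h)
        have := d3 i l h1
        simp only [dN, if_neg c1, if_neg c2]
        simp only [mixed] at this
        exact le_of_eq_of_le (congrArg _ (by ring)) this
    rw [e]
    refine (abs_add_le _ _).trans (add_le_add ?_ ?_)
    · rw [abs_mul]
      exact (mul_le_of_le_one_left (abs_nonneg _) (hθ i)).trans b1
    · rw [abs_mul]
      exact (mul_le_mul (hα i) (hβ _ l) (abs_nonneg _) (by positivity)).trans (le_of_eq (by ring))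
  have hlam0 : ∀ i, 0 ≤ lam i := fun i => zero_le_one.trans (hlam i)
  have m1 := minorBd_rank_one α β lam hlam hx1 (γ := 2 * c1 * c2 / μ) (by positivity)
    fun i l => by
      rw [abs_mul]
      exact (mul_le_mul (hα i) (h.base l) (abs_nonneg _) (by positivity)).trans
        (le_of_eq (by ring))
  have m2 := minorBd_small E lam hlam hE (x := x2) (by simpa using hη)
  have m3 := ((d1.smul_row θ hθ).add m1 hlam0 hx hx1.le).add m2 hlam0 (by positivity) hx2
  rw [mul_one] at m3
  refine ⟨_, m3, fun i l hil => ?_⟩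
  simp only [E, if_neg hil]
  ring

end Vale.Agent.P184
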