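import Vale.Agent.P184.FeatA

/-!
# P184: linearisation of the features along a configuration
-/

namespace Vale.Agent.P184

open Finset

universe u

theorem card_block_le_one {m : ℕ} (s : ZMod m) (c h : ℕ) (hh : h ≤ m) :
    ((range h).filter fun r => ((c + r : ℕ) : ZMod m) = s).card ≤ 1 := by
  refine card_le_one.2 fun a ha b hb => ?_
  rw [mem_filter, mem_range] at ha hb
  have h1 : ((c + a : ℕ) : ZMod m) = ((c + b : ℕ) : ZMod m) := ha.2.trans hb.2.symm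
  rw [ZMod.natCast_eq_natCast_iff] at h1
  exact Nat.ModEq.eq_of_lt_of_lt (Nat.ModEq.add_left_cancel' c h1) (by omega) (by omega)

/-- Number of times of the window after `t` that lie in the slot `s`. -/
noncomputable def wc {m : ℕ} (h0 : ℕ) (s : ZMod m) (t : ℕ) : ℝ :=
  ∑ r ∈ range h0, if ((t + r + 1 : ℕ) : ZMod m) = s then 1 else 0

theorem sum_ite_block_le {m : ℕ} (s : ZMod m) (c h : ℕ) (hh : h ≤ m) :
    ∑ r ∈ range h, (if ((c + r : ℕ) : ZMod m) = s then (1 : ℝ) else 0) ≤ 1 := by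
  rw [sum_boole]
  exact_mod_cast card_block_le_one s c h hh

theorem wc_nonneg {m : ℕ} (h0 : ℕ) (s : ZMod m) (t : ℕ) : 0 ≤ wc h0 s t :=
  sum_nonneg fun r _ => by split_ifs <;> norm_num

theorem wc_le_one {m h0 : ℕ} (hh : h0 ≤ m) (s : ZMod m) (t : ℕ) : wc h0 s t ≤ 1 := by
  have := sum_ite_block_le s (t + 1) h0 hh
  unfold wc
  refine le_trans (le_of_eq (sum_congr rfl fun r _ => ?_)) this
  rw [show t + r + 1 = t + 1 + r by ring]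

theorem sum_ite_blocks_le {m : ℕ} (s : ZMod m) (c ρ : ℕ) :
    ∑ t ∈ range (ρ * m), (if ((c + t : ℕ) : ZMod m) = s then (1 : ℝ) else 0) ≤ ρ := by
  induction ρ with
  | zero => simp
  | succ ρ ih =>
    rw [add_mul, one_mul, sum_range_add]
    have := sum_ite_block_le s (c + ρ * m) m le_rfl
    simp only [add_assoc] at this
    push_cast at *
    linarith

theorem sum_wc_le {m : ℕ} (h0 : ℕ) (s : ZMod m) (ρ : ℕ) :
    ∑ t ∈ range (ρ * m), wc h0 s t ≤ ρ * h0 := by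
  unfold wc
  rw [sum_comm]
  calc _ ≤ ∑ _r ∈ range h0, (ρ : ℝ) := by
        refine sum_le_sum fun r _ => ?_
        refine le_trans (le_of_eq (sum_congr rfl fun t _ => ?_)) (sum_ite_blocks_le s (r + 1) ρ)
        rw [show t + r + 1 = r + 1 + t by ring]
    _ = _ := by simp [mul_comm]

variable {G : Type u} [Group G] {ℓ : G → ℕ} {P : Par} (Y : Finset G)

theorem Wt_zero_diff (S : (G → ℝ) → ℝ) (v v' : ℕ → G) (s : ZMod P.m) (g : G)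
    (hv : ∀ t, v' t = v t * (if (t : ZMod P.m) = s then g else 1)) {θ : ℝ}
    (hθ : ∀ x y, |k0 ℓ P.τ x (y * g) - k0 ℓ P.τ x y| ≤ θ) (t : ℕ) (x : G) :
    |Wt S ℓ P 0 v' t x - Wt S ℓ P 0 v t x| ≤ (P.h0 : ℝ)⁻¹ * (θ * wc P.h0 s t) := by
  simp only [Wt]
  rw [← mul_sub, ← sum_sub_distrib, abs_mul, abs_of_nonneg (by positivity : (0 : ℝ) ≤ (P.h0 : ℝ)⁻¹)]
  refine mul_le_mul_of_nonneg_left ((abs_sum_le_sum_abs _ _).trans ?_) (by positivity)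
  unfold wc
  rw [mul_sum]
  refine sum_le_sum fun r _ => ?_
  rw [hv]
  split_ifs
  · rw [mul_one]; exact hθ _ _
  · simp

/-- Averaging against the kernel of level `j`. -/
noncomputable def avgK (ℓ : G → ℕ) (P : Par) (j : ℕ) (f : ℕ → G → ℝ) (t : ℕ) (x : G) : ℝ :=
  (P.h j : ℝ)⁻¹ * ∑ s ∈ range (P.h j), ∑ y ∈ Y, kb ℓ (P.r j) x y * f (t + s + 1) y

theorem Wt_succ_eq (j : ℕ) (v : ℕ → G) (t : ℕ) (x : G) :
    Wt (sumY Y) ℓ P (j + 1) v t x = avgK Y ℓ P j (Ft (sumY Y) ℓ P j v) t x := rfl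

theorem avgK_sub (j : ℕ) (f f' : ℕ → G → ℝ) (t : ℕ) (x : G) :
    avgK Y ℓ P j f t x - avgK Y ℓ P j f' t x = avgK Y ℓ P j (fun t => f t - f' t) t x := by
  unfold avgK
  rw [← mul_sub, ← sum_sub_distrib]
  congr 1
  refine sum_congr rfl fun s _ => ?_
  rw [← sum_sub_distrib]
  refine sum_congr rfl fun y _ => ?_
  simp only [Pi.sub_apply]
  ring

theorem abs_kb_le (r : ℕ) (x y : G) : |kb ℓ r x y| ≤ 1 := by
  unfold kb; split_ifs <;> simp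

theorem abs_avgK_le (j : ℕ) (f : ℕ → G → ℝ) {β : ℝ} (hβ : 0 ≤ β) (hf : ∀ t, l1 Y (f t) ≤ β)
    (t : ℕ) (x : G) : |avgK Y ℓ P j f t x| ≤ β := by
  unfold avgK
  rw [abs_mul, abs_of_nonneg (by positivity : (0 : ℝ) ≤ (P.h j : ℝ)⁻¹)]
  have h1 : |∑ s ∈ range (P.h j), ∑ y ∈ Y, kb ℓ (P.r j) x y * f (t + s + 1) y| ≤ P.h j * β := by
    refine (abs_sum_le_sum_abs _ _).trans ?_
    calc _ ≤ ∑ _s ∈ range (P.h j), β := by
          refine sum_le_sum fun s _ => (abs_sum_le_sum_abs _ _).trans ?_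
          refine le_trans (sum_le_sum fun y _ => ?_) (hf (t + s + 1))
          rw [abs_mul]
          exact mul_le_of_le_one_left (abs_nonneg _) (abs_kb_le _ _ _)
      _ = _ := by simp
  refine (mul_le_mul_of_nonneg_left h1 (by positivity)).trans ?_
  rw [← mul_assoc]
  refine mul_le_of_le_one_left hβ ?_
  rcases eq_or_ne (P.h j : ℝ) 0 with h | h
  · simp [h]
  · rw [inv_mul_cancel₀ h]

/-- The one level constants. -/
def SoftC (G : Type u) (p Q : ℕ) (c : ℝ) : Prop :=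
  1 ≤ c ∧ ∀ (Y : Finset G) (W W' : G → ℝ) (ε : ℝ), Cand Y Q W →
      Cand Y Q W' → 0 ≤ ε → (∀ x, |W' x - W x| ≤ ε) →
      l1 Y (fun x => soft (sumY Y) p W' x - soft (sumY Y) p W x) ≤ c * ε ∧
      l1 Y (fun x => soft (sumY Y) p W' x - soft (sumY Y) p W x -
        dsoft Y p W (fun y => W' y - W y) x) ≤ c * ε ^ 2

theorem lip_Wt (hP : Good ℓ P) {cs : ℕ → ℝ} (hcs : ∀ j, SoftC G (P.p j) (P.Q j) (cs j))
    (v v' : ℕ → G) {ε : ℝ} (hε : 0 ≤ ε)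
    (h0 : ∀ t x, |Wt (sumY Y) ℓ P 0 v' t x - Wt (sumY Y) ℓ P 0 v t x| ≤ ε) (j : ℕ)
    (hj : j ≤ P.J) (t : ℕ) (x : G) :
    |Wt (sumY Y) ℓ P j v' t x - Wt (sumY Y) ℓ P j v t x| ≤ (∏ i ∈ range j, cs i) * ε := by
  induction j generalizing t x with
  | zero => simpa using h0 t x
  | succ j ih =>
    have hp : 0 ≤ ∏ i ∈ range j, cs i := prod_nonneg fun i _ => by linarith [(hcs i).1]
    have hc : 0 ≤ cs j := by linarith [(hcs j).1]
    rw [Wt_succ_eq, Wt_succ_eq, avgK_sub, prod_range_succ]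
    refine abs_avgK_le Y j _ (by positivity) (fun t => ?_) t x
    have := ((hcs j).2 Y _ _ _ (cand_Wt Y hP (by omega) v t) (cand_Wt Y hP (by omega) v' t)
      (by positivity) (ih (by omega) t)).1
    rw [mul_comm (∏ i ∈ range j, cs i), mul_assoc]
    exact this

theorem lip_Ft (hP : Good ℓ P) {cs : ℕ → ℝ} (hcs : ∀ j, SoftC G (P.p j) (P.Q j) (cs j))
    (v v' : ℕ → G) {ε : ℝ} (hε : 0 ≤ ε)
    (h0 : ∀ t x, |Wt (sumY Y) ℓ P 0 v' t x - Wt (sumY Y) ℓ P 0 v t x| ≤ ε) (j : ℕ)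
    (hj : j ≤ P.J) (t : ℕ) :
    l1 Y (Ft (sumY Y) ℓ P j v' t - Ft (sumY Y) ℓ P j v t) ≤ (∏ i ∈ range (j + 1), cs i) * ε ∧
    l1 Y (Ft (sumY Y) ℓ P j v' t - Ft (sumY Y) ℓ P j v t -
      dsoft Y (P.p j) (Wt (sumY Y) ℓ P j v t)
        (fun y => Wt (sumY Y) ℓ P j v' t y - Wt (sumY Y) ℓ P j v t y)) ≤
      cs j * (∏ i ∈ range j, cs i) ^ 2 * ε ^ 2 := by
  have hp : 0 ≤ ∏ i ∈ range j, cs i := prod_nonneg fun i _ => by linarith [(hcs i).1]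
  have := (hcs j).2 Y _ _ _ (cand_Wt Y hP hj v t) (cand_Wt Y hP hj v' t)
      (by positivity) (lip_Wt Y hP hcs v v' hε h0 j hj t)
  rw [prod_range_succ, mul_comm (∏ i ∈ range j, cs i), mul_assoc, mul_assoc, ← mul_pow]
  exact this

/-- The linearised scores. -/
noncomputable def linW (ℓ : G → ℕ) (P : Par) (v0 v v' : ℕ → G) : ℕ → ℕ → G → ℝ
  | 0, t, x => Wt (sumY Y) ℓ P 0 v' t x - Wt (sumY Y) ℓ P 0 v t x
  | j + 1, t, x => avgK Y ℓ P j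
      (fun t => dsoft Y (P.p j) (Wt (sumY Y) ℓ P j v0 t) (linW ℓ P v0 v v' j t)) t x

/-- The linearised features. -/
noncomputable def linF (ℓ : G → ℕ) (P : Par) (v0 v v' : ℕ → G) (j t : ℕ) : G → ℝ :=
  dsoft Y (P.p j) (Wt (sumY Y) ℓ P j v0 t) (linW Y ℓ P v0 v v' j t)

theorem linW_succ (v0 v v' : ℕ → G) (j t : ℕ) (x : G) :
    linW Y ℓ P v0 v v' (j + 1) t x = avgK Y ℓ P j (linF Y ℓ P v0 v v' j) t x := rfl

theorem abs_linW_le (hP : Good ℓ P) (v0 v v' : ℕ → G) {ε : ℝ} (hε : 0 ≤ ε)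
    (h0 : ∀ t x, |Wt (sumY Y) ℓ P 0 v' t x - Wt (sumY Y) ℓ P 0 v t x| ≤ ε) (j : ℕ)
    (hj : j ≤ P.J) (t : ℕ) (x : G) :
    |linW Y ℓ P v0 v v' j t x| ≤ (∏ i ∈ range j, (16 * (P.p i : ℝ))) * ε := by
  induction j generalizing t x with
  | zero => simpa [linW] using h0 t x
  | succ j ih =>
    rw [linW_succ, prod_range_succ]
    refine abs_avgK_le Y j _ (by positivity) (fun t => ?_) t x
    have := l1_dsoft_le Y _ _ (cand_Wt Y hP (by omega : j ≤ P.J) v0 t) (P.two_le_p j) (P.Q_le j)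
      (by positivity) (ih (by omega) t)
    rw [mul_comm (∏ i ∈ range j, (16 * (P.p i : ℝ))), mul_assoc]
    exact this

theorem l1_linF_le (hP : Good ℓ P) (v0 v v' : ℕ → G) {ε : ℝ} (hε : 0 ≤ ε)
    (h0 : ∀ t x, |Wt (sumY Y) ℓ P 0 v' t x - Wt (sumY Y) ℓ P 0 v t x| ≤ ε) (j : ℕ)
    (hj : j ≤ P.J) (t : ℕ) :
    l1 Y (linF Y ℓ P v0 v v' j t) ≤ (∏ i ∈ range (j + 1), (16 * (P.p i : ℝ))) * ε := by
  have := l1_dsoft_le Y _ _ (cand_Wt Y hP hj v0 t) (P.two_le_p j) (P.Q_le j)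
      (by positivity) (abs_linW_le Y hP v0 v v' hε h0 j hj t)
  rw [prod_range_succ, mul_comm (∏ i ∈ range j, (16 * (P.p i : ℝ))), mul_assoc]
  exact this

/-- The constant of the linearisation error. -/
noncomputable def cErr (cs : ℕ → ℝ) (p : ℕ → ℕ) : ℕ → ℝ
  | 0 => 0
  | j + 1 => 2 * (cs j * (∏ i ∈ range j, cs i) ^ 2) + 16 * p j * cErr cs p j

theorem cErr_nonneg {cs : ℕ → ℝ} (hcs : ∀ j, 0 ≤ cs j) (p : ℕ → ℕ) (j : ℕ) :
    0 ≤ cErr cs p j := by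
  induction j with
  | zero => simp [cErr]
  | succ j ih =>
    have := hcs j
    simp only [cErr]
    positivity

theorem l1_three {X : Type*} (Y : Finset X) (f a b c : X → ℝ) (h : ∀ x, f x = a x - b x + c x) :
    l1 Y f ≤ l1 Y a + l1 Y b + l1 Y c := by
  unfold l1
  rw [← sum_add_distrib, ← sum_add_distrib]
  refine sum_le_sum fun x _ => ?_
  rw [h]
  exact (abs_add_le _ _).trans (add_le_add_left (abs_sub _ _) _)

theorem err_step (hP : Good ℓ P) {cs : ℕ → ℝ} (hcs : ∀ j, SoftC G (P.p j) (P.Q j) (cs j))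
    (v0 v v' : ℕ → G) {δ : ℝ} (hδ : 0 ≤ δ)
    (h1 : ∀ t x, |Wt (sumY Y) ℓ P 0 v t x - Wt (sumY Y) ℓ P 0 v0 t x| ≤ δ)
    (h2 : ∀ t x, |Wt (sumY Y) ℓ P 0 v' t x - Wt (sumY Y) ℓ P 0 v0 t x| ≤ δ) (j : ℕ)
    (hj : j ≤ P.J) (t : ℕ)
    (ih : ∀ x, |Wt (sumY Y) ℓ P j v' t x - Wt (sumY Y) ℓ P j v t x - linW Y ℓ P v0 v v' j t x| ≤
      cErr cs P.p j * δ ^ 2) :
    l1 Y (Ft (sumY Y) ℓ P j v' t - Ft (sumY Y) ℓ P j v t - linF Y ℓ P v0 v v' j t) ≤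
      cErr cs P.p (j + 1) * δ ^ 2 := by
  have hc0 : ∀ j, 0 ≤ cs j := fun j => by linarith [(hcs j).1]
  have k1 := (lip_Ft Y hP hcs v0 v hδ h1 j hj t).2
  have k2 := (lip_Ft Y hP hcs v0 v' hδ h2 j hj t).2
  have k3 := l1_dsoft_le Y _ _ (cand_Wt Y hP hj v0 t) (P.two_le_p j) (P.Q_le j)
    (mul_nonneg (cErr_nonneg hc0 P.p j) (sq_nonneg δ)) ih
  refine (l1_three Y _ _ _ _ fun x => ?_).trans ((add_le_add (add_le_add k2 k1) k3).trans
    (le_of_eq ?_))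
  · simp only [Pi.sub_apply, linF, dsoft_sub]
    ring
  · simp only [cErr]
    ring

theorem err_W (hP : Good ℓ P) {cs : ℕ → ℝ} (hcs : ∀ j, SoftC G (P.p j) (P.Q j) (cs j))
    (v0 v v' : ℕ → G) {δ : ℝ} (hδ : 0 ≤ δ)
    (h1 : ∀ t x, |Wt (sumY Y) ℓ P 0 v t x - Wt (sumY Y) ℓ P 0 v0 t x| ≤ δ)
    (h2 : ∀ t x, |Wt (sumY Y) ℓ P 0 v' t x - Wt (sumY Y) ℓ P 0 v0 t x| ≤ δ) (j : ℕ)
    (hj : j ≤ P.J) (t : ℕ) (x : G) :
    |Wt (sumY Y) ℓ P j v' t x - Wt (sumY Y) ℓ P j v t x - linW Y ℓ P v0 v v' j t x| ≤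
      cErr cs P.p j * δ ^ 2 := by
  have hc0 : ∀ j, 0 ≤ cs j := fun j => by linarith [(hcs j).1]
  induction j generalizing t x with
  | zero => simp [linW, cErr]
  | succ j ih =>
    rw [Wt_succ_eq, Wt_succ_eq, linW_succ, avgK_sub, avgK_sub]
    refine abs_avgK_le Y j _ (mul_nonneg (cErr_nonneg hc0 P.p _) (sq_nonneg δ)) (fun t => ?_) t x
    exact err_step Y hP hcs v0 v v' hδ h1 h2 j (by omega) t (ih (by omega) t)

/-- The weights of the chain. -/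
noncomputable def omg (ℓ : G → ℕ) (P : Par) (v0 : ℕ → G) (j t : ℕ) (x : G) : ℝ :=
  nn Y (P.p j) (Wt (sumY Y) ℓ P j v0 t) x +
    8 * (P.p j) * soft (sumY Y) (P.p j) (Wt (sumY Y) ℓ P j v0 t) x

theorem omg_nonneg (v0 : ℕ → G) (j t : ℕ) (x : G) : 0 ≤ omg Y ℓ P v0 j t x :=
  add_nonneg (nn_nonneg Y _ x) (mul_nonneg (by positivity) (soft_nonneg Y _ x))

theorem sum_omg_le (hP : Good ℓ P) (v0 : ℕ → G) {j : ℕ} (hj : j ≤ P.J) (t : ℕ) :
    ∑ x ∈ Y, omg Y ℓ P v0 j t x ≤ Aj P.τ P.σ j := by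
  unfold omg
  rw [sum_add_distrib, ← mul_sum]
  have k1 := sum_nn_le Y _ (cand_Wt Y hP hj v0 t) (P.two_le_p j) (P.Q_le j)
  have k2 := mul_le_of_le_one_right (by positivity : (0 : ℝ) ≤ 8 * (P.p j))
    (sum_soft_le_one Y (p := P.p j) (Wt (sumY Y) ℓ P j v0 t))
  have e : Aj P.τ P.σ j = 16 * (P.p j : ℝ) := by
    simp [Aj, Par.p, Par.r]
  linarith

theorem abs_dsoft_div_le (hP : Good ℓ P) (v0 : ℕ → G) {j : ℕ} (hj : j ≤ P.J) (t : ℕ)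
    (δ : G → ℝ) {ε : ℝ} (hδ : ∀ x, |δ x| ≤ ε) (x : G) :
    |dsoft Y (P.p j) (Wt (sumY Y) ℓ P j v0 t) δ x / omg Y ℓ P v0 j t x| ≤ ε := by
  have k := abs_dsoft_le Y _ δ (cand_Wt Y hP hj v0 t) (P.two_le_p j) (P.Q_le j) hδ x
  rw [abs_div, abs_of_nonneg (omg_nonneg Y v0 j t x)]
  exact div_le_of_le_mul₀ (omg_nonneg Y v0 j t x) ((abs_nonneg _).trans (hδ x)) k

theorem omg_mul_div (hP : Good ℓ P) (v0 : ℕ → G) {j : ℕ} (hj : j ≤ P.J) (t : ℕ)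
    (δ : G → ℝ) {ε : ℝ} (hδ : ∀ x, |δ x| ≤ ε) (x : G) :
    dsoft Y (P.p j) (Wt (sumY Y) ℓ P j v0 t) δ x = omg Y ℓ P v0 j t x *
      (dsoft Y (P.p j) (Wt (sumY Y) ℓ P j v0 t) δ x / omg Y ℓ P v0 j t x) := by
  rcases eq_or_ne (omg Y ℓ P v0 j t x) 0 with h | h
  · have k := abs_dsoft_le Y _ δ (cand_Wt Y hP hj v0 t) (P.two_le_p j) (P.Q_le j) hδ x
    change _ ≤ ε * omg Y ℓ P v0 j t x at k
    rw [h, mul_zero] at k
    rw [h, zero_mul]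
    exact abs_nonpos_iff.1 k
  · rw [mul_div_cancel₀ _ h]

theorem linF_succ (v0 v v' : ℕ → G) (j t : ℕ) (x : G) :
    linF Y ℓ P v0 v v' (j + 1) t x = (P.h j : ℝ)⁻¹ * ∑ s ∈ range (P.h j), ∑ z ∈ Y,
      linF Y ℓ P v0 v v' j (t + s + 1) z *
        dsoft Y (P.p (j + 1)) (Wt (sumY Y) ℓ P (j + 1) v0 t) (fun y => kb ℓ (P.r j) y z) x := by
  have e : linW Y ℓ P v0 v v' (j + 1) t = fun y => ∑ i ∈ range (P.h j) ×ˢ Y,
      ((P.h j : ℝ)⁻¹ * linF Y ℓ P v0 v v' j (t + i.1 + 1) i.2) * kb ℓ (P.r j) y i.2 := by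
    funext y
    rw [linW_succ, avgK, sum_product, mul_sum]
    refine sum_congr rfl fun s _ => ?_
    rw [mul_sum]
    exact sum_congr rfl fun z _ => by ring
  unfold linF at *
  rw [e, dsoft_sum, sum_product, mul_sum]
  refine sum_congr rfl fun s _ => ?_
  rw [mul_sum]
  exact sum_congr rfl fun z _ => by ring

theorem lin_main (hP : Good ℓ P) {cs : ℕ → ℝ} (hcs : ∀ j, SoftC G (P.p j) (P.Q j) (cs j))
    {n : ℕ} (a : Fin n → ZMod P.m) (H : Fin n → G) (u : Fin (n + 1) → ℕ → G)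
    (hu : Steps P.m a H u) :
    ∃ (lin : ℕ → Fin n → ℕ → G → ℝ) (ω : ℕ → ℕ → G → ℝ) (B : ℕ → ℕ → G → Fin n → ℝ),
      (∀ j ≤ P.J, ∀ (i : Fin n) t,
        l1 Y (Ft (sumY Y) ℓ P j (u i.succ) t - Ft (sumY Y) ℓ P j (u i.castSucc) t) ≤
          (∏ i ∈ range (j + 1), cs i) * (P.h0 : ℝ)⁻¹ ∧
        l1 Y (lin j i t) ≤ (∏ i ∈ range (j + 1), (16 * (P.p i : ℝ))) * (P.h0 : ℝ)⁻¹ ∧
        l1 Y (Ft (sumY Y) ℓ P j (u i.succ) t - Ft (sumY Y) ℓ P j (u i.castSucc) t - lin j i t) ≤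
          cErr cs P.p (j + 1) * (n * (P.h0 : ℝ)⁻¹) ^ 2) ∧
      (∀ j ≤ P.J, ∀ i t x, lin j i t x = ω j t x * B j t x i) ∧
      ∀ ρ : ℕ, Chain Y (fun i => 1 + (ℓ (H i) : ℝ)) P.J P.h (Aj P.τ P.σ) (ρ * P.m)
        (ρ * Aj P.τ P.σ 0 / (P.τ ^ 2 * P.h0)) ω B := by
  have hh : (0 : ℝ) ≤ (P.h0 : ℝ)⁻¹ := by positivity
  have hstep : ∀ (i : Fin n) t x, |Wt (sumY Y) ℓ P 0 (u i.succ) t x -
      Wt (sumY Y) ℓ P 0 (u i.castSucc) t x| ≤ (P.h0 : ℝ)⁻¹ := by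
    intro i t x
    have k := Wt_zero_diff (ℓ := ℓ) (sumY Y) (u i.castSucc) (u i.succ) (a i) (H i) (hu i) (θ := 1)
      (fun x y => by
        have := k0_nonneg (ℓ := ℓ) P.τ x y
        have := k0_nonneg (ℓ := ℓ) P.τ x (y * H i)
        have := k0_le_one (ℓ := ℓ) P.τ x y
        have := k0_le_one (ℓ := ℓ) P.τ x (y * H i)
        rw [abs_le]; constructor <;> linarith) t x
    rw [one_mul] at k
    exact k.trans (mul_le_of_le_one_right hh (wc_le_one hP.h0_lt.le _ _))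
  have hbase : ∀ (p : Fin (n + 1)) t x, |Wt (sumY Y) ℓ P 0 (u p) t x -
      Wt (sumY Y) ℓ P 0 (u 0) t x| ≤ (p : ℕ) * (P.h0 : ℝ)⁻¹ := by
    intro p t x
    induction p using Fin.induction with
    | zero => simp
    | succ i ih =>
      have k := hstep i t x
      have k2 := abs_sub_le (Wt (sumY Y) ℓ P 0 (u i.succ) t x)
        (Wt (sumY Y) ℓ P 0 (u i.castSucc) t x) (Wt (sumY Y) ℓ P 0 (u 0) t x)
      rw [Fin.val_castSucc] at ih
      rw [Fin.val_succ]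
      push_cast
      linarith
  have hbase' : ∀ (p : Fin (n + 1)) t x, |Wt (sumY Y) ℓ P 0 (u p) t x -
      Wt (sumY Y) ℓ P 0 (u 0) t x| ≤ n * (P.h0 : ℝ)⁻¹ := fun p t x =>
    (hbase p t x).trans (mul_le_mul_of_nonneg_right (by exact_mod_cast p.is_le) hh)
  have hmul : ∀ j ≤ P.J, ∀ (i : Fin n) t x,
      linF Y ℓ P (u 0) (u i.castSucc) (u i.succ) j t x = omg Y ℓ P (u 0) j t x *
        (linF Y ℓ P (u 0) (u i.castSucc) (u i.succ) j t x / omg Y ℓ P (u 0) j t x) :=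
    fun j hj i t x => omg_mul_div Y hP (u 0) hj t _
      (abs_linW_le Y hP (u 0) _ _ hh (hstep i) j hj t) x
  refine ⟨fun j i t => linF Y ℓ P (u 0) (u i.castSucc) (u i.succ) j t, omg Y ℓ P (u 0),
    fun j t x i => linF Y ℓ P (u 0) (u i.castSucc) (u i.succ) j t x / omg Y ℓ P (u 0) j t x,
    fun j hj i t => ⟨(lip_Ft Y hP hcs _ _ hh (hstep i) j hj t).1,
      l1_linF_le Y hP _ _ _ hh (hstep i) j hj t, ?_⟩, hmul, fun ρ => ?_⟩
  · exact err_step Y hP hcs _ _ _ (by positivity) (hbase' _) (hbase' _) j hj t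
      (err_W Y hP hcs _ _ _ (by positivity) (hbase' _) (hbase' _) j hj t)
  have hA0 : 0 ≤ Aj P.τ P.σ 0 := by unfold Aj; positivity
  refine ⟨hP.h_pos, fun i => by positivity, by positivity, omg_nonneg Y (u 0),
    fun j hj t => sum_omg_le Y hP (u 0) hj t, fun i => ?_, fun j hj => ?_⟩
  · have hτ : (0 : ℝ) < P.τ := by exact_mod_cast hP.τ_pos
    have hh0 : (0 : ℝ) < P.h0 := by exact_mod_cast hP.h0_pos
    have k : ∀ t, ∑ x ∈ Y, omg Y ℓ P (u 0) 0 t x *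
        (linF Y ℓ P (u 0) (u i.castSucc) (u i.succ) 0 t x / omg Y ℓ P (u 0) 0 t x) ^ 2 ≤
        (Aj P.τ P.σ 0 * ((P.h0 : ℝ)⁻¹ * ((ℓ (H i) : ℝ) / P.τ)) ^ 2) * wc P.h0 (a i) t := by
      intro t
      have hw0 := wc_nonneg P.h0 (a i) t
      have hw1 := wc_le_one hP.h0_lt.le (a i) t
      have k1 : ∀ x, (linF Y ℓ P (u 0) (u i.castSucc) (u i.succ) 0 t x /
          omg Y ℓ P (u 0) 0 t x) ^ 2 ≤
          ((P.h0 : ℝ)⁻¹ * ((ℓ (H i) : ℝ) / P.τ)) ^ 2 * wc P.h0 (a i) t := by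
        intro x
        have k2 := abs_dsoft_div_le Y hP (u 0) (Nat.zero_le _) t
          (linW Y ℓ P (u 0) (u i.castSucc) (u i.succ) 0 t)
          (fun x => Wt_zero_diff (ℓ := ℓ) (sumY Y) (u i.castSucc) (u i.succ) (a i) (H i) (hu i)
            (fun x y => abs_k0_sub_right hP.len P.τ x y (H i)) t x) x
        have k3 := pow_le_pow_left₀ (abs_nonneg _) k2 2
        rw [sq_abs] at k3
        refine k3.trans ?_
        rw [← mul_assoc, mul_pow]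
        exact mul_le_mul_of_nonneg_left (by nlinarith) (sq_nonneg _)
      calc _ ≤ ∑ x ∈ Y, omg Y ℓ P (u 0) 0 t x *
            (((P.h0 : ℝ)⁻¹ * ((ℓ (H i) : ℝ) / P.τ)) ^ 2 * wc P.h0 (a i) t) :=
            sum_le_sum fun x _ => mul_le_mul_of_nonneg_left (k1 x) (omg_nonneg Y _ _ _ _)
        _ ≤ _ := by
            rw [← sum_mul, mul_assoc]
            exact mul_le_mul_of_nonneg_right (sum_omg_le Y hP (u 0) (Nat.zero_le _) t)
              (by positivity)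
    refine (sum_le_sum fun t _ => k t).trans ?_
    rw [← mul_sum]
    refine (mul_le_mul_of_nonneg_left (sum_wc_le P.h0 (a i) ρ) (by positivity)).trans ?_
    have e : Aj P.τ P.σ 0 * ((P.h0 : ℝ)⁻¹ * ((ℓ (H i) : ℝ) / P.τ)) ^ 2 * (ρ * P.h0) =
        ρ * Aj P.τ P.σ 0 / (P.τ ^ 2 * P.h0) * (ℓ (H i) : ℝ) ^ 2 := by
      field_simp
    rw [e]
    refine mul_le_mul_of_nonneg_left (pow_le_pow_left₀ (by positivity) (by linarith) 2)
      (by positivity)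
  · refine ⟨fun t x _ z => dsoft Y (P.p (j + 1)) (Wt (sumY Y) ℓ P (j + 1) (u 0) t)
      (fun y => kb ℓ (P.r j) y z) x / omg Y ℓ P (u 0) (j + 1) t x, fun t x _ z =>
        abs_dsoft_div_le Y hP (u 0) (by omega) t _ (fun y => abs_kb_le _ _ _) x,
      fun t x _ i => ?_⟩
    rw [linF_succ, mul_div_assoc, sum_div]
    congr 1
    refine sum_congr rfl fun s _ => ?_
    rw [sum_div]
    refine sum_congr rfl fun z _ => ?_
    rw [mul_right_comm, ← hmul j hj.le, mul_div_assoc]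

/-- The linearised chain. The constant depends only on `τ, σ, J`. -/
theorem exists_lin (τ σ J : ℕ) : ∃ c : ℝ, 0 ≤ c ∧
    ∀ (G : Type u) [Group G] (ℓ : G → ℕ) (P : Par), Good ℓ P → P.τ = τ → P.σ = σ → P.J = J →
    ∀ (Y : Finset G) (n : ℕ) (a : Fin n → ZMod P.m) (H : Fin n → G)
      (u : Fin (n + 1) → ℕ → G), Steps P.m a H u →
    ∃ (lin : ℕ → Fin n → ℕ → G → ℝ) (ω : ℕ → ℕ → G → ℝ) (B : ℕ → ℕ → G → Fin n → ℝ),
      (∀ j ≤ J, ∀ (i : Fin n) t,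
        l1 Y (Ft (sumY Y) ℓ P j (u i.succ) t - Ft (sumY Y) ℓ P j (u i.castSucc) t) ≤ c / P.h0 ∧
        l1 Y (lin j i t) ≤ c / P.h0 ∧
        l1 Y (Ft (sumY Y) ℓ P j (u i.succ) t - Ft (sumY Y) ℓ P j (u i.castSucc) t - lin j i t) ≤
          c * n ^ 2 / P.h0 ^ 2) ∧
      (∀ j ≤ J, ∀ i t x, lin j i t x = ω j t x * B j t x i) ∧
      ∀ ρ : ℕ, Chain Y (fun i => 1 + (ℓ (H i) : ℝ)) J P.h (Aj τ σ) (ρ * P.m)
        (ρ * Aj τ σ 0 / (τ ^ 2 * P.h0)) ω B := by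
  choose cs hcs1 hcs2 using fun j : ℕ =>
    exists_soft_const.{u} (6 + σ * (2 ^ j * τ)) (2 ^ (σ * (2 ^ j * τ))) (by omega)
  have hc0 : ∀ j, 0 ≤ cs j := fun j => by linarith [hcs1 j]
  let p : ℕ → ℕ := fun j => 6 + σ * (2 ^ j * τ)
  let f : ℕ → ℝ := fun j => (∏ i ∈ range (j + 1), cs i) +
    (∏ i ∈ range (j + 1), (16 * (p i : ℝ))) + cErr cs p (j + 1)
  have k1 : ∀ j, 0 ≤ ∏ i ∈ range (j + 1), cs i := fun j => prod_nonneg fun i _ => hc0 i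
  have k2 : ∀ j, 0 ≤ ∏ i ∈ range (j + 1), (16 * (p i : ℝ)) := fun j => by positivity
  have k3 : ∀ j, 0 ≤ cErr cs p (j + 1) := fun j => cErr_nonneg hc0 p _
  have hf : ∀ j, 0 ≤ f j := fun j => add_nonneg (add_nonneg (k1 j) (k2 j)) (k3 j)
  refine ⟨∑ j ∈ range (J + 1), f j, sum_nonneg fun j _ => hf j, ?_⟩
  intro G _ ℓ P hP hτ hσ hJ Y n a H u hu
  subst hτ hσ hJ
  obtain ⟨lin, ω, B, h1, h2, h3⟩ := lin_main Y hP (cs := cs)
    (fun j => ⟨hcs1 j, hcs2 j G⟩) a H u hu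
  refine ⟨lin, ω, B, fun j hj i t => ?_, h2, h3⟩
  obtain ⟨l1', l2, l3⟩ := h1 j hj i t
  have hle : f j ≤ ∑ j ∈ range (P.J + 1), f j :=
    single_le_sum (fun j _ => hf j) (mem_range.2 (by omega))
  have hh : (0 : ℝ) ≤ (P.h0 : ℝ)⁻¹ := by positivity
  have a1 := k1 j
  have a2 := k2 j
  have a3 := k3 j
  have ef : f j = (∏ i ∈ range (j + 1), cs i) +
    (∏ i ∈ range (j + 1), (16 * (p i : ℝ))) + cErr cs p (j + 1) := rfl
  have ep : P.p = p := rfl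
  rw [ep] at l2 l3
  refine ⟨l1'.trans ?_, l2.trans ?_, l3.trans ?_⟩
  · rw [div_eq_mul_inv]
    exact mul_le_mul_of_nonneg_right (by linarith) hh
  · rw [div_eq_mul_inv]
    exact mul_le_mul_of_nonneg_right (le_trans (by linarith : _ ≤ f j) hle) hh
  · rw [mul_div_assoc, ← div_pow, div_eq_mul_inv]
    exact mul_le_mul_of_nonneg_right (le_trans (by linarith : _ ≤ f j) hle) (sq_nonneg _)

end Vale.Agent.P184
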