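import Vale.Agent.P184.FeatB

/-!
# P184: the lower bound for the normalisation
-/

namespace Vale.Agent.P184

open Finset Filter

variable {G : Type*} [Group G] {ℓ : G → ℕ} {P : Par}

/-- The total mass of a feature. -/
noncomputable def lowChi (Y : Finset G) (ℓ : G → ℕ) (P : Par) (v : ℕ → G) (j a : ℕ) : ℝ :=
  ∑ x ∈ Y, Ft (sumY Y) ℓ P j v a x

/-- The pairing of two features. -/
noncomputable def lowK (Y : Finset G) (ℓ : G → ℕ) (P : Par) (v : ℕ → G) (j a b : ℕ) : ℝ :=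
  ∑ x ∈ Y, Ft (sumY Y) ℓ P j v a x * ∑ y ∈ Y, kb ℓ (P.r j) x y * Ft (sumY Y) ℓ P j v b y

/-- The defect of level `j` in the slot `a`. -/
noncomputable def lowT (Y : Finset G) (ℓ : G → ℕ) (P : Par) (v : ℕ → G) (j a : ℕ) : ℝ :=
  (P.h j : ℝ)⁻¹ * ∑ u ∈ range (P.h j),
    ((lowChi Y ℓ P v j a ^ 2 + lowChi Y ℓ P v j (a + u + 1) ^ 2) / 2 - lowK Y ℓ P v j a (a + u + 1))

section
variable (Y : Finset G) (v : ℕ → G)

lemma low_half {j a : ℕ} {x : G} (h : Ft (sumY Y) ℓ P j v a x ≠ 0) :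
    1 / 2 < Wt (sumY Y) ℓ P j v a x :=
  half_lt_of_soft_ne_zero _ (le_trans one_le_two (P.two_le_p j)) _ _ h

lemma lowK_le (j a b : ℕ) : lowK Y ℓ P v j a b ≤ lowChi Y ℓ P v j a * lowChi Y ℓ P v j b := by
  unfold lowK lowChi
  rw [sum_mul]
  refine sum_le_sum fun x _ => mul_le_mul_of_nonneg_left (sum_le_sum fun y _ => ?_)
    (Ft_nonneg Y j v a x)
  have := Ft_nonneg (ℓ := ℓ) (P := P) Y j v b y
  unfold kb
  split_ifs <;> linarith

lemma lowK_self (hP : Good ℓ P) (j a : ℕ) : lowK Y ℓ P v j a a = lowChi Y ℓ P v j a ^ 2 := by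
  unfold lowK lowChi
  rw [sq, sum_mul]
  refine sum_congr rfl fun x _ => ?_
  by_cases hx : Ft (sumY Y) ℓ P j v a x = 0
  · rw [hx, zero_mul, zero_mul]
  congr 1
  refine sum_congr rfl fun y _ => ?_
  by_cases hy : Ft (sumY Y) ℓ P j v a y = 0
  · rw [hy, mul_zero]
  · rw [kb, if_pos (Wt_diam Y hP j v a x y (low_half Y v hx) (low_half Y v hy)), one_mul]

lemma lowT_nonneg (j a : ℕ) : 0 ≤ lowT Y ℓ P v j a := by
  refine mul_nonneg (by positivity) (sum_nonneg fun u _ => ?_)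
  have := lowK_le (ℓ := ℓ) (P := P) Y v j a (a + u + 1)
  nlinarith [sq_nonneg (lowChi Y ℓ P v j a - lowChi Y ℓ P v j (a + u + 1))]

lemma low_step (hP : Good ℓ P) (j a : ℕ) (h1 : 15 / 16 ≤ lowChi Y ℓ P v j a)
    (h2 : lowT Y ℓ P v j a ≤ 1 / 128) : 15 / 16 ≤ lowChi Y ℓ P v (j + 1) a := by
  have hh : (0 : ℝ) < P.h j := by exact_mod_cast hP.h_pos j
  have e1 : ∑ x ∈ Y, Ft (sumY Y) ℓ P j v a x * Wt (sumY Y) ℓ P (j + 1) v a x =
      (P.h j : ℝ)⁻¹ * ∑ u ∈ range (P.h j), lowK Y ℓ P v j a (a + u + 1) := by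
    unfold lowK
    rw [sum_comm, mul_sum]
    refine sum_congr rfl fun x _ => ?_
    rw [← mul_sum, Wt, mul_left_comm]
    rfl
  have e2 : 15 / 16 * lowChi Y ℓ P v j a ^ 2 - 9 * lowT Y ℓ P v j a ≤
      (P.h j : ℝ)⁻¹ * ∑ u ∈ range (P.h j), lowK Y ℓ P v j a (a + u + 1) := by
    have : 15 / 16 * lowChi Y ℓ P v j a ^ 2 =
        (P.h j : ℝ)⁻¹ * ∑ _u ∈ range (P.h j), 15 / 16 * lowChi Y ℓ P v j a ^ 2 := by
      rw [sum_const, card_range, nsmul_eq_mul, inv_mul_cancel_left₀ hh.ne']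
    rw [this, lowT, mul_left_comm, ← mul_sub, mul_sum _ _ (9 : ℝ), ← sum_sub_distrib]
    refine mul_le_mul_of_nonneg_left (sum_le_sum fun u _ => ?_) (by positivity)
    have := lowK_le (ℓ := ℓ) (P := P) Y v j a (a + u + 1)
    nlinarith [sq_nonneg (8 * lowChi Y ℓ P v j a - 9 * lowChi Y ℓ P v j (a + u + 1)),
      sq_nonneg (lowChi Y ℓ P v j a)]
  by_contra hc
  have e3 : ∑ x ∈ Y, Ft (sumY Y) ℓ P j v a x * Wt (sumY Y) ℓ P (j + 1) v a x ≤
      lowChi Y ℓ P v j a * (3 / 4) := by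
    unfold lowChi
    rw [sum_mul]
    refine sum_le_sum fun x hx => mul_le_mul_of_nonneg_left ?_ (Ft_nonneg Y j v a x)
    by_contra h3
    exact hc (le_sum_soft Y _ x hx (le_of_lt (not_le.mp h3)))
  nlinarith

lemma low_last (hP : Good ℓ P) (a : ℕ) :
    lowChi Y ℓ P v P.J a ^ 2 ≤ (P.Q P.J : ℝ) * ∑ x ∈ Y, Ft (sumY Y) ℓ P P.J v a x ^ 2 := by
  have hc := (cand_Wt Y hP le_rfl v a).2
  have e1 : lowChi Y ℓ P v P.J a =
      ∑ x ∈ Y.filter (fun y => 1 / 2 < Wt (sumY Y) ℓ P P.J v a y), Ft (sumY Y) ℓ P P.J v a x := by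
    unfold lowChi
    exact (sum_filter_of_ne fun x _ hx => low_half Y v hx).symm
  rw [e1]
  refine sq_sum_le_card_mul_sum_sq.trans (mul_le_mul (by exact_mod_cast hc)
    (sum_le_sum_of_subset_of_nonneg (filter_subset _ _) fun _ _ _ => sq_nonneg _)
    (sum_nonneg fun _ _ => sq_nonneg _) (by positivity))

lemma low_slot (hP : Good ℓ P) (a : ℕ) (ha : v a ∈ Y) :
    1 ≤ 128 * (1 - Wt (sumY Y) ℓ P 0 v a (v a)) + ∑ j ∈ range P.J, 128 * lowT Y ℓ P v j a +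
      2 * (P.Q P.J : ℝ) * ∑ x ∈ Y, Ft (sumY Y) ℓ P P.J v a x ^ 2 := by
  have h0 := Wt_le_one (ℓ := ℓ) (P := P) Y 0 v a (v a)
  have h1 : 0 ≤ ∑ j ∈ range P.J, 128 * lowT Y ℓ P v j a :=
    sum_nonneg fun j _ => mul_nonneg (by norm_num) (lowT_nonneg Y v j a)
  have h2 := low_last Y v hP a
  have h3 := sq_nonneg (lowChi Y ℓ P v P.J a)
  by_contra hc
  rw [not_le] at hc
  have h4 : ∀ j, j ≤ P.J → 15 / 16 ≤ lowChi Y ℓ P v j a := by
    intro j
    induction j with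
    | zero => intro _; exact le_sum_soft Y _ (v a) ha (by nlinarith)
    | succ j ih =>
      intro hj
      refine low_step Y v hP j a (ih (by omega)) ?_
      have := single_le_sum (f := fun j => 128 * lowT Y ℓ P v j a)
        (fun j _ => mul_nonneg (by norm_num) (lowT_nonneg Y v j a)) (mem_range.mpr hj)
      nlinarith
  have h5 := h4 _ le_rfl
  nlinarith

lemma low_num0 (hP : Good ℓ P) :
    num0 ℓ P v (Tsh v) - num0 ℓ P v v = ∑ a ∈ range P.m, (1 - Wt (sumY Y) ℓ P 0 v a (v a)) := by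
  unfold num0 term0
  rw [← sum_sub_distrib]
  refine sum_congr rfl fun a _ => ?_
  have := saw_abel P.h0 hP.h0_pos (fun u => k0 ℓ P.τ (v a) (v (a + u)))
  have h1 : k0 ℓ P.τ (v a) (v (a + 0)) = 1 := by
    simp [k0, hP.len.one]
  simp only [h1, mul_sub, sum_sub_distrib] at this
  exact this

lemma low_numL (hP : Good ℓ P) (j : ℕ)
    (H : ∀ u < P.h j, ∑ a ∈ range P.m, lowChi Y ℓ P v j (a + u + 1) ^ 2 =
      ∑ a ∈ range P.m, lowChi Y ℓ P v j a ^ 2) :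
    numL (sumY Y) ℓ P j v (Tsh v) - numL (sumY Y) ℓ P j v v =
      ∑ a ∈ range P.m, lowT Y ℓ P v j a := by
  have hh : (0 : ℝ) < P.h j := by exact_mod_cast hP.h_pos j
  have e1 : numL (sumY Y) ℓ P j v (Tsh v) - numL (sumY Y) ℓ P j v v =
      ∑ a ∈ range P.m, (lowChi Y ℓ P v j a ^ 2 -
        (P.h j : ℝ)⁻¹ * ∑ u ∈ range (P.h j), lowK Y ℓ P v j a (a + u + 1)) := by
    unfold numL BL
    rw [← sum_sub_distrib]
    refine sum_congr rfl fun a _ => ?_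
    have := saw_abel (P.h j) (hP.h_pos j) (fun u => lowK Y ℓ P v j a (a + u))
    simp only [add_zero, lowK_self Y v hP, mul_sub, sum_sub_distrib] at this
    simp only [Ft_shift]
    exact this
  have e2 : ∑ a ∈ range P.m, (P.h j : ℝ)⁻¹ * ∑ u ∈ range (P.h j),
      lowChi Y ℓ P v j (a + u + 1) ^ 2 = ∑ a ∈ range P.m, lowChi Y ℓ P v j a ^ 2 := by
    rw [← mul_sum, sum_comm, sum_congr rfl fun u hu => H u (mem_range.mp hu), sum_const,
      card_range, nsmul_eq_mul, inv_mul_cancel_left₀ hh.ne']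
  have e3 : ∀ a, lowT Y ℓ P v j a = lowChi Y ℓ P v j a ^ 2 / 2 +
      ((P.h j : ℝ)⁻¹ * ∑ u ∈ range (P.h j), lowChi Y ℓ P v j (a + u + 1) ^ 2) / 2 -
      (P.h j : ℝ)⁻¹ * ∑ u ∈ range (P.h j), lowK Y ℓ P v j a (a + u + 1) := by
    intro a
    rw [lowT, sum_sub_distrib, ← sum_div, sum_add_distrib, sum_const, card_range, nsmul_eq_mul]
    field_simp
  rw [e1]
  simp only [e3, sum_sub_distrib, sum_add_distrib, ← sum_div, e2]
  ring

lemma low_numD (g : G)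
    (H : ∀ a < P.m, ∀ x, Ft (sumY Y) ℓ P P.J v a x *
      Ft (sumY Y) ℓ P P.J v (a + jx ℓ (P.r P.J) g x * P.m) x = 0) :
    numD (sumY Y) ℓ P g v (Tsh v) - numD (sumY Y) ℓ P g v v =
      ∑ a ∈ range P.m, ∑ x ∈ Y, Ft (sumY Y) ℓ P P.J v a x ^ 2 := by
  unfold numD BD
  rw [← sum_sub_distrib]
  refine sum_congr rfl fun a ha => ?_
  simp only [Ft_shift]
  rw [neg_sub_neg, sumY, sumY, ← sum_sub_distrib]
  refine sum_congr rfl fun x _ => ?_
  have := sum_range_sub' (fun u => Ft (sumY Y) ℓ P P.J v (a + u) x) (jx ℓ (P.r P.J) g x * P.m)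
  rw [sum_sub_distrib] at this
  rw [← mul_sub]
  simp only [add_assoc]
  rw [this, mul_sub, H a (mem_range.mp ha) x, add_zero]
  ring

end

lemma low_period {g : G} {v : ℕ → G} (hv : QP P.m g v) (j a i : ℕ) (x : G) :
    Ft sumF ℓ P j v (a + i * P.m) (g ^ i * x) = Ft sumF ℓ P j v a x := by
  induction i with
  | zero => simp
  | succ i ih => rw [add_mul, one_mul, ← add_assoc, pow_succ', mul_assoc, Ft_period hv, ih]

theorem le_norm (hP : Good ℓ P) {g : G} {v : ℕ → G} (hv : QP P.m g v)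
    (hg : ∀ x : G, ∃ j : ℕ, P.r P.J < ℓ ((x⁻¹ * g * x) ^ j)) :
    (P.m : ℝ) ≤ num sumF ℓ P g v (Tsh v) - num sumF ℓ P g v v := by
  set T : ℕ := P.m + ∑ j ∈ range P.J, P.h j + P.Q P.J * P.m with hT
  have ev1 : ∀ᶠ Y : Finset G in atTop, ∀ j ∈ range (P.J + 1), ∀ a ∈ range (T + 1),
      Ft (sumY Y) ℓ P j v a = Ft sumF ℓ P j v a ∧ ∀ x, Ft sumF ℓ P j v a x ≠ 0 → x ∈ Y :=
    (eventually_all_finset _).mpr fun j hj => (eventually_all_finset _).mpr fun a _ =>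
      eventually_Ft hP (Nat.lt_succ_iff.mp (mem_range.mp hj)) v a
  have ev2 : ∀ᶠ Y : Finset G in atTop, ∀ a ∈ range P.m, v a ∈ Y :=
    (eventually_all_finset _).mpr fun a _ =>
      (eventually_ge_atTop ({v a} : Finset G)).mono fun Y hY => hY (mem_singleton_self _)
  obtain ⟨Y, ⟨⟨h1, h2⟩, h3⟩, h4⟩ := (((ev1.and ev2).and (eventually_num hP g v (Tsh v))).and
    (eventually_num hP g v v)).exists
  have h1' : ∀ j ≤ P.J, ∀ a ≤ T, Ft (sumY Y) ℓ P j v a = Ft sumF ℓ P j v a ∧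
      ∀ x, Ft sumF ℓ P j v a x ≠ 0 → x ∈ Y := fun j hj a ha =>
    h1 j (mem_range.mpr (by omega)) a (mem_range.mpr (by omega))
  have hchi : ∀ j ≤ P.J, ∀ a ≤ T, lowChi Y ℓ P v j a = ∑ᶠ x, Ft sumF ℓ P j v a x := by
    intro j hj a ha
    rw [lowChi, (h1' j hj a ha).1]
    exact (finsum_eq_sum_of_support_subset _ fun x hx => (h1' j hj a ha).2 x hx).symm
  have hL : ∀ j ∈ range P.J, numL (sumY Y) ℓ P j v (Tsh v) - numL (sumY Y) ℓ P j v v =
      ∑ a ∈ range P.m, lowT Y ℓ P v j a := by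
    intro j hj
    refine low_numL Y v hP j fun u hu => ?_
    have hj' := mem_range.mp hj
    have hle : P.h j ≤ ∑ j ∈ range P.J, P.h j :=
      single_le_sum (f := P.h) (fun _ _ => Nat.zero_le _) hj
    have := sum_range_shift_of_periodic P.m (fun a => (∑ᶠ x, Ft sumF ℓ P j v a x) ^ 2) (by
      intro a
      rw [← finsum_comp_equiv (Equiv.mulLeft g)]
      simp only [Equiv.coe_mulLeft, Ft_period hv]) (u + 1)
    rw [sum_congr rfl fun a ha => by
        rw [hchi j hj'.le (a + u + 1) (by have := mem_range.mp ha; omega)],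
      sum_congr (s₁ := range P.m) (f := fun a => lowChi Y ℓ P v j a ^ 2) rfl fun a ha => by
        rw [hchi j hj'.le a (by have := mem_range.mp ha; omega)]]
    exact this
  have hD := low_numD Y v g (P := P) (ℓ := ℓ) (by
    intro a ha x
    by_contra hne
    obtain ⟨n1, n2⟩ := mul_ne_zero_iff.mp hne
    have hjx := jx_le hP g x
    have hle : jx ℓ (P.r P.J) g x * P.m ≤ P.Q P.J * P.m := Nat.mul_le_mul_right _ hjx
    rw [(h1' _ le_rfl _ (by omega)).1] at n2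
    have e := low_period (ℓ := ℓ) hv P.J a (jx ℓ (P.r P.J) g x) ((g ^ jx ℓ (P.r P.J) g x)⁻¹ * x)
    rw [mul_inv_cancel_left] at e
    rw [e, ← (h1' _ le_rfl a (by omega)).1] at n2
    have d := Wt_diam Y hP P.J v a _ _ (low_half Y v n2) (low_half Y v n1)
    have s := jx_spec (ℓ := ℓ) (P.r P.J) g x (hg x)
    have e2 : (x⁻¹ * g * x) ^ jx ℓ (P.r P.J) g x = ((g ^ jx ℓ (P.r P.J) g x)⁻¹ * x)⁻¹ * x := by
      have := conj_pow (a := x⁻¹) (b := g) (i := jx ℓ (P.r P.J) g x)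
      rw [inv_inv] at this
      rw [this, mul_inv_rev, inv_inv]
    rw [e2] at s
    omega)
  rw [← h3, ← h4]
  have e : num (sumY Y) ℓ P g v (Tsh v) - num (sumY Y) ℓ P g v v =
      128 * (num0 ℓ P v (Tsh v) - num0 ℓ P v v) +
      ∑ j ∈ range P.J, 128 * (numL (sumY Y) ℓ P j v (Tsh v) - numL (sumY Y) ℓ P j v v) +
      2 * (P.Q P.J : ℝ) * (numD (sumY Y) ℓ P g v (Tsh v) - numD (sumY Y) ℓ P g v v) := by
    simp only [num, mul_sub, sum_sub_distrib]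
    ring
  have eL : ∑ j ∈ range P.J, 128 * (numL (sumY Y) ℓ P j v (Tsh v) - numL (sumY Y) ℓ P j v v) =
      ∑ a ∈ range P.m, ∑ j ∈ range P.J, 128 * lowT Y ℓ P v j a := by
    rw [sum_comm]
    exact sum_congr rfl fun j hj => by rw [hL j hj, mul_sum]
  rw [e, low_num0 Y v hP, hD, eL, mul_sum, mul_sum, ← sum_add_distrib, ← sum_add_distrib]
  calc (P.m : ℝ) = ∑ _a ∈ range P.m, (1 : ℝ) := by simp
    _ ≤ _ := sum_le_sum fun a ha => low_slot Y v hP a (h2 a ha)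

end Vale.Agent.P184
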