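import Vale.Agent.P184.Deform

/-!
# P184: reduction of the l1-Bass conjecture to the weighted vanishing theorem
-/

namespace Vale.Agent.P184

open Finset

universe u v

/-- The weighted vanishing theorem (proved in `Main.lean`). -/
def MainStmt : Prop :=
  ∀ (K : ℝ) (σ : ℕ), ∃ M : ℕ, ∀ (G : Type u) [Group G] (A : Type v) [NormedRing A]
    [NormOneClass A] [CompleteSpace A] (tr : A →+ ℝ) (c : ℝ) (e : G → A) (C : Set G),
    Idem tr c e C → ∀ (ℓ : G → ℕ), IsLen ℓ →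
    (∀ r ≤ M, ∃ B : Finset G, B.card ≤ 2 ^ (σ * r) ∧ ∀ x, ℓ x ≤ r → x ∈ B) →
    (Summable fun g => ‖e g‖ * (1 + (ℓ g : ℝ))) → (∑' g, ‖e g‖ * (1 + (ℓ g : ℝ)) ≤ K) →
    (∀ g ∈ C, ∃ j : ℕ, M < ℓ (g ^ j)) → tauC tr e C = 0

open Pointwise in
/-- Truncated word lengths: for a finite symmetric set `S` containing `1`. -/
theorem exists_len {G : Type u} [Group G] (S : Finset G) :
    ∃ σ : ℕ, ∀ T : ℕ, ∃ ℓ : G → ℕ, IsLen ℓ ∧ (∀ g, ℓ g ≤ T) ∧ (∀ g ∈ S, ℓ g ≤ 1) ∧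
      ∀ r < T, ∃ B : Finset G, B.card ≤ 2 ^ (σ * r) ∧ ∀ x, ℓ x ≤ r → x ∈ B := by
  classical
  let U : Finset G := insert 1 (S ∪ S⁻¹)
  have h1 : (1 : G) ∈ U := mem_insert_self _ _
  have hinv : U⁻¹ = U := by
    ext x
    simp only [U, Finset.mem_inv', mem_insert, mem_union, inv_inv, inv_eq_one]
    tauto
  refine ⟨U.card, fun T => ?_⟩
  have hex : ∀ g : G, ∃ r, g ∈ U ^ r ∨ T ≤ r := fun g => ⟨T, Or.inr le_rfl⟩
  let ℓ : G → ℕ := fun g => Nat.find (hex g)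
  have hs : ∀ g, g ∈ U ^ ℓ g ∨ T ≤ ℓ g := fun g => Nat.find_spec (hex g)
  have hm : ∀ g r, g ∈ U ^ r ∨ T ≤ r → ℓ g ≤ r := fun g r h => Nat.find_min' (hex g) h
  have hi : ∀ x, ℓ x⁻¹ ≤ ℓ x := fun x => hm _ _ ((hs x).imp_left fun h => by
    rw [← hinv, inv_pow]
    exact Finset.inv_mem_inv h)
  refine ⟨ℓ, ⟨?_, fun x => le_antisymm (hi x) ?_, fun x y => hm _ _ ?_⟩,
    fun g => hm _ _ (Or.inr le_rfl), fun g hg => hm _ _ (Or.inl ?_), fun r hr => ⟨U ^ r, ?_, ?_⟩⟩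
  · exact Nat.le_zero.1 (hm _ _ (Or.inl (by simp)))
  · simpa using hi x⁻¹
  · rcases hs x with hx | hx
    · rcases hs y with hy | hy
      · exact Or.inl (pow_add U _ _ ▸ Finset.mul_mem_mul hx hy)
      · exact Or.inr (by omega)
    · exact Or.inr (by omega)
  · rw [pow_one]
    exact mem_insert_of_mem (mem_union_left _ hg)
  · rw [pow_mul]
    exact Finset.card_pow_le.trans (Nat.pow_le_pow_left Nat.lt_two_pow_self.le _)
  · intro x hx
    exact Finset.pow_subset_pow_right h1 hx ((hs x).resolve_right (by omega))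

/-- Abstract form of the conjecture. -/
theorem abstract_bass (hmain : MainStmt.{u, v}) {G : Type u} [Group G] {A : Type v}
    [NormedRing A] [NormOneClass A] [CompleteSpace A] (e : G → A)
    (hsum : Summable fun g => ‖e g‖) (hidem : ∀ g, HasSum (fun h => e h * e (h⁻¹ * g)) (e g)) :
    ∃ B : Finset G, ∀ (tr : A →+ ℝ) (c : ℝ) (C : Set G), Idem tr c e C →
      (∀ g ∈ C, ∃ j : ℕ, g ^ j ∉ B) → tauC tr e C = 0 := by
  obtain ⟨S, K, e', h1, h2, h3, h4⟩ := exists_deform e hsum hidem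
  obtain ⟨σ, hσ⟩ := exists_len S
  obtain ⟨M, hM⟩ := hmain K σ
  obtain ⟨ℓ, l1, l2, l3, l4⟩ := hσ (M + 1)
  obtain ⟨B, -, hB⟩ := l4 M (Nat.lt_succ_self M)
  refine ⟨B, fun tr c C hC hj => ?_⟩
  rw [← h4 tr c C hC]
  refine hM G A tr c e' C ⟨hC.c_nonneg, hC.bound, hC.comm, h1, h2, hC.conj⟩ ℓ l1
    (fun r hr => l4 r (Nat.lt_succ_of_le hr)) ?_ (h3 ℓ _ l1 l2 l3) fun g hg => ?_
  · refine Summable.of_nonneg_of_le (fun g => by positivity) (fun g => ?_)
      (h1.mul_right (1 + ((M + 1 : ℕ) : ℝ)))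
    have : (ℓ g : ℝ) ≤ ((M + 1 : ℕ) : ℝ) := by exact_mod_cast l2 g
    gcongr
  · obtain ⟨j, hj⟩ := hj g hg
    exact ⟨j, not_le.1 fun h => hj (hB _ h)⟩

section

attribute [local instance] Matrix.linftyOpNormedRing

theorem entry_le_norm {q : ℕ} (x : Matrix (Fin q) (Fin q) ℂ) (i j : Fin q) : ‖x i j‖ ≤ ‖x‖ := by
  have h : ‖x i j‖₊ ≤ ‖x‖₊ := by
    rw [Matrix.linfty_opNNNorm_def]
    exact (single_le_sum (f := fun j => ‖x i j‖₊) (fun _ _ => zero_le) (mem_univ j)).trans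
      (le_sup (f := fun i => ∑ j, ‖x i j‖₊) (mem_univ i))
  exact h

theorem norm_le_entries {q : ℕ} (x : Matrix (Fin q) (Fin q) ℂ) : ‖x‖ ≤ ∑ i, ∑ j, ‖x i j‖ := by
  have h : ‖x‖₊ ≤ ∑ i, ∑ j, ‖x i j‖₊ := by
    rw [Matrix.linfty_opNNNorm_def]
    exact Finset.sup_le fun i _ =>
      single_le_sum (f := fun i => ∑ j, ‖x i j‖₊) (fun _ _ => zero_le) (mem_univ i)
  have h2 := NNReal.coe_le_coe.2 h
  simpa only [NNReal.coe_sum, coe_nnnorm] using h2

theorem trace_le_norm {q : ℕ} (x : Matrix (Fin q) (Fin q) ℂ) : ‖x.trace‖ ≤ q * ‖x‖ := by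
  refine (norm_sum_le _ _).trans ((sum_le_sum fun i _ => entry_le_norm x i i).trans ?_)
  simp

/-- The conjecture for matrices over the complex numbers. -/
theorem bass_of_main (hmain : MainStmt.{u, 0}) (G : Type u) [Group G] (q : ℕ)
    (e : Matrix (Fin q) (Fin q) (G → ℂ))
    (hsum : ∀ i j, Summable (fun g => ‖e i j g‖))
    (hidem : ∀ i j g, e i j g = ∑ l, ∑' h, e i l h * e l j (h⁻¹ * g)) :
    ∃ F : Finset (ConjClasses G), (∀ c ∈ F, ∀ g, ConjClasses.mk g = c → IsOfFinOrder g) ∧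
      ∀ c ∉ F, ∑' g : c.carrier, ∑ i, e i i g = 0 := by
  classical
  rcases Nat.eq_zero_or_pos q with rfl | hq
  · exact ⟨∅, by simp, by simp⟩
  have : Nonempty (Fin q) := ⟨⟨0, hq⟩⟩
  have : NormOneClass (Matrix (Fin q) (Fin q) ℂ) := Matrix.linfty_opNormOneClass
  have : @CompleteSpace (Matrix (Fin q) (Fin q) ℂ) PseudoMetricSpace.toUniformSpace :=
    (inferInstance : CompleteSpace (Fin q → Fin q → ℂ))
  let E : G → Matrix (Fin q) (Fin q) ℂ := fun g => Matrix.of fun i j => e i j g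
  have s1 : Summable fun g => ‖E g‖ :=
    Summable.of_nonneg_of_le (fun _ => norm_nonneg _) (fun g => norm_le_entries (E g))
      (summable_sum fun i _ => summable_sum fun j _ => hsum i j)
  have s2 : ∀ g, HasSum (fun h => E h * E (h⁻¹ * g)) (E g) := by
    intro g
    have b : ∀ i l j, Summable fun h => e i l h * e l j (h⁻¹ * g) := fun i l j => by
      refine Summable.of_norm_bounded ((hsum i l).mul_right (∑' x, ‖e l j x‖)) fun h => ?_
      rw [norm_mul]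
      exact mul_le_mul_of_nonneg_left ((hsum l j).le_tsum _ fun _ _ => norm_nonneg _)
        (norm_nonneg _)
    have a : Summable fun h => E h * E (h⁻¹ * g) := by
      refine Summable.of_norm_bounded (s1.mul_right (∑' x, ‖E x‖)) fun h => ?_
      exact (norm_mul_le _ _).trans
        (mul_le_mul_of_nonneg_left (s1.le_tsum _ fun _ _ => norm_nonneg _) (norm_nonneg _))
    have c : ∑' h, E h * E (h⁻¹ * g) = E g := by
      ext i j
      let φ : Matrix (Fin q) (Fin q) ℂ →+ ℂ := ⟨⟨fun x => x i j, rfl⟩, fun _ _ => rfl⟩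
      have hφ : Continuous φ := AddMonoidHomClass.continuous_of_bound φ 1 fun x => by
        rw [one_mul]
        exact entry_le_norm x i j
      have d := (a.hasSum.map φ hφ).tsum_eq
      change ∑' h, (E h * E (h⁻¹ * g)) i j = (∑' h, E h * E (h⁻¹ * g)) i j at d
      rw [← d]
      change ∑' h, ∑ l, e i l h * e l j (h⁻¹ * g) = e i j g
      rw [hidem i j g, Summable.tsum_finsetSum fun l _ => b i l j]
    exact c ▸ a.hasSum
  obtain ⟨B, hB⟩ := abstract_bass hmain E s1 s2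
  refine ⟨(B.image ConjClasses.mk).filter fun c => ∃ g, ConjClasses.mk g = c ∧ ∀ j : ℕ, g ^ j ∈ B,
    fun c hc g hg => ?_, fun c hc => ?_⟩
  · obtain ⟨g', h1, h2⟩ := (mem_filter.1 hc).2
    have h3 : IsOfFinOrder g' := by
      by_contra h
      exact Set.infinite_of_injective_forall_mem (injective_pow_iff_not_isOfFinOrder.2 h) h2
        B.finite_toSet
    obtain ⟨x, hx⟩ := isConj_iff.1 (ConjClasses.mk_eq_mk_iff_isConj.1 (h1.trans hg.symm))
    rw [← hx]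
    exact (MulAut.conj x).toMonoidHom.isOfFinOrder h3
  have h1 : ∀ g ∈ c.carrier, ∃ j : ℕ, g ^ j ∉ B := by
    intro g hg
    by_contra h
    push Not at h
    have hg' := ConjClasses.mem_carrier_iff_mk_eq.1 hg
    exact hc (mem_filter.2 ⟨mem_image.2 ⟨g, by simpa using h 1, hg'⟩, g, hg', h⟩)
  have h2 : ∀ ψ : ℂ →L[ℝ] ℝ, (∀ z, |ψ z| ≤ ‖z‖) → ψ (∑' g : c.carrier, ∑ i, e i i g) = 0 := by
    intro ψ hψ
    let tr : Matrix (Fin q) (Fin q) ℂ →+ ℝ :=
      (ψ : ℂ →+ ℝ).comp (Matrix.traceAddMonoidHom (Fin q) ℂ)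
    have h3 := hB tr q c.carrier ⟨Nat.cast_nonneg _, fun x => (hψ _).trans (trace_le_norm x),
      fun x y => congrArg ψ (Matrix.trace_mul_comm x y), s1, s2, fun x g hg => ?_⟩ h1
    · have h4 : Summable fun g : c.carrier => ∑ i, e i i g :=
        summable_sum fun i _ => ((hsum i i).of_norm).subtype _
      rw [ψ.map_tsum h4]
      rw [tauC, ← _root_.tsum_subtype] at h3
      exact h3
    · rw [ConjClasses.mem_carrier_iff_mk_eq] at hg ⊢
      rw [← hg]
      exact ConjClasses.mk_eq_mk_iff_isConj.2 (isConj_iff.2 ⟨x, rfl⟩).symm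
  exact Complex.ext (h2 Complex.reCLM Complex.abs_re_le_norm)
    (h2 Complex.imCLM Complex.abs_im_le_norm)

end

end Vale.Agent.P184
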