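import Vale.Agent.P184.MainC
import Vale.Agent.P184.Lin
import Vale.Agent.P184.KeyIneq
import Vale.Agent.P184.Params
import Vale.Agent.P184.Reduce

/-!
# P184: the weighted vanishing theorem
-/

namespace Vale.Agent.P184

open Finset Filter

universe u v

theorem factorial_add_le (k : ℕ) :
    ((k + k).factorial : ℝ) ≤ 4 ^ k * (k.factorial * k.factorial) := by
  have h1 := Nat.add_choose_mul_factorial_mul_factorial k k
  have h2 : (k + k).choose k ≤ 2 ^ (k + k) := Nat.choose_le_two_pow _ _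
  have h3 : (k + k).factorial ≤ 4 ^ k * (k.factorial * k.factorial) := by
    rw [← h1, mul_assoc]
    refine Nat.mul_le_mul_right _ (h2.trans (le_of_eq ?_))
    rw [← two_mul, pow_mul]
    norm_num
  exact_mod_cast h3

theorem exists_mu (a b x : ℝ) (hx : 0 < x) (n : ℕ) (hn : 0 < n) :
    ∃ μ : ℕ, 0 < μ ∧ (n : ℝ) * (a / μ + b / ((n * μ : ℕ) : ℝ)) ≤ x ^ 2 := by
  obtain ⟨μ, hμ⟩ := exists_nat_gt (max ((n * a + b) / x ^ 2) 0)
  have hμ0 : (0 : ℝ) < μ := lt_of_le_of_lt (le_max_right _ _) hμ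
  have hn0 : (0 : ℝ) < n := by exact_mod_cast hn
  refine ⟨μ, by exact_mod_cast hμ0, ?_⟩
  have h1 : (n * a + b) / x ^ 2 < μ := lt_of_le_of_lt (le_max_left _ _) hμ
  rw [div_lt_iff₀ (by positivity)] at h1
  have e : (n : ℝ) * (a / μ + b / ((n * μ : ℕ) : ℝ)) = (n * a + b) / μ := by
    push_cast
    field_simp
  rw [e, div_le_iff₀ hμ0]
  linarith

/-- The estimate for a fixed number of letters. -/
theorem tau_le {G : Type u} [Group G] {A : Type v} [NormedRing A] [NormOneClass A]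
    [CompleteSpace A] {tr : A →+ ℝ} {cc : ℝ} {e : G → A} {C : Set G} (hI : Idem tr cc e C)
    {ℓ : G → ℕ} (hℓ : IsLen ℓ) {τ σ J H0 : ℕ} {H : ℕ → ℕ} {x K : ℝ} (hx : 0 < x)
    (hτ : 0 < τ) (hH0 : 0 < H0) (hH : ∀ j, 0 < H j)
    (h0 : (128 : ℝ) ^ 2 * (2 * H0) ≤ (τ : ℝ) ^ 2 * x ^ 4)
    (hw : ∀ j < J, (128 : ℝ) ^ 2 * (H j * Aj τ σ j ^ 2 * gam τ σ H0 H 2 (zj j) j ^ 2 / zj j) ≤
        (x / 2 ^ (j + 1)) ^ 4)
    (hd : (2 * (2 : ℝ) ^ (σ * (2 ^ J * τ))) ^ 2 *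
        (4 * ((2 : ℝ) ^ (σ * (2 ^ J * τ)) + 2) * Aj τ σ J ^ 2 *
          gam τ σ H0 H ((2 : ℝ) ^ (σ * (2 ^ J * τ)) + 2) (zj J) J ^ 2 / zj J ^ 2) ≤
        (x / 2 ^ (J + 1)) ^ 4)
    (hball : ∀ r ≤ 2 ^ J * τ, ∃ B : Finset G, B.card ≤ 2 ^ (σ * r) ∧ ∀ x, ℓ x ≤ r → x ∈ B)
    (hsum : Summable fun g => ‖e g‖ * (1 + (ℓ g : ℝ)))
    (hK : ∑' g, ‖e g‖ * (1 + (ℓ g : ℝ)) ≤ K)
    (hfar : ∀ g ∈ C, ∃ j : ℕ, 2 ^ J * τ < ℓ (g ^ j)) :
    ∃ c' : ℝ, ∀ k : ℕ, H0 + ∑ j ∈ range J, H j < k →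
      |tauC tr e C| ≤ cc * K * ((256 * Real.exp 2 * K ^ 2 * x ^ 2) ^ k * (1 + c' * k ^ 2)) := by
  obtain ⟨c, hc, hlin⟩ := exists_lin.{u} τ σ J
  set Q : ℝ := 2 ^ (σ * (2 ^ J * τ)) with hQ
  set W : ℝ := 128 + J * 128 + 2 * Q with hW
  have hQ0 : 0 < Q := by positivity
  have hW0 : 0 < W := by positivity
  have hK0 : 0 ≤ K := le_trans (tsum_nonneg fun g => by positivity) hK
  refine ⟨2 * W ^ 2 * (2 + 4 * c) * (1 + 2 * Q * c) / x ^ 2, fun k hk => ?_⟩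
  have hk0 : 0 < k := by omega
  have hkR : (1 : ℝ) ≤ k := by exact_mod_cast hk0
  obtain ⟨μ, hμ, hη⟩ := exists_mu
    (W * (2 * Q * c ^ 2 * ((k + k : ℕ) : ℝ) ^ 4 + 2 * ((k + k : ℕ) : ℝ) * c ^ 2))
    (2 * (W * (2 + 2 * ((k + k : ℕ) : ℝ) * c)) * (((k + k : ℕ) : ℝ) *
      (W * (2 + Q * ((k + k : ℕ) : ℝ) ^ 2 * c ^ 2)) + W * (2 + 2 * ((k + k : ℕ) : ℝ) * c)))
    x hx (k + k) (by omega)
  let P : Par := ⟨τ, σ, J, (k + k) * μ, H0 * μ, fun j => H j * μ⟩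
  have hS : Scaled P H0 H (k + k) μ :=
    ⟨hμ, hH0, by omega, by change ∑ j ∈ range J, H j ≤ k + k; omega, rfl, rfl, rfl⟩
  have hP : Good ℓ P := by
    refine ⟨hℓ, hτ, Nat.mul_pos hH0 hμ, ?_, fun j => Nat.mul_pos (hH j) hμ, fun j hj => ?_⟩
    · exact Nat.mul_lt_mul_of_pos_right (by omega) hμ
    · exact hball _ (Nat.mul_le_mul_right _ (Nat.pow_le_pow_right (by norm_num) hj))
  have hm0 : 0 < P.m := lt_of_le_of_lt (Nat.zero_le _) hP.h0_lt
  have : NeZero P.m := ⟨hm0.ne'⟩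
  have hmR : (0 : ℝ) < P.m := by exact_mod_cast hm0
  have hμR : (1 : ℝ) ≤ μ := by exact_mod_cast hμ
  have hH0R : (1 : ℝ) ≤ H0 := by exact_mod_cast hH0
  have hμh : (μ : ℝ) ≤ P.h0 := by
    change (μ : ℝ) ≤ ((H0 * μ : ℕ) : ℝ)
    push_cast
    nlinarith
  have hQP : Q = P.Q P.J := by
    rw [hQ]; simp [P, Par.Q, Par.r]
  obtain ⟨R, hR⟩ := exists_abs_bker_le hP
  set y : ℝ := (τ : ℝ) ^ 2 * x ^ 4 / 128 ^ 2 with hy
  have hτR : (0 : ℝ) < τ := by exact_mod_cast hτ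
  have hy0 : 0 < y := by positivity
  set γ : ℝ := 1 + 2 * (W * (2 + 2 * ((k + k : ℕ) : ℝ) * c)) *
    (W * (((k + k : ℕ) : ℝ) * μ * (1 + Q * ((k + k : ℕ) : ℝ) * c))) / P.m / x ^ 2 with hγ
  have hγ0 : 0 ≤ γ := by positivity
  have key := key_ineq hI k P.m (bker ℓ P) R hR (fun z v v' => bker_left z v v')
    (fun g _ v v' hv hv' => bker_shift hv hv') (fun g => 1 + (ℓ g : ℝ))
    (fun g => by have : (0 : ℝ) ≤ ℓ g := by positivity
                 linarith) hsum K hK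
    (fun a => ((P.m : ℝ) ^ k)⁻¹ * ((4 * x) ^ (2 * k) *
      (Del0 P.h0 y a * Real.exp ((k + k : ℕ) : ℝ) * γ)))
    (fun a => by
      have : 0 ≤ Del0 P.h0 y a := prod_nonneg fun i _ => Real.sqrt_nonneg _
      positivity)
    (fun a Hl u g hg hq hu π => by
      refine minor_bker hP u g hq (fun z => ?_) (fun i => by
        have : (0 : ℝ) ≤ ℓ (Hl i) := by positivity
        linarith) hx (η := W * ((2 * Q * c ^ 2 * ((k + k : ℕ) : ℝ) ^ 4 +
          2 * ((k + k : ℕ) : ℝ) * c ^ 2) / μ)) (C := W * (2 + Q * ((k + k : ℕ) : ℝ) ^ 2 * c ^ 2))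
          (by positivity) (by positivity) (by positivity)
        (by positivity) (fun Y => ?_) ?_ π
      · have := hI.conj z⁻¹ g hg
        rw [inv_inv] at this
        exact hfar _ this
      · obtain ⟨lin, ω, B, k1, k2, k3⟩ := hlin G ℓ P hP rfl rfl rfl Y (k + k) a Hl u hu
        refine levelOK_num hP hS hx hc hQP (lin := lin) (ω := ω) (B := B) ⟨?_, k2, k3⟩ g a hu
          hw hd hW
        intro j hj i t
        have hμ0 : (0 : ℝ) < μ := by linarith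
        have e1 : c / P.h0 ≤ c / μ := div_le_div_of_nonneg_left hc hμ0 hμh
        have e2 : c * ((k + k : ℕ) : ℝ) ^ 2 / (P.h0 : ℝ) ^ 2 ≤
            c * ((k + k : ℕ) : ℝ) ^ 2 / μ ^ 2 :=
          div_le_div_of_nonneg_left (by positivity) (by positivity)
            (pow_le_pow_left₀ hμ0.le hμh 2)
        obtain ⟨l1, l2, l3⟩ := k1 j hj i t
        exact ⟨l1.trans e1, l2.trans e1, l3.trans e2⟩
      · rw [← mul_div_assoc]
        exact hη)
  have hDel : ∑ a : Fin (k + k) → ZMod P.m, Del0 P.h0 y a ≤ (2 * P.m : ℝ) ^ (k + k) := by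
    refine sum_Del0_le _ _ hy0 ?_
    have h1 : 2 * (H0 : ℝ) ≤ y := by
      rw [hy, le_div_iff₀ (by norm_num)]; linarith
    change ((k + k : ℕ) : ℝ) * (((H0 * μ : ℕ) : ℝ) + 1) ≤ y * (((k + k) * μ : ℕ) : ℝ)
    push_cast
    have h2 : (H0 : ℝ) * μ + 1 ≤ y * μ := by nlinarith
    have := mul_le_mul_of_nonneg_left h2 (by positivity : (0 : ℝ) ≤ k + k)
    linarith
  have hγle : γ ≤ 1 + 2 * W ^ 2 * (2 + 4 * c) * (1 + 2 * Q * c) / x ^ 2 * k ^ 2 := by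
    have em : (P.m : ℝ) = ((k + k : ℕ) : ℝ) * μ := by simp [P]
    have hkk : ((k + k : ℕ) : ℝ) = 2 * k := by push_cast; ring
    rw [hγ, em, hkk]
    have e : 2 * (W * (2 + 2 * (2 * (k : ℝ)) * c)) *
        (W * (2 * k * μ * (1 + Q * (2 * k) * c))) / (2 * k * μ) / x ^ 2 =
        2 * W ^ 2 * ((2 + 4 * k * c) * (1 + 2 * Q * k * c)) / x ^ 2 := by
      field_simp
      ring
    rw [e]
    have a1 : 2 + 4 * k * c ≤ (2 + 4 * c) * k := by linarith
    have a2 : 1 + 2 * Q * k * c ≤ (1 + 2 * Q * c) * k := by linarith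
    have a3 := mul_le_mul a1 a2 (by positivity) (by positivity)
    have e2 : 2 * W ^ 2 * (2 + 4 * c) * (1 + 2 * Q * c) / x ^ 2 * k ^ 2 =
        2 * W ^ 2 * ((2 + 4 * c) * k * ((1 + 2 * Q * c) * k)) / x ^ 2 := by ring
    rw [e2]
    gcongr
  have hcc := hI.c_nonneg
  have hf : (0 : ℝ) < (k.factorial : ℝ) := by positivity
  have hmk : (0 : ℝ) < (P.m : ℝ) ^ k := pow_pos hmR k
  have hsumβ : ∑ a : Fin (k + k) → ZMod P.m, ((P.m : ℝ) ^ k)⁻¹ * ((4 * x) ^ (2 * k) *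
      (Del0 P.h0 y a * Real.exp ((k + k : ℕ) : ℝ) * γ)) ≤
      (P.m : ℝ) ^ k * ((64 * Real.exp 2 * x ^ 2) ^ k * γ) := by
    have e : ∀ a : Fin (k + k) → ZMod P.m, ((P.m : ℝ) ^ k)⁻¹ * ((4 * x) ^ (2 * k) *
        (Del0 P.h0 y a * Real.exp ((k + k : ℕ) : ℝ) * γ)) =
        (((P.m : ℝ) ^ k)⁻¹ * ((4 * x) ^ (2 * k) * (Real.exp ((k + k : ℕ) : ℝ) * γ))) *
          Del0 P.h0 y a := fun a => by ring
    simp only [e]
    rw [← mul_sum]
    refine (mul_le_mul_of_nonneg_left hDel (by positivity)).trans (le_of_eq ?_)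
    have e2 : Real.exp ((k + k : ℕ) : ℝ) = Real.exp 2 ^ k := by
      rw [← Real.exp_nat_mul]; congr 1; push_cast; ring
    have e3 : (64 * Real.exp 2 * x ^ 2) ^ k = (4 * x) ^ (2 * k) * (Real.exp 2 ^ k * (2 ^ k * 2 ^ k)) := by
      rw [pow_mul, ← mul_pow, ← mul_pow, ← mul_pow]
      congr 1
      ring
    rw [e2, e3, pow_add, mul_pow 2]
    field_simp
  have hfin : |tauC tr e C| * ((P.m : ℝ) ^ k * (k.factorial * k.factorial)) ≤
      (cc * K * ((256 * Real.exp 2 * K ^ 2 * x ^ 2) ^ k * γ)) *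
        ((P.m : ℝ) ^ k * (k.factorial * k.factorial)) := by
    calc |tauC tr e C| * ((P.m : ℝ) ^ k * (k.factorial * k.factorial))
        = |tauC tr e C| * (P.m : ℝ) ^ k * k.factorial * k.factorial := by ring
      _ ≤ _ := key
      _ ≤ (4 ^ k * (k.factorial * k.factorial)) * cc * K ^ (k + k + 1) *
          ((P.m : ℝ) ^ k * ((64 * Real.exp 2 * x ^ 2) ^ k * γ)) := by
        refine mul_le_mul ?_ hsumβ (sum_nonneg fun a _ => ?_) (by positivity)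
        · have := factorial_add_le k
          gcongr
        · have : 0 ≤ Del0 P.h0 y a := prod_nonneg fun i _ => Real.sqrt_nonneg _
          positivity
      _ = _ := by
        rw [show (256 * Real.exp 2 * K ^ 2 * x ^ 2) = 4 * (K * K) * (64 * Real.exp 2 * x ^ 2) by
          ring, mul_pow (4 * (K * K)), mul_pow 4, mul_pow K K, pow_succ, pow_add]
        ring
  refine (le_of_mul_le_mul_right hfin (by positivity)).trans ?_
  gcongr

theorem mainStmt : MainStmt.{u, v} := by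
  intro K σ
  have hx : 0 < 1 / (96 * (|K| + 1)) := by positivity
  obtain ⟨τ, J, H0, H, hτ, hH0, hH, h0, hw, hd⟩ := exists_params _ hx σ
  refine ⟨2 ^ J * τ, ?_⟩
  intro G _ A _ _ _ tr cc e C hI ℓ hℓ hball hsum hK hfar
  obtain ⟨c', hc'⟩ := tau_le hI hℓ hx hτ hH0 hH h0 hw hd hball hsum hK hfar
  set r : ℝ := 256 * Real.exp 2 * K ^ 2 * (1 / (96 * (|K| + 1))) ^ 2 with hr
  have hr0 : 0 ≤ r := by positivity
  have hr1 : r < 1 := by
    have he : Real.exp 2 ≤ 9 := by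
      have h1 := Real.exp_one_lt_d9
      have h2 : Real.exp 2 = Real.exp 1 * Real.exp 1 := by rw [← Real.exp_add]; norm_num
      have h3 := Real.exp_pos 1
      nlinarith
    have hK2 : K ^ 2 ≤ (|K| + 1) ^ 2 := by
      rw [← sq_abs K]
      have := abs_nonneg K
      nlinarith
    have e : r = 256 * (Real.exp 2 * K ^ 2) / (96 ^ 2 * (|K| + 1) ^ 2) := by
      rw [hr]; field_simp
    rw [e, div_lt_one (by positivity)]
    have h4 : Real.exp 2 * K ^ 2 ≤ 9 * (|K| + 1) ^ 2 :=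
      mul_le_mul he hK2 (by positivity) (by norm_num)
    have h5 : 0 < (|K| + 1) ^ 2 := by positivity
    nlinarith
  have habs : |r| < 1 := by rwa [abs_of_nonneg hr0]
  have hlim : Tendsto (fun k : ℕ => cc * K * (r ^ k * (1 + c' * k ^ 2))) atTop (nhds 0) := by
    have t0 := tendsto_pow_atTop_nhds_zero_of_lt_one hr0 hr1
    have t2 := tendsto_pow_const_mul_const_pow_of_abs_lt_one 2 habs
    have t3 := (t0.add (t2.const_mul c')).const_mul (cc * K)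
    simp only [mul_zero, add_zero] at t3
    refine t3.congr fun k => ?_
    ring
  have hle : |tauC tr e C| ≤ 0 :=
    ge_of_tendsto hlim ((eventually_gt_atTop _).mono fun k hk => hc' k hk)
  exact abs_nonpos_iff.1 hle

end Vale.Agent.P184
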