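import Vale.Agent.P184.FeatB
import Vale.Agent.P184.ChainBd
import Vale.Agent.P184.LevelAlg

/-!
# P184: the estimates for the levels given by bilinear forms
-/

namespace Vale.Agent.P184

open Finset

variable {G : Type*} [Group G] {ℓ : G → ℕ} {P : Par}

theorem levelOK_window (hP : Good ℓ P) (Y : Finset G) {n : ℕ} (u : Fin (n + 1) → ℕ → G)
    {lam : Fin n → ℝ} {J : ℕ} {A : ℕ → ℝ} {Tmax : ℕ} {β0 : ℝ} {ω : ℕ → ℕ → G → ℝ}
    {B : ℕ → ℕ → G → Fin n → ℝ} (hc : Chain Y lam J P.h A Tmax β0 ω B) {j : ℕ} (hj : j ≤ J)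
    (lin : Fin n → ℕ → G → ℝ) (hlin : ∀ i t x, lin i t x = ω j t x * B j t x i)
    {ε ε₂ : ℝ} (hε : 0 ≤ ε) (hε₂ : 0 ≤ ε₂)
    (h : ∀ (i : Fin n) t,
      l1 Y (Ft (sumY Y) ℓ P j (u i.succ) t - Ft (sumY Y) ℓ P j (u i.castSucc) t) ≤ ε ∧
      l1 Y (lin i t) ≤ ε ∧
      l1 Y (Ft (sumY Y) ℓ P j (u i.succ) t - Ft (sumY Y) ℓ P j (u i.castSucc) t - lin i t) ≤ ε₂)
    {s x : ℝ} (hs : 0 < s) (hT : P.m + P.h j + ∑ i ∈ range j, P.h i ≤ Tmax)
    (hx : P.m * P.h j * A j ^ 2 * Gam P.h A Tmax β0 s j ^ 2 / s ≤ x ^ 4) :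
    LevelOK (fun p q => numL (sumY Y) ℓ P j (u p) (u q))
      (fun p q => numL (sumY Y) ℓ P j (u p) (Tsh (u q))) lam x (Real.exp ((j + 1) * s))
      (2 * P.m * P.h j * ε * ε₂ + 2 * P.m * ε ^ 2) (2 * P.m * ε) (P.m * P.h j * ε)
      (P.m * P.h j * ε ^ 2) := by
  have hD := hc.minorBd_window hs j hj P.m (P.h j) hT
    (fun _ x s y => if s < P.h j then saw (P.h j) s * kb ℓ (P.r j) x y else 0)
    (fun a x s y => by
      split_ifs with hs'
      · rw [abs_mul]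
        have h1 := abs_saw_le hs'
        have h2 : |kb ℓ (P.r j) x y| ≤ 1 := by
          unfold kb; split_ifs <;> simp
        exact mul_le_one₀ h1 (abs_nonneg _) h2
      · simp) hx
  have key := levelOK_bilin (lam := lam) (x := x) (Δ := Real.exp ((j + 1) * s)) (l1 Y)
    (BL (sumY Y) ℓ P j) P.m (P.h j) ε ε₂ (BL_sub_left Y j) (BL_sub_right Y j) (abs_BL_le Y j)
    (abs_BL_shift_le Y hP j) (by positivity) hε hε₂ (fun p a => Ft (sumY Y) ℓ P j (u p) a) lin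
    (fun p a => l1_Ft_le_one Y j _ a) (fun i a => (h i a).1) (fun i a => (h i a).2.1)
    (fun i a => (h i a).2.2) (by
      have e : (fun i l => ∑ a ∈ range P.m, BL (sumY Y) ℓ P j (lin i a) (fun u => lin l (a + u))) =
          (fun i l => ∑ a ∈ range P.m, ∑ u ∈ range (P.h j), ∑ x ∈ Y, ∑ y ∈ Y,
            (ω j a x * B j a x i) *
              (if u < P.h j then saw (P.h j) u * kb ℓ (P.r j) x y else 0) *
              (ω j (a + u) y * B j (a + u) y l)) := by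
        funext i l
        refine sum_congr rfl fun a _ => ?_
        unfold BL sumY
        refine sum_congr rfl fun s hs' => ?_
        rw [mul_sum]
        refine sum_congr rfl fun x _ => ?_
        rw [mul_sum, mul_sum]
        refine sum_congr rfl fun y _ => ?_
        rw [if_pos (mem_range.1 hs')]
        simp only [hlin]
        ring
      rw [e]
      exact hD)
  unfold numL
  simp only [Ft_shift]
  exact key

theorem levelOK_delta (hP : Good ℓ P) (Y : Finset G) (g : G) {n : ℕ} (u : Fin (n + 1) → ℕ → G)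
    {lam : Fin n → ℝ} {A : ℕ → ℝ} {Tmax : ℕ} {β0 : ℝ} {ω : ℕ → ℕ → G → ℝ}
    {B : ℕ → ℕ → G → Fin n → ℝ} (hc : Chain Y lam P.J P.h A Tmax β0 ω B)
    (lin : Fin n → ℕ → G → ℝ) (hlin : ∀ i t x, lin i t x = ω P.J t x * B P.J t x i)
    {ε ε₂ : ℝ} (hε : 0 ≤ ε) (hε₂ : 0 ≤ ε₂)
    (h : ∀ (i : Fin n) t,
      l1 Y (Ft (sumY Y) ℓ P P.J (u i.succ) t - Ft (sumY Y) ℓ P P.J (u i.castSucc) t) ≤ ε ∧
      l1 Y (lin i t) ≤ ε ∧
      l1 Y (Ft (sumY Y) ℓ P P.J (u i.succ) t - Ft (sumY Y) ℓ P P.J (u i.castSucc) t -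
        lin i t) ≤ ε₂)
    {s x : ℝ} (hs : 0 < s) (hT : P.m + P.Q P.J * P.m + ∑ i ∈ range P.J, P.h i ≤ Tmax)
    (hx : 4 * P.m * Tmax * A P.J ^ 2 * Gam P.h A Tmax β0 s P.J ^ 2 / s ^ 2 ≤ x ^ 4) :
    LevelOK (fun p q => numD (sumY Y) ℓ P g (u p) (u q))
      (fun p q => numD (sumY Y) ℓ P g (u p) (Tsh (u q))) lam x (Real.exp ((P.J + 1) * s))
      (2 * P.m * (P.Q P.J * P.m : ℕ) * ε * ε₂ + 2 * P.m * ε ^ 2) (2 * P.m * ε)
      (P.m * (P.Q P.J * P.m : ℕ) * ε) (P.m * (P.Q P.J * P.m : ℕ) * ε ^ 2) := by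
  have hD := hc.minorBd_delta hs P.J le_rfl P.m (P.Q P.J * P.m) hT
    (fun x => jx ℓ (P.r P.J) g x * P.m) (fun x => Nat.mul_le_mul_right _ (jx_le hP g x)) hx
  have hD' := hD.smul (-1) 1 (by simp)
  rw [one_mul] at hD'
  have key := levelOK_bilin (lam := lam) (x := x) (Δ := Real.exp ((P.J + 1) * s)) (l1 Y)
    (BD (sumY Y) ℓ P g) P.m (P.Q P.J * P.m : ℕ) ε ε₂ (BD_sub_left Y g) (BD_sub_right Y g)
    (abs_BD_le Y hP g) (abs_BD_shift_le Y g) (by positivity) hε hε₂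
    (fun p a => Ft (sumY Y) ℓ P P.J (u p) a) lin
    (fun p a => l1_Ft_le_one Y P.J _ a) (fun i a => (h i a).1) (fun i a => (h i a).2.1)
    (fun i a => (h i a).2.2) (by
      have e : (fun i l => ∑ a ∈ range P.m, BD (sumY Y) ℓ P g (lin i a) (fun u => lin l (a + u))) =
          (fun i l => -1 * ∑ a ∈ range P.m, ∑ x ∈ Y, (ω P.J a x * B P.J a x i) *
            ∑ u ∈ range (jx ℓ (P.r P.J) g x * P.m), (ω P.J (a + u) x * B P.J (a + u) x l)) := by
        funext i l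
        rw [mul_sum]
        refine sum_congr rfl fun a _ => ?_
        unfold BD sumY
        simp only [hlin]
        ring
      rw [e]
      exact hD')
  unfold numD
  simp only [Ft_shift]
  exact key

end Vale.Agent.P184
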