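import Vale.Agent.P184.MainA

/-!
# P184: the estimates for the whole numerator
-/

namespace Vale.Agent.P184

open Finset

theorem zj_pos (j : ℕ) : 0 < zj j := by unfold zj; positivity

theorem Gam_eq (τ σ H0 : ℕ) (H : ℕ → ℕ) (n μ ρ : ℕ) (hn : 0 < n) (hμ : 0 < μ) (z : ℝ)
    (j : ℕ) :
    Gam (fun j => H j * μ) (Aj τ σ) (ρ * (n * μ)) (ρ * Aj τ σ 0 / (τ ^ 2 * (H0 * μ : ℕ)))
      (n * z) j = gam τ σ H0 H ρ z j / μ := by
  have hn' : (n : ℝ) ≠ 0 := by positivity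
  have hμ' : (μ : ℝ) ≠ 0 := by positivity
  unfold Gam gam
  have e : ∀ i ∈ range j, ((ρ * (n * μ) : ℕ) : ℝ) * Aj τ σ (i + 1) * Aj τ σ i /
      ((H i * μ : ℕ) * (n * z)) = ρ * Aj τ σ (i + 1) * Aj τ σ i / (H i * z) := by
    intro i _
    push_cast
    rw [show (ρ : ℝ) * (n * μ) * Aj τ σ (i + 1) * Aj τ σ i =
      (n * μ) * (ρ * Aj τ σ (i + 1) * Aj τ σ i) by ring,
      show (H i : ℝ) * μ * (n * z) = (n * μ) * (H i * z) by ring,
      mul_div_mul_left _ _ (mul_ne_zero hn' hμ')]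
  rw [prod_congr rfl e]
  push_cast
  rw [← mul_assoc, ← div_div]
  ring

theorem LevelOK.weight {n : ℕ} {np nm : Fin (n + 1) → Fin (n + 1) → ℝ} {lam : Fin n → ℝ}
    {x Δ η c1 c2 C w : ℝ} (hw : 0 < w) (h : LevelOK np nm lam (x / Real.sqrt w) Δ η c1 c2 C) :
    LevelOK (fun p q => w * np p q) (fun p q => w * nm p q) lam x Δ
      (w * η) (w * c1) (w * c2) (w * C) := by
  have h' := h.smul w (Real.sqrt w) hw.le (by rw [Real.sq_sqrt hw.le])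
  have hs : Real.sqrt w ≠ 0 := (Real.sqrt_pos.2 hw).ne'
  rwa [mul_div_cancel₀ _ hs] at h'

theorem div_sqrt_pow_four {x w : ℝ} (hw : 0 < w) : (x / Real.sqrt w) ^ 4 = x ^ 4 / w ^ 2 := by
  rw [div_pow, show Real.sqrt w ^ 4 = (Real.sqrt w ^ 2) ^ 2 by ring, Real.sq_sqrt hw.le]

theorem sum_half_pow (J : ℕ) : ∑ j ∈ range J, (1 : ℝ) / 2 ^ (j + 1) = 1 - 1 / 2 ^ J := by
  induction J with
  | zero => simp
  | succ J ih => rw [sum_range_succ, ih]; field_simp; ring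

theorem zj_mul (j : ℕ) (n : ℝ) : ((j : ℝ) + 1) * (n * zj j) = n * (1 / 2 ^ (j + 1)) := by
  unfold zj
  field_simp

theorem LevelOK.weak {n : ℕ} {np nm : Fin (n + 1) → Fin (n + 1) → ℝ} {lam : Fin n → ℝ}
    (hlam : ∀ i, 0 ≤ lam i) {X Δ L c Q μ m : ℝ} (hX : 0 ≤ X) (hc : 0 ≤ c) (hμ0 : 0 < μ)
    (hm : m = n * μ) (hL : L ≤ Q * n * μ)
    (h : LevelOK np nm lam X Δ
        (2 * m * L * (c / μ) * (c * n ^ 2 / μ ^ 2) + 2 * m * (c / μ) ^ 2)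
        (2 * m * (c / μ)) (m * L * (c / μ)) (m * L * (c / μ) ^ 2)) :
    LevelOK np nm lam X Δ ((2 * Q * c ^ 2 * n ^ 4 + 2 * n * c ^ 2) / μ) (2 + 2 * n * c)
      (n * μ * (1 + Q * n * c)) (2 + Q * n ^ 2 * c ^ 2) := by
  have hLμ : L / μ ≤ Q * n := by rw [div_le_iff₀ hμ0]; exact hL
  refine h.mono hlam hX le_rfl le_rfl ?_ ?_ ?_ ?_
  · rw [hm]
    have e : 2 * (n * μ) * L * (c / μ) * (c * n ^ 2 / μ ^ 2) + 2 * (n * μ) * (c / μ) ^ 2 =
        (2 * (L / μ) * c ^ 2 * n ^ 3 + 2 * n * c ^ 2) / μ := by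
      field_simp
    rw [e]
    have : 2 * (L / μ) * c ^ 2 * n ^ 3 ≤ 2 * Q * c ^ 2 * n ^ 4 := by
      have := mul_le_mul_of_nonneg_right hLμ (by positivity : (0 : ℝ) ≤ 2 * c ^ 2 * n ^ 3)
      linarith
    exact div_le_div_of_nonneg_right (by linarith) hμ0.le
  · rw [hm]
    have e : 2 * (n * μ) * (c / μ) = 2 * n * c := by field_simp
    rw [e]; linarith
  · rw [hm]
    have e : (n * μ) * L * (c / μ) = n * L * c := by field_simp
    rw [e]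
    have := mul_le_mul_of_nonneg_right hL (by positivity : (0 : ℝ) ≤ n * c)
    have h0 : (0 : ℝ) ≤ n * μ := by positivity
    linarith
  · rw [hm]
    have e : (n * μ) * L * (c / μ) ^ 2 = n * (L / μ) * c ^ 2 := by field_simp
    rw [e]
    have := mul_le_mul_of_nonneg_right hLμ (by positivity : (0 : ℝ) ≤ n * c ^ 2)
    linarith

variable {G : Type*} [Group G] {ℓ : G → ℕ} {P : Par}

/-- The windows are proportional to `μ`. -/
structure Scaled (P : Par) (H0 : ℕ) (H : ℕ → ℕ) (n μ : ℕ) : Prop where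
  μ_pos : 0 < μ
  H0_pos : 0 < H0
  H0_lt : H0 < n
  sum_le : ∑ j ∈ range P.J, H j ≤ n
  m_eq : P.m = n * μ
  h0_eq : P.h0 = H0 * μ
  h_eq : P.h = fun j => H j * μ

/-- The output of the linearisation. -/
structure LinData (ℓ : G → ℕ) (P : Par) (Y : Finset G) {n : ℕ} (Hl : Fin n → G)
    (u : Fin (n + 1) → ℕ → G) (c : ℝ) (μ : ℕ) (lin : ℕ → Fin n → ℕ → G → ℝ)
    (ω : ℕ → ℕ → G → ℝ) (B : ℕ → ℕ → G → Fin n → ℝ) : Prop where
  h1 : ∀ j ≤ P.J, ∀ (i : Fin n) t,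
    l1 Y (Ft (sumY Y) ℓ P j (u i.succ) t - Ft (sumY Y) ℓ P j (u i.castSucc) t) ≤ c / μ ∧
    l1 Y (lin j i t) ≤ c / μ ∧
    l1 Y (Ft (sumY Y) ℓ P j (u i.succ) t - Ft (sumY Y) ℓ P j (u i.castSucc) t - lin j i t) ≤
      c * n ^ 2 / μ ^ 2
  h2 : ∀ j ≤ P.J, ∀ i t x, lin j i t x = ω j t x * B j t x i
  h3 : ∀ ρ : ℕ, Chain Y (fun i => 1 + (ℓ (Hl i) : ℝ)) P.J P.h (Aj P.τ P.σ) (ρ * P.m)
    (ρ * Aj P.τ P.σ 0 / (P.τ ^ 2 * P.h0)) ω B

variable {H0 : ℕ} {H : ℕ → ℕ} {n μ : ℕ} {x c Q : ℝ} {Y : Finset G} {Hl : Fin n → G}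
  {u : Fin (n + 1) → ℕ → G} {lin : ℕ → Fin n → ℕ → G → ℝ} {ω : ℕ → ℕ → G → ℝ}
  {B : ℕ → ℕ → G → Fin n → ℝ}

theorem level_zero (hP : Good ℓ P) (hS : Scaled P H0 H n μ) (hx : 0 < x) (hc : 0 ≤ c)
    (hQ : 1 ≤ Q) (a : Fin n → ZMod P.m) (hu : Steps P.m a Hl u) :
    LevelOK (fun p q => 128 * num0 ℓ P (u p) (u q))
      (fun p q => 128 * num0 ℓ P (u p) (Tsh (u q))) (fun i => 1 + (ℓ (Hl i) : ℝ)) x
      (Del0 P.h0 ((P.τ : ℝ) ^ 2 * x ^ 4 / 128 ^ 2) a)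
      (128 * ((2 * Q * c ^ 2 * n ^ 4 + 2 * n * c ^ 2) / μ)) (128 * (2 + 2 * n * c))
      (128 * (n * μ * (1 + Q * n * c))) (128 * (2 + Q * n ^ 2 * c ^ 2)) := by
  refine LevelOK.weight (by norm_num) ?_
  have hτR : (0 : ℝ) < P.τ := by exact_mod_cast hP.τ_pos
  have hQ0 : 0 ≤ Q := by linarith
  have k := levelOK_zero hP a Hl u hu (x := x / Real.sqrt 128)
    (y := (P.τ : ℝ) ^ 2 * x ^ 4 / 128 ^ 2) (by positivity) (by
      rw [div_sqrt_pow_four (by norm_num)]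
      exact le_of_eq (by ring))
  refine k.mono (fun i => by positivity) (by positivity) le_rfl le_rfl (by positivity) ?_ ?_ ?_
  · have : (0 : ℝ) ≤ 2 * n * c := by positivity
    linarith
  · rw [hS.h0_eq]
    have hHn : (H0 : ℝ) ≤ n := by exact_mod_cast hS.H0_lt.le
    have h5 : (H0 : ℝ) * μ ≤ n * μ := by gcongr
    have h6 : (0 : ℝ) ≤ n * μ * (Q * n * c) := by positivity
    push_cast
    linarith
  · have : (0 : ℝ) ≤ Q * n ^ 2 * c ^ 2 := by positivity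
    linarith

theorem level_window (hP : Good ℓ P) (hS : Scaled P H0 H n μ) (hx : 0 < x) (hc : 0 ≤ c)
    (hQ : 1 ≤ Q) (hL : LinData ℓ P Y Hl u c μ lin ω B) {j : ℕ} (hj : j < P.J)
    (hw : (128 : ℝ) ^ 2 * (H j * Aj P.τ P.σ j ^ 2 * gam P.τ P.σ H0 H 2 (zj j) j ^ 2 / zj j) ≤
        (x / 2 ^ (j + 1)) ^ 4) :
    LevelOK (fun p q => 128 * numL (sumY Y) ℓ P j (u p) (u q))
      (fun p q => 128 * numL (sumY Y) ℓ P j (u p) (Tsh (u q))) (fun i => 1 + (ℓ (Hl i) : ℝ))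
      (x / 2 ^ (j + 1)) (Real.exp (n * (1 / 2 ^ (j + 1))))
      (128 * ((2 * Q * c ^ 2 * n ^ 4 + 2 * n * c ^ 2) / μ)) (128 * (2 + 2 * n * c))
      (128 * (n * μ * (1 + Q * n * c))) (128 * (2 + Q * n ^ 2 * c ^ 2)) := by
  refine LevelOK.weight (by norm_num) ?_
  have hn0 : 0 < n := lt_of_le_of_lt (Nat.zero_le _) hS.H0_lt
  have hnR : (0 : ℝ) < n := by exact_mod_cast hn0
  have hμ0 : (0 : ℝ) < μ := by exact_mod_cast hS.μ_pos
  have hsum : ∑ i ∈ range (j + 1), H i ≤ n :=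
    (sum_le_sum_of_subset (range_subset_range.2 hj)).trans hS.sum_le
  rw [sum_range_succ] at hsum
  have hT : P.m + P.h j + ∑ i ∈ range j, P.h i ≤ 2 * P.m := by
    rw [hS.h_eq, hS.m_eq, ← sum_mul]
    have := Nat.mul_le_mul_right μ hsum
    rw [add_mul] at this
    simp only
    omega
  have k := levelOK_window hP Y u (hL.h3 2) hj.le (lin j) (hL.h2 j hj.le) (by positivity)
    (by positivity) (hL.h1 j hj.le)
    (s := n * zj j) (x := x / 2 ^ (j + 1) / Real.sqrt 128) (mul_pos hnR (zj_pos j)) hT (by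
      rw [div_sqrt_pow_four (by norm_num), le_div_iff₀ (by norm_num)]
      refine le_trans (le_of_eq ?_) hw
      have eG := Gam_eq P.τ P.σ H0 H n μ 2 hn0 hS.μ_pos (zj j) j
      rw [hS.h_eq, hS.m_eq, hS.h0_eq, eG]
      have := (zj_pos j).ne'
      push_cast
      field_simp)
  rw [zj_mul] at k
  refine k.weak (fun i => by positivity) (by positivity) hc hμ0
    (by rw [hS.m_eq]; push_cast; ring) ?_
  have hHj : (H j : ℝ) ≤ n := by exact_mod_cast (by omega : H j ≤ n)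
  rw [hS.h_eq]
  have : (n : ℝ) ≤ Q * n := le_mul_of_one_le_left hnR.le hQ
  push_cast
  exact mul_le_mul_of_nonneg_right (hHj.trans this) hμ0.le

theorem level_delta (hP : Good ℓ P) (hS : Scaled P H0 H n μ) (hx : 0 < x) (hc : 0 ≤ c)
    (hQ : Q = P.Q P.J) (hL : LinData ℓ P Y Hl u c μ lin ω B) (g : G)
    (hd : (2 * Q) ^ 2 * (4 * (Q + 2) * Aj P.τ P.σ P.J ^ 2 *
          gam P.τ P.σ H0 H (Q + 2) (zj P.J) P.J ^ 2 / zj P.J ^ 2) ≤ (x / 2 ^ (P.J + 1)) ^ 4) :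
    LevelOK (fun p q => 2 * (P.Q P.J : ℝ) * numD (sumY Y) ℓ P g (u p) (u q))
      (fun p q => 2 * (P.Q P.J : ℝ) * numD (sumY Y) ℓ P g (u p) (Tsh (u q)))
      (fun i => 1 + (ℓ (Hl i) : ℝ)) (x / 2 ^ (P.J + 1)) (Real.exp (n * (1 / 2 ^ (P.J + 1))))
      (2 * Q * ((2 * Q * c ^ 2 * n ^ 4 + 2 * n * c ^ 2) / μ)) (2 * Q * (2 + 2 * n * c))
      (2 * Q * (n * μ * (1 + Q * n * c))) (2 * Q * (2 + Q * n ^ 2 * c ^ 2)) := by
  have hQ0 : 0 < Q := by rw [hQ]; unfold Par.Q; positivity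
  rw [← hQ]
  refine LevelOK.weight (by linarith) ?_
  have hn0 : 0 < n := lt_of_le_of_lt (Nat.zero_le _) hS.H0_lt
  have hnR : (0 : ℝ) < n := by exact_mod_cast hn0
  have hμ0 : (0 : ℝ) < μ := by exact_mod_cast hS.μ_pos
  have hT : P.m + P.Q P.J * P.m + ∑ i ∈ range P.J, P.h i ≤ (P.Q P.J + 2) * P.m := by
    have : ∑ i ∈ range P.J, P.h i ≤ P.m := by
      rw [hS.h_eq, hS.m_eq, ← sum_mul]
      exact Nat.mul_le_mul_right _ hS.sum_le
    rw [add_mul]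
    omega
  have k := levelOK_delta hP Y g u (hL.h3 (P.Q P.J + 2)) (lin P.J) (hL.h2 P.J le_rfl)
    (by positivity) (by positivity) (hL.h1 P.J le_rfl) (s := n * zj P.J)
    (x := x / 2 ^ (P.J + 1) / Real.sqrt (2 * Q)) (mul_pos hnR (zj_pos P.J)) hT (by
      rw [div_sqrt_pow_four (by linarith), le_div_iff₀ (by positivity)]
      refine le_trans (le_of_eq ?_) hd
      have eG := Gam_eq P.τ P.σ H0 H n μ (P.Q P.J + 2) hn0 hS.μ_pos (zj P.J) P.J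
      rw [hS.h_eq, hS.m_eq, hS.h0_eq, eG]
      have := (zj_pos P.J).ne'
      push_cast
      rw [← hQ]
      field_simp)
  rw [zj_mul] at k
  refine k.weak (fun i => by positivity) (by positivity) hc hμ0
    (by rw [hS.m_eq]; push_cast; ring) ?_
  rw [hS.m_eq, hQ]
  push_cast
  exact le_of_eq (by ring)

theorem levelOK_num (hP : Good ℓ P) (hS : Scaled P H0 H n μ) (hx : 0 < x) (hc : 0 ≤ c)
    (hQ : Q = P.Q P.J) (hL : LinData ℓ P Y Hl u c μ lin ω B) (g : G)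
    (a : Fin n → ZMod P.m) (hu : Steps P.m a Hl u)
    (hw : ∀ j < P.J, (128 : ℝ) ^ 2 *
      (H j * Aj P.τ P.σ j ^ 2 * gam P.τ P.σ H0 H 2 (zj j) j ^ 2 / zj j) ≤ (x / 2 ^ (j + 1)) ^ 4)
    (hd : (2 * Q) ^ 2 * (4 * (Q + 2) * Aj P.τ P.σ P.J ^ 2 *
          gam P.τ P.σ H0 H (Q + 2) (zj P.J) P.J ^ 2 / zj P.J ^ 2) ≤ (x / 2 ^ (P.J + 1)) ^ 4)
    {W : ℝ} (hW : W = 128 + P.J * 128 + 2 * Q) :
    LevelOK (fun p q => num (sumY Y) ℓ P g (u p) (u q))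
      (fun p q => num (sumY Y) ℓ P g (u p) (Tsh (u q)))
      (fun i => 1 + (ℓ (Hl i) : ℝ)) (2 * x)
      (Del0 P.h0 ((P.τ : ℝ) ^ 2 * x ^ 4 / 128 ^ 2) a * Real.exp n)
      (W * ((2 * Q * c ^ 2 * n ^ 4 + 2 * n * c ^ 2) / μ)) (W * (2 + 2 * n * c))
      (W * (n * μ * (1 + Q * n * c))) (W * (2 + Q * n ^ 2 * c ^ 2)) := by
  have hQ1 : 1 ≤ Q := by
    rw [hQ]; unfold Par.Q; push_cast; exact one_le_pow₀ (by norm_num)
  have hlam : ∀ i, (0 : ℝ) ≤ 1 + (ℓ (Hl i) : ℝ) := fun i => by positivity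
  have L0 := level_zero hP hS hx hc hQ1 a hu
  have LD := level_delta hP hS hx hc hQ hL g hd
  have LS := LevelOK.sum P.J _ _ _ _ hlam (fun j => by positivity)
    (fun j hj => level_window hP hS hx hc hQ1 hL hj (hw j hj))
  have hs0 : 0 ≤ ∑ j ∈ range P.J, x / 2 ^ (j + 1) := sum_nonneg fun j _ => by positivity
  have LA := (L0.add LS hlam hx.le hs0).add LD hlam (add_nonneg hx.le hs0) (by positivity)
  have hΔ : 1 ≤ Del0 P.h0 ((P.τ : ℝ) ^ 2 * x ^ 4 / 128 ^ 2) a := by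
    obtain ⟨D, hD, -⟩ := L0.approx
    exact hD.one_le
  refine LA.mono hlam (add_nonneg (add_nonneg hx.le hs0) (by positivity)) ?_ ?_ (le_of_eq ?_)
    (le_of_eq ?_) (le_of_eq ?_) (le_of_eq ?_)
  · have e : ∑ j ∈ range P.J, x / 2 ^ (j + 1) + x / 2 ^ (P.J + 1) =
        x * (1 - 1 / 2 ^ (P.J + 1)) := by
      rw [← sum_half_pow, sum_range_succ, mul_add, mul_sum]
      congr 1
      · exact sum_congr rfl fun j _ => by ring
      · ring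
    have : 0 ≤ x * (1 / 2 ^ (P.J + 1)) := by positivity
    linarith
  · rw [mul_assoc, ← Real.exp_sum, ← Real.exp_add]
    refine mul_le_mul_of_nonneg_left (Real.exp_le_exp.2 ?_) (by linarith)
    rw [← sum_range_succ (fun j => (n : ℝ) * (1 / 2 ^ (j + 1))), ← mul_sum, sum_half_pow]
    have : (0 : ℝ) ≤ n * (1 / 2 ^ (P.J + 1)) := by positivity
    linarith
  all_goals rw [hW]; ring

end Vale.Agent.P184
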