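import Vale.Agent.P184.MainB
import Vale.Agent.P184.Lower

/-!
# P184: the minor bound for the kernel
-/

namespace Vale.Agent.P184

open Finset Filter

variable {G : Type*} [Group G] {ℓ : G → ℕ} {P : Par}

theorem castAdd_ne_natAdd {k : ℕ} (i j : Fin k) : Fin.castAdd k i ≠ Fin.natAdd k j := by
  intro h
  have := congrArg Fin.val h
  simp at this
  omega

theorem minor_bker (hP : Good ℓ P) {k : ℕ} (u : Fin (k + k + 1) → ℕ → G) (g : G)
    (hQP : ∀ p, QP P.m g (u p)) (hfar : ∀ x : G, ∃ j : ℕ, P.r P.J < ℓ ((x⁻¹ * g * x) ^ j))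
    {lam : Fin (k + k) → ℝ} (hlam : ∀ i, 1 ≤ lam i) {x Δ η c1 c2 C : ℝ} (hx : 0 < x)
    (hη0 : 0 ≤ η) (hc1 : 0 ≤ c1) (hc2 : 0 ≤ c2) (hC : 0 ≤ C)
    (hL : ∀ Y : Finset G, LevelOK (fun p q => num (sumY Y) ℓ P g (u p) (u q))
      (fun p q => num (sumY Y) ℓ P g (u p) (Tsh (u q))) lam (2 * x) Δ η c1 c2 C)
    (hη : (k + k : ℕ) * (η + 2 * c1 * ((k + k : ℕ) * C + c1) / P.m) ≤ x ^ 2)
    (π : Equiv.Perm (Fin (k + k))) :
    |(Matrix.of fun i j : Fin k =>
      mixed (mat (bker ℓ P) u) (π (Fin.castAdd k i)) (π (Fin.natAdd k j))).det| ≤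
      ((P.m : ℝ) ^ k)⁻¹ * ((4 * x) ^ (2 * k) * (Δ * (1 + 2 * c1 * c2 / P.m / x ^ 2))) *
        ∏ i, lam i := by
  classical
  have hm0 : 0 < P.m := lt_of_le_of_lt (Nat.zero_le _) hP.h0_lt
  have hmR : (0 : ℝ) < P.m := by exact_mod_cast hm0
  have hev : ∀ᶠ Y : Finset G in atTop,
      (∀ p q, num (sumY Y) ℓ P g (u p) (u q) = num sumF ℓ P g (u p) (u q)) ∧
      (∀ p q, num (sumY Y) ℓ P g (u p) (Tsh (u q)) = num sumF ℓ P g (u p) (Tsh (u q))) := by
    refine Eventually.and ?_ ?_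
    · exact eventually_all.2 fun p => eventually_all.2 fun q => eventually_num hP g _ _
    · exact eventually_all.2 fun p => eventually_all.2 fun q => eventually_num hP g _ _
  obtain ⟨Y, hY1, hY2⟩ := hev.exists
  have hL' := hL Y
  simp only [hY1, hY2] at hL'
  have hS : ∀ p, (P.m : ℝ) ≤ num sumF ℓ P g (u p) (Tsh (u p)) - num sumF ℓ P g (u p) (u p) :=
    fun p => le_norm hP (hQP p) hfar
  obtain ⟨D, hD, hDe⟩ := hL'.normalize hlam (by positivity) hη0 hc1 hc2 hC hmR hS hx hx.le hη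
  have hmat : mat (bker ℓ P) u = fun p q =>
      if p ≤ q then num sumF ℓ P g (u p) (u q) /
        (num sumF ℓ P g (u p) (Tsh (u p)) - num sumF ℓ P g (u p) (u p))
      else num sumF ℓ P g (u p) (Tsh (u q)) /
        (num sumF ℓ P g (u p) (Tsh (u p)) - num sumF ℓ P g (u p) (u p)) - 1 := by
    funext p q
    simp only [mat, bker, hol_eq (hQP p), max_eq_left (hS p)]
  have hdet : (Matrix.of fun i j : Fin k => D (π (Fin.castAdd k i)) (π (Fin.natAdd k j))) =
      (P.m : ℝ) • Matrix.of fun i j : Fin k =>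
        mixed (mat (bker ℓ P) u) (π (Fin.castAdd k i)) (π (Fin.natAdd k j)) := by
    ext i j
    rw [Matrix.smul_apply, Matrix.of_apply, Matrix.of_apply, smul_eq_mul, hmat,
      hDe _ _ (fun h => castAdd_ne_natAdd i j (π.injective h))]
  have h1 := hD k (fun i => π (Fin.castAdd k i)) (fun j => π (Fin.natAdd k j))
  rw [hdet, Matrix.det_smul, Fintype.card_fin, abs_mul, abs_of_pos (pow_pos hmR k)] at h1
  have hprod : (∏ i, lam (π (Fin.castAdd k i))) * ∏ j, lam (π (Fin.natAdd k j)) = ∏ i, lam i := by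
    rw [← Equiv.prod_comp π lam, Fin.prod_univ_add]
  rw [hprod, show 2 * x + x + x = 4 * x by ring] at h1
  rw [mul_assoc, le_inv_mul_iff₀ (pow_pos hmR k)]
  exact h1

end Vale.Agent.P184
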