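import Vale.Agent.P184.Defs

/-!
# P184: calculus of minor bounds
-/

namespace Vale.Agent.P184

open Finset

namespace MinorAux

theorem rows_fin {n : ℕ} (M : Matrix (Fin n) (Fin n) ℝ) : M.det ^ 2 ≤ ∏ i, ∑ j, M i j ^ 2 := by
  have : Fact (Module.finrank ℝ (EuclideanSpace ℝ (Fin n)) = n) := ⟨by simp⟩
  let b := EuclideanSpace.basisFun (Fin n) ℝ
  let v : Fin n → EuclideanSpace ℝ (Fin n) := fun i => WithLp.toLp 2 (M i)
  have h1 := b.toBasis.orientation.abs_volumeForm_apply_le v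
  rw [Orientation.volumeForm_robust' _ b] at h1
  have h2 : b.toBasis.det v = M.det := by
    rw [Module.Basis.det_apply, ← Matrix.det_transpose M]
    rfl
  rw [h2] at h1
  calc M.det ^ 2 = |M.det| ^ 2 := (sq_abs _).symm
    _ ≤ (∏ i, ‖v i‖) ^ 2 := pow_le_pow_left₀ (abs_nonneg _) h1 2
    _ = ∏ i, ∑ j, M i j ^ 2 := by
      rw [← prod_pow]
      refine prod_congr rfl fun i _ => ?_
      rw [EuclideanSpace.real_norm_sq_eq]

theorem hdet {γ : Type*} [Fintype γ] [DecidableEq γ] (A : Matrix γ γ ℝ) :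
    A.det = ∑ τ : Equiv.Perm γ, (Equiv.Perm.sign τ : ℝ) * ∏ i, A i (τ i) := by
  rw [← Matrix.det_transpose, Matrix.det_apply']
  rfl

theorem laplace {α β : Type*} [Fintype α] [Fintype β] [DecidableEq α] [DecidableEq β]
    (N : Matrix (α ⊕ β) (α ⊕ β) ℝ) :
    ((Fintype.card α).factorial * (Fintype.card β).factorial : ℝ) * N.det =
      ∑ σ : Equiv.Perm (α ⊕ β), (Equiv.Perm.sign σ : ℝ) *
        ((Matrix.of fun i j => N (Sum.inl i) (σ (Sum.inl j))).det *
          (Matrix.of fun i j => N (Sum.inr i) (σ (Sum.inr j))).det) := by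
  have key : ∀ (a : Equiv.Perm α) (b : Equiv.Perm β),
      ∑ σ : Equiv.Perm (α ⊕ β), (Equiv.Perm.sign σ : ℝ) *
        (((Equiv.Perm.sign a : ℝ) * ∏ i, N (Sum.inl i) (σ (Sum.inl (a i)))) *
          ((Equiv.Perm.sign b : ℝ) * ∏ i, N (Sum.inr i) (σ (Sum.inr (b i))))) = N.det := by
    intro a b
    rw [hdet N]
    refine Fintype.sum_equiv (Equiv.mulRight (Equiv.Perm.sumCongr a b)) _ _ fun σ => ?_
    rw [Equiv.coe_mulRight, Equiv.Perm.sign_mul, Equiv.Perm.sign_sumCongr, Fintype.prod_sum_type]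
    push_cast
    simp only [Function.comp_apply, Equiv.Perm.sumCongr_apply, Sum.map_inl,
      Sum.map_inr]
    ring
  have e : ∀ σ : Equiv.Perm (α ⊕ β), (Equiv.Perm.sign σ : ℝ) *
        ((Matrix.of fun i j => N (Sum.inl i) (σ (Sum.inl j))).det *
          (Matrix.of fun i j => N (Sum.inr i) (σ (Sum.inr j))).det) =
      ∑ a : Equiv.Perm α, ∑ b : Equiv.Perm β, (Equiv.Perm.sign σ : ℝ) *
        (((Equiv.Perm.sign a : ℝ) * ∏ i, N (Sum.inl i) (σ (Sum.inl (a i)))) *
          ((Equiv.Perm.sign b : ℝ) * ∏ i, N (Sum.inr i) (σ (Sum.inr (b i))))) := by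
    intro σ
    rw [hdet, hdet, sum_mul_sum, mul_sum]
    refine sum_congr rfl fun a _ => ?_
    rw [mul_sum]
    rfl
  rw [sum_congr rfl fun σ _ => e σ, sum_comm]
  rw [sum_congr rfl fun a _ => sum_comm.trans (sum_congr rfl fun b _ => key a b)]
  simp [Fintype.card_perm]
  ring

end MinorAux

open MinorAux

/-- Hadamard inequality for rows. -/
theorem det_sq_le_prod_rows {ι : Type*} [Fintype ι] [DecidableEq ι] (M : Matrix ι ι ℝ) :
    M.det ^ 2 ≤ ∏ i, ∑ j, M i j ^ 2 := by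
  let e := (Fintype.equivFin ι).symm
  have h := rows_fin (M.submatrix e e)
  rw [Matrix.det_submatrix_equiv_self] at h
  refine h.trans (le_of_eq ?_)
  refine Fintype.prod_equiv e _ _ fun i => ?_
  exact Fintype.sum_equiv e _ _ fun j => rfl

open MatrixOrder in
/-- Hadamard inequality for positive semidefinite matrices. -/
theorem det_le_prod_diag {ι : Type*} [Fintype ι] [DecidableEq ι] (M : Matrix ι ι ℝ)
    (hM : M.PosSemidef) : M.det ≤ ∏ i, M i i := by
  obtain ⟨B, rfl⟩ := CStarAlgebra.nonneg_iff_eq_star_mul_self.1 hM.nonneg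
  have h := det_sq_le_prod_rows B.transpose
  rw [Matrix.det_transpose] at h
  rw [Matrix.det_mul, Matrix.star_eq_conjTranspose, Matrix.conjTranspose_eq_transpose_of_trivial,
    Matrix.det_transpose, ← sq]
  refine h.trans (le_of_eq (prod_congr rfl fun i _ => ?_))
  simp [Matrix.mul_apply, sq]

variable {κ : Type*}

theorem MinorBd.one_le {D : κ → κ → ℝ} {lam : κ → ℝ} {x Δ : ℝ} (h : MinorBd D lam x Δ) :
    1 ≤ Δ := by
  simpa using h 0 Fin.elim0 Fin.elim0

theorem MinorBd.mono {D : κ → κ → ℝ} {lam : κ → ℝ} {x Δ x' Δ' : ℝ} (h : MinorBd D lam x Δ)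
    (hlam : ∀ i, 0 ≤ lam i) (hx0 : 0 ≤ x) (hx : x ≤ x') (hΔ : Δ ≤ Δ') :
    MinorBd D lam x' Δ' := by
  intro p f g
  refine (h p f g).trans (mul_le_mul_of_nonneg_right ?_
    (mul_nonneg (prod_nonneg fun _ _ => hlam _) (prod_nonneg fun _ _ => hlam _)))
  exact mul_le_mul (pow_le_pow_left₀ hx0 hx _) hΔ (zero_le_one.trans h.one_le)
    (pow_nonneg (hx0.trans hx) _)

theorem MinorBd.zero {lam : κ → ℝ} : MinorBd (fun _ _ => (0 : ℝ)) lam 0 1 := by
  intro p f g
  cases p with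
  | zero => simp
  | succ p =>
    have : (Matrix.of fun (_ _ : Fin (p + 1)) => (0 : ℝ)) = 0 := rfl
    rw [this, Matrix.det_zero]
    simp

theorem MinorBd.gen {D : κ → κ → ℝ} {lam : κ → ℝ} {x Δ : ℝ} (h : MinorBd D lam x Δ) {ι : Type*}
    [Fintype ι] [DecidableEq ι] (f g : ι → κ) :
    |(Matrix.of fun i j => D (f i) (g j)).det| ≤
      x ^ (2 * Fintype.card ι) * Δ * ((∏ i, lam (f i)) * ∏ j, lam (g j)) := by
  let e := (Fintype.equivFin ι).symm
  have h1 := h _ (f ∘ e) (g ∘ e)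
  rw [← Matrix.det_submatrix_equiv_self e, ← e.prod_comp fun i => lam (f i),
    ← e.prod_comp fun i => lam (g i)]
  exact h1

theorem MinorAux.mixed {D₁ D₂ : κ → κ → ℝ} {lam : κ → ℝ} {x₁ x₂ Δ₁ Δ₂ : ℝ}
    (h₁ : MinorBd D₁ lam x₁ Δ₁) (h₂ : MinorBd D₂ lam x₂ Δ₂) {α β : Type*} [Fintype α] [Fintype β]
    [DecidableEq α] [DecidableEq β] (f g : α ⊕ β → κ) (N : Matrix (α ⊕ β) (α ⊕ β) ℝ)
    (n1 : ∀ i j, N (Sum.inl i) j = D₁ (f (Sum.inl i)) (g j))
    (n2 : ∀ i j, N (Sum.inr i) j = D₂ (f (Sum.inr i)) (g j)) :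
    |N.det| ≤ ((Fintype.card α + Fintype.card β).choose (Fintype.card α) : ℝ) *
      (x₁ ^ (2 * Fintype.card α) * x₂ ^ (2 * Fintype.card β) * (Δ₁ * Δ₂) *
        ((∏ i, lam (f i)) * ∏ j, lam (g j))) := by
  set K := x₁ ^ (2 * Fintype.card α) * x₂ ^ (2 * Fintype.card β) * (Δ₁ * Δ₂) *
        ((∏ i, lam (f i)) * ∏ j, lam (g j)) with hK
  have hpos : (0 : ℝ) < (Fintype.card α).factorial * (Fintype.card β).factorial := by positivity
  have h1 : ∀ σ : Equiv.Perm (α ⊕ β), |(Equiv.Perm.sign σ : ℝ) *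
        ((Matrix.of fun i j => N (Sum.inl i) (σ (Sum.inl j))).det *
          (Matrix.of fun i j => N (Sum.inr i) (σ (Sum.inr j))).det)| ≤ K := by
    intro σ
    have hs : |(Equiv.Perm.sign σ : ℝ)| = 1 := by
      rcases Int.units_eq_one_or (Equiv.Perm.sign σ) with h | h <;> simp [h]
    simp only [n1, n2]
    rw [abs_mul, hs, one_mul, abs_mul]
    have a1 := h₁.gen (fun i => f (Sum.inl i)) fun j => g (σ (Sum.inl j))
    have a2 := h₂.gen (fun i => f (Sum.inr i)) fun j => g (σ (Sum.inr j))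
    refine (mul_le_mul a1 a2 (abs_nonneg _) ((abs_nonneg _).trans a1)).trans (le_of_eq ?_)
    rw [hK, ← Equiv.prod_comp σ fun j => lam (g j), Fintype.prod_sum_type, Fintype.prod_sum_type]
    ring
  have h2 : ((Fintype.card α).factorial * (Fintype.card β).factorial : ℝ) * |N.det| ≤
      (Fintype.card α + Fintype.card β).factorial * K := by
    rw [← abs_of_pos hpos, ← abs_mul, laplace]
    refine (abs_sum_le_sum_abs _ _).trans ((sum_le_card_nsmul _ _ _ fun σ _ => h1 σ).trans ?_)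
    rw [card_univ, Fintype.card_perm, Fintype.card_sum, nsmul_eq_mul]
  have h3 := Nat.add_choose_mul_factorial_mul_factorial (Fintype.card β) (Fintype.card α)
  rw [add_comm (Fintype.card β)] at h3
  have h4 : ((Fintype.card α + Fintype.card β).factorial : ℝ) =
      ((Fintype.card α).factorial * (Fintype.card β).factorial) *
        ((Fintype.card α + Fintype.card β).choose (Fintype.card α) : ℝ) := by
    rw [← h3]
    push_cast
    ring
  rw [h4, mul_assoc _ _ K] at h2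
  exact le_of_mul_le_mul_left h2 hpos

/-- The sum lemma (row multilinearity and the generalised Laplace expansion). -/
theorem MinorBd.add {D₁ D₂ : κ → κ → ℝ} {lam : κ → ℝ} {x₁ x₂ Δ₁ Δ₂ : ℝ}
    (h₁ : MinorBd D₁ lam x₁ Δ₁) (h₂ : MinorBd D₂ lam x₂ Δ₂) (hlam : ∀ i, 0 ≤ lam i)
    (hx₁ : 0 ≤ x₁) (hx₂ : 0 ≤ x₂) :
    MinorBd (fun i l => D₁ i l + D₂ i l) lam (x₁ + x₂) (Δ₁ * Δ₂) := by
  intro p f g
  set Λ := (Δ₁ * Δ₂) * ((∏ i, lam (f i)) * ∏ j, lam (g j)) with hΛ
  have hΛ0 : 0 ≤ Λ := mul_nonneg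
    (mul_nonneg (zero_le_one.trans h₁.one_le) (zero_le_one.trans h₂.one_le))
    (mul_nonneg (prod_nonneg fun _ _ => hlam _) (prod_nonneg fun _ _ => hlam _))
  let M₁ : Fin p → Fin p → ℝ := fun i j => D₁ (f i) (g j)
  let M₂ : Fin p → Fin p → ℝ := fun i j => D₂ (f i) (g j)
  have e : (Matrix.of fun i j => D₁ (f i) (g j) + D₂ (f i) (g j)).det =
      ∑ S : Finset (Fin p), (Matrix.of (S.piecewise M₁ M₂)).det :=
    Matrix.detRowAlternating.map_add_univ M₁ M₂
  have h1 : ∀ S : Finset (Fin p), |(Matrix.of (S.piecewise M₁ M₂)).det| ≤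
      (x₁ ^ S.card * x₂ ^ (p - S.card)) * ((x₁ + x₂) ^ p * Λ) := by
    intro S
    let q := Equiv.sumCompl (· ∈ S)
    have a := MinorAux.mixed h₁ h₂ (f ∘ q) (g ∘ q) ((Matrix.of (S.piecewise M₁ M₂)).submatrix q q)
      (fun i j => by
        simp only [Matrix.submatrix_apply, Matrix.of_apply, q, Equiv.sumCompl_apply_inl]
        rw [piecewise_eq_of_mem _ _ _ i.2]
        rfl)
      (fun i j => by
        simp only [Matrix.submatrix_apply, Matrix.of_apply, q, Equiv.sumCompl_apply_inr]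
        rw [piecewise_eq_of_notMem _ _ _ i.2]
        rfl)
    have c1 : Fintype.card {i // i ∈ S} = S.card := Fintype.card_coe S
    have hle : S.card ≤ p := by simpa using card_le_univ S
    have c2 : Fintype.card {i // ¬ i ∈ S} = p - S.card := by
      rw [Fintype.card_subtype_compl, c1, Fintype.card_fin]
    have p1 : ∏ i, lam ((f ∘ q) i) = ∏ i, lam (f i) := q.prod_comp fun i => lam (f i)
    have p2 : ∏ i, lam ((g ∘ q) i) = ∏ i, lam (g i) := q.prod_comp fun i => lam (g i)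
    rw [Matrix.det_submatrix_equiv_self, c1, c2, Nat.add_sub_cancel' hle, p1, p2] at a
    have b : x₁ ^ S.card * x₂ ^ (p - S.card) * (p.choose S.card : ℝ) ≤ (x₁ + x₂) ^ p := by
      rw [add_pow]
      exact single_le_sum (f := fun m => x₁ ^ m * x₂ ^ (p - m) * (p.choose m : ℝ))
        (fun m _ => by positivity) (mem_range.2 (Nat.lt_succ_of_le hle))
    refine a.trans ?_
    calc _ = (x₁ ^ S.card * x₂ ^ (p - S.card)) *
          ((x₁ ^ S.card * x₂ ^ (p - S.card) * (p.choose S.card : ℝ)) * Λ) := by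
          rw [hΛ]
          ring
      _ ≤ _ := mul_le_mul_of_nonneg_left (mul_le_mul_of_nonneg_right b hΛ0) (by positivity)
  rw [e]
  refine (abs_sum_le_sum_abs _ _).trans ((sum_le_sum fun S _ => h1 S).trans (le_of_eq ?_))
  rw [← sum_mul, Fin.sum_pow_mul_eq_add_pow, hΛ]
  ring

theorem MinorBd.smul_row {D : κ → κ → ℝ} {lam : κ → ℝ} {x Δ : ℝ} (h : MinorBd D lam x Δ)
    (θ : κ → ℝ) (hθ : ∀ i, |θ i| ≤ 1) : MinorBd (fun i l => θ i * D i l) lam x Δ := by
  intro p f g
  have e := Matrix.det_mul_column (fun i => θ (f i)) (Matrix.of fun i j => D (f i) (g j))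
  simp only [Matrix.of_apply] at e
  rw [e, abs_mul, abs_prod]
  refine le_trans ?_ (h p f g)
  exact mul_le_of_le_one_left (abs_nonneg _)
    (prod_le_one (fun _ _ => abs_nonneg _) fun _ _ => hθ _)

theorem MinorBd.smul {D : κ → κ → ℝ} {lam : κ → ℝ} {x Δ : ℝ} (h : MinorBd D lam x Δ)
    (c s : ℝ) (hc : |c| ≤ s ^ 2) : MinorBd (fun i l => c * D i l) lam (s * x) Δ := by
  intro p f g
  have e := Matrix.det_mul_column (fun _ => c) (Matrix.of fun i j => D (f i) (g j))
  simp only [Matrix.of_apply] at e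
  rw [e, abs_mul, prod_const, card_univ, Fintype.card_fin, abs_pow]
  refine (mul_le_mul (pow_le_pow_left₀ (abs_nonneg _) hc p) (h p f g) (abs_nonneg _)
    (by positivity)).trans (le_of_eq ?_)
  ring

theorem MinorAux.one_le_w {lam : κ → ℝ} (hlam : ∀ i, 1 ≤ lam i) {p : ℕ} (f g : Fin p → κ) :
    1 ≤ (∏ i, lam (f i)) * ∏ j, lam (g j) :=
  one_le_mul_of_one_le_of_one_le (Finset.one_le_prod fun _ _ => hlam _) (Finset.one_le_prod fun _ _ => hlam _)

theorem minorBd_rank_one (α β lam : κ → ℝ) (hlam : ∀ i, 1 ≤ lam i) {x γ : ℝ} (hx : 0 < x)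
    (hγ : 0 ≤ γ) (h : ∀ i l, |α i * β l| ≤ γ) :
    MinorBd (fun i l => α i * β l) lam x (1 + γ / x ^ 2) := by
  intro p f g
  have hw := one_le_w hlam f g
  have hp : 0 ≤ x ^ (2 * p) * (1 + γ / x ^ 2) := by positivity
  refine le_trans ?_ (le_mul_of_one_le_right hp hw)
  match p, f, g with
  | 0, f, g =>
    have : 0 ≤ γ / x ^ 2 := by positivity
    simpa using this
  | 1, f, g =>
    rw [Matrix.det_unique]
    refine (h _ _).trans ?_
    have e : x ^ (2 * 1) * (1 + γ / x ^ 2) = x ^ 2 + γ := by field_simp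
    rw [e]
    exact le_add_of_nonneg_left (sq_nonneg _)
  | p + 2, f, g =>
    have e := Matrix.det_mul_column (fun i => α (f i)) (Matrix.of fun (_ j : Fin (p + 2)) => β (g j))
    simp only [Matrix.of_apply] at e
    rw [e, Matrix.det_zero_of_row_eq (i := 0) (j := 1) (by simp) rfl]
    simp only [mul_zero, abs_zero]
    positivity

theorem minorBd_small [Fintype κ] (D : κ → κ → ℝ) (lam : κ → ℝ) (hlam : ∀ i, 1 ≤ lam i)
    {x η : ℝ} (h : ∀ i l, |D i l| ≤ η) (hη : (Fintype.card κ : ℝ) * η ≤ x ^ 2) :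
    MinorBd D lam x 1 := by
  intro p f g
  have hw := one_le_w hlam f g
  have hp : 0 ≤ x ^ (2 * p) * 1 := by
    rw [mul_one, pow_mul]
    positivity
  refine le_trans ?_ (le_mul_of_one_le_right hp hw)
  by_cases hf : Function.Injective f
  · rcases Nat.eq_zero_or_pos p with rfl | hp0
    · simp
    have hη0 : 0 ≤ η := (abs_nonneg _).trans (h (f ⟨0, hp0⟩) (f ⟨0, hp0⟩))
    have h1 := Matrix.det_le (A := Matrix.of fun i j => D (f i) (g j))
      (abv := AbsoluteValue.abs) (x := η) fun i j => h _ _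
    rw [Fintype.card_fin, nsmul_eq_mul] at h1
    have h2 : (p : ℝ) ≤ Fintype.card κ := by
      have := Fintype.card_le_of_injective f hf
      rw [Fintype.card_fin] at this
      exact_mod_cast this
    have h3 : (p.factorial : ℝ) ≤ (p : ℝ) ^ p := by exact_mod_cast Nat.factorial_le_pow p
    refine h1.trans ?_
    rw [mul_one, pow_mul]
    calc (p.factorial : ℝ) * η ^ p ≤ (p : ℝ) ^ p * η ^ p :=
          mul_le_mul_of_nonneg_right h3 (pow_nonneg hη0 _)
      _ = ((p : ℝ) * η) ^ p := (mul_pow _ _ _).symm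
      _ ≤ _ := pow_le_pow_left₀ (by positivity)
          ((mul_le_mul_of_nonneg_right h2 hη0).trans hη) p
  · obtain ⟨a, b, hab, hne⟩ := Function.not_injective_iff.1 hf
    rw [Matrix.det_zero_of_row_eq hne (by funext j; simp [hab]), abs_zero]
    exact hp

/-- Sparse matrices: row Hadamard. -/
theorem minorBd_sparse [Fintype κ] (D : κ → κ → ℝ) (lam : κ → ℝ) (hlam : ∀ i, 0 ≤ lam i)
    (R : κ → κ → Prop) [∀ i, DecidablePred (R i)] {θ x y : ℝ} (hy : 0 < y)
    (hθ : θ ^ 2 * y ≤ x ^ 4)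
    (h : ∀ i l, |D i l| ≤ if R i l then θ * lam i * lam l else 0) :
    MinorBd D lam x (∏ i, Real.sqrt (1 + ((univ.filter (R i)).card : ℝ) / y)) := by
  classical
  intro p f g
  set s : κ → ℝ := fun i => Real.sqrt (1 + ((univ.filter (R i)).card : ℝ) / y) with hs
  have hc : ∀ i, 0 ≤ ((univ.filter (R i)).card : ℝ) / y := fun i => by positivity
  have hs1 : ∀ i, 1 ≤ s i := fun i => Real.one_le_sqrt.2 (le_add_of_nonneg_right (hc i))
  have hs0 : ∀ i, 0 ≤ s i := fun i => zero_le_one.trans (hs1 i)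
  have hx : 0 ≤ x ^ (2 * p) := by
    rw [pow_mul]
    positivity
  have hrhs : 0 ≤ x ^ (2 * p) * (∏ i, s i) * ((∏ i, lam (f i)) * ∏ j, lam (g j)) :=
    mul_nonneg (mul_nonneg hx (prod_nonneg fun _ _ => hs0 _))
      (mul_nonneg (prod_nonneg fun _ _ => hlam _) (prod_nonneg fun _ _ => hlam _))
  by_cases hf : Function.Injective f
  swap
  · obtain ⟨a, b, hab, hne⟩ := Function.not_injective_iff.1 hf
    rw [Matrix.det_zero_of_row_eq hne (by funext j; simp [hab]), abs_zero]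
    exact hrhs
  by_cases hg : Function.Injective g
  swap
  · obtain ⟨a, b, hab, hne⟩ := Function.not_injective_iff.1 hg
    rw [Matrix.det_zero_of_column_eq hne (fun j => by simp [hab]), abs_zero]
    exact hrhs
  let N : Matrix (Fin p) (Fin p) ℝ := Matrix.of fun i j => D (f i) (g j) / lam (g j)
  have hN : ∀ i j, N i j ^ 2 ≤ if R (f i) (g j) then θ ^ 2 * lam (f i) ^ 2 else 0 := by
    intro i j
    have h1 := h (f i) (g j)
    change (D (f i) (g j) / lam (g j)) ^ 2 ≤ _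
    split_ifs at h1 ⊢
    · rcases (hlam (g j)).eq_or_lt with h0 | h0
      · rw [← h0]
        simp only [div_zero, ne_eq, OfNat.ofNat_ne_zero, not_false_eq_true, zero_pow]
        positivity
      · rw [div_pow, div_le_iff₀ (pow_pos h0 2), ← sq_abs]
        refine (pow_le_pow_left₀ (abs_nonneg _) h1 2).trans (le_of_eq ?_)
        ring
    · rw [abs_nonpos_iff.1 h1]
      simp
  have e : (Matrix.of fun i j => D (f i) (g j)) = Matrix.of fun i j => lam (g j) * N i j := by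
    ext i j
    change D (f i) (g j) = lam (g j) * (D (f i) (g j) / lam (g j))
    rcases (hlam (g j)).eq_or_lt with h0 | h0
    · have h1 := h (f i) (g j)
      rw [← h0] at h1 ⊢
      simpa using h1
    · field_simp
  have hrow : ∀ i, ∑ j, N i j ^ 2 ≤ (x ^ 2 * lam (f i) * s (f i)) ^ 2 := by
    intro i
    have h1 : ((univ.filter fun j => R (f i) (g j)).card : ℝ) ≤ (univ.filter (R (f i))).card := by
      exact_mod_cast card_le_card_of_injOn g (fun j hj => by simpa using hj) hg.injOn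
    have h2 : s (f i) ^ 2 = 1 + ((univ.filter (R (f i))).card : ℝ) / y :=
      Real.sq_sqrt (add_nonneg zero_le_one (hc _))
    refine (sum_le_sum fun j _ => hN i j).trans ?_
    rw [← sum_filter, sum_const, nsmul_eq_mul, mul_pow, mul_pow, h2]
    set n : ℝ := ((univ.filter (R (f i))).card : ℝ) with hn
    have hn0 : 0 ≤ n := Nat.cast_nonneg _
    have h3 : n * θ ^ 2 ≤ (x ^ 2) ^ 2 * (1 + n / y) := by
      have h4 : n * θ ^ 2 = n / y * (θ ^ 2 * y) := by field_simp
      have h5 := mul_le_mul_of_nonneg_left hθ (hc (f i))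
      have h6 : 0 ≤ x ^ 4 := by positivity
      rw [h4]
      nlinarith only [h5, h6]
    calc _ ≤ n * (θ ^ 2 * lam (f i) ^ 2) := mul_le_mul_of_nonneg_right h1 (by positivity)
      _ = n * θ ^ 2 * lam (f i) ^ 2 := by ring
      _ ≤ (x ^ 2) ^ 2 * (1 + n / y) * lam (f i) ^ 2 :=
          mul_le_mul_of_nonneg_right h3 (sq_nonneg _)
      _ = _ := by ring
  have hdet : |N.det| ≤ ∏ i, x ^ 2 * lam (f i) * s (f i) := by
    refine abs_le_of_sq_le_sq ?_ (prod_nonneg fun i _ =>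
      mul_nonneg (mul_nonneg (sq_nonneg _) (hlam _)) (hs0 _))
    rw [← prod_pow]
    exact (det_sq_le_prod_rows N).trans
      (Finset.prod_le_prod (fun i _ => sum_nonneg fun _ _ => sq_nonneg _) fun i _ => hrow i)
  have hsp : ∏ i, s (f i) ≤ ∏ i, s i := by
    rw [← prod_image (s := univ) (g := f) (f := s) hf.injOn]
    exact Finset.prod_le_prod_of_subset_of_one_le (subset_univ _) (fun i _ => hs0 i) fun i _ _ => hs1 i
  have hg0 : 0 ≤ ∏ j, lam (g j) := prod_nonneg fun _ _ => hlam _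
  have hf0 : 0 ≤ ∏ j, lam (f j) := prod_nonneg fun _ _ => hlam _
  rw [e, Matrix.det_mul_row, abs_mul, abs_of_nonneg hg0]
  rw [prod_mul_distrib, prod_mul_distrib, prod_const, card_univ, Fintype.card_fin,
    ← pow_mul] at hdet
  calc _ ≤ (∏ j, lam (g j)) * (x ^ (2 * p) * (∏ i, lam (f i)) * ∏ i, s i) :=
        mul_le_mul_of_nonneg_left
          (hdet.trans (mul_le_mul_of_nonneg_left hsp (mul_nonneg hx hf0))) hg0
    _ = _ := by ring

end Vale.Agent.P184
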