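import Vale.Agent.P184.Defs

namespace Vale.Agent.P184.PB

open Finset Filter

noncomputable def eta2 (x : ℝ) (j : ℕ) : ℝ := zj j ^ (2 * j + 1) * x ^ 4 / (16 ^ (j + 1) * 128 ^ 2)

noncomputable def PP (x : ℝ) (τ σ H0 : ℕ) : ℕ → ℝ
  | 0 => τ ^ 2 * H0 / (2 * Aj τ σ 0 ^ 2)
  | j + 1 => PP x τ σ H0 j * (⌊eta2 x j * PP x τ σ H0 j ^ 2⌋₊ : ℝ) / (2 * Aj τ σ (j + 1) ^ 2)

noncomputable def HH (x : ℝ) (τ σ H0 : ℕ) (j : ℕ) : ℕ := ⌊eta2 x j * PP x τ σ H0 j ^ 2⌋₊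

theorem Aj_pos (τ σ j : ℕ) : 0 < Aj τ σ j := by unfold Aj; positivity

theorem Aj_le (τ σ j : ℕ) (hτ : 1 ≤ τ) : Aj τ σ j ≤ 16 * (6 + σ) * 2 ^ j * τ := by
  unfold Aj
  have h1 : (1 : ℝ) ≤ τ := by exact_mod_cast hτ
  have h2 : (1 : ℝ) ≤ 2 ^ j := one_le_pow₀ (by norm_num)
  have h3 : (1 : ℝ) ≤ 2 ^ j * τ := one_le_mul_of_one_le_of_one_le h2 h1
  nlinarith

theorem zj_pos (j : ℕ) : 0 < zj j := by unfold zj; positivity

theorem zj_ge (j : ℕ) : 1 / 4 ^ (j + 1) ≤ zj j := by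
  unfold zj
  refine one_div_le_one_div_of_le (by positivity) ?_
  have h : ((j : ℝ) + 1) ≤ 2 ^ (j + 1) := by exact_mod_cast (Nat.lt_two_pow_self (n := j + 1)).le
  rw [show (4 : ℝ) ^ (j + 1) = 2 ^ (j + 1) * 2 ^ (j + 1) by rw [← mul_pow]; norm_num]
  gcongr

theorem gam_mul (x : ℝ) (τ σ H0 : ℕ) (hτ : 0 < τ) (hH0 : 0 < H0) (hH : ∀ j, 0 < HH x τ σ H0 j)
    (ρ z : ℝ) (hz : z ≠ 0) (j : ℕ) :
    Aj τ σ j * gam τ σ H0 (HH x τ σ H0) ρ z j * PP x τ σ H0 j = (ρ / 2) ^ (j + 1) / z ^ j := by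
  induction j with
  | zero =>
    have := (Aj_pos τ σ 0).ne'
    have h1 : (τ : ℝ) ≠ 0 := by positivity
    have h2 : (H0 : ℝ) ≠ 0 := by positivity
    simp only [gam, PP, range_zero, prod_empty, zero_add, pow_one, pow_zero]
    field_simp
  | succ j ih =>
    have e : gam τ σ H0 (HH x τ σ H0) ρ z (j + 1) = gam τ σ H0 (HH x τ σ H0) ρ z j *
        (ρ * Aj τ σ (j + 1) * Aj τ σ j / (HH x τ σ H0 j * z)) := by
      simp only [gam, prod_range_succ]; ring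
    have e2 : PP x τ σ H0 (j + 1) = PP x τ σ H0 j * HH x τ σ H0 j / (2 * Aj τ σ (j + 1) ^ 2) := rfl
    have h1 := (Aj_pos τ σ (j + 1)).ne'
    have h2 : (HH x τ σ H0 j : ℝ) ≠ 0 := by have := hH j; positivity
    rw [e, e2, pow_succ (ρ / 2), pow_succ z, mul_div_mul_comm ((ρ / 2) ^ (j + 1)), ← ih]
    field_simp

theorem half_le_floor {t : ℝ} (ht : 1 ≤ t) : t / 2 ≤ (⌊t⌋₊ : ℝ) := by
  have h1 := Nat.lt_floor_add_one t
  have h2 : (1 : ℝ) ≤ ⌊t⌋₊ := by exact_mod_cast (Nat.one_le_floor_iff t).2 ht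
  linarith

theorem eta2_ge {x c D : ℝ} (hx : 0 < x) (hc : 1 ≤ c) (hD1 : 1 ≤ D)
    (hD : 128 ^ 2 * c ^ 2 ≤ D * x ^ 4) (j : ℕ) :
    4 * c ^ 2 * 4 ^ (j + 1) ≤ eta2 x j * (4 ^ 5 * D) ^ ((j + 1) ^ 2) := by
  have h1 : (1 / 4 ^ (j + 1) : ℝ) ^ (2 * j + 1) ≤ zj j ^ (2 * j + 1) :=
    pow_le_pow_left₀ (by positivity) (zj_ge j) _
  have h2 : D ≤ D ^ ((j + 1) ^ 2) := le_self_pow₀ hD1 (by positivity)
  have h3 : (4 : ℝ) ^ ((j + 1) * (2 * j + 1) + (2 * (j + 1) + (j + 2))) ≤ 4 ^ (5 * (j + 1) ^ 2) :=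
    pow_le_pow_right₀ (by norm_num) (by nlinarith)
  unfold eta2
  rw [mul_pow, ← pow_mul, div_mul_eq_mul_div, le_div_iff₀ (by positivity)]
  rw [div_pow, one_pow, ← pow_mul] at h1
  calc 4 * c ^ 2 * 4 ^ (j + 1) * (16 ^ (j + 1) * 128 ^ 2)
      = 1 / 4 ^ ((j + 1) * (2 * j + 1)) *
        (4 ^ ((j + 1) * (2 * j + 1) + (2 * (j + 1) + (j + 2))) * (128 ^ 2 * c ^ 2)) := by
        rw [pow_add (4 : ℝ) ((j + 1) * (2 * j + 1)), pow_add (4 : ℝ) (2 * (j + 1)),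
          pow_mul (4 : ℝ) 2, show (4 : ℝ) ^ 2 = 16 by norm_num]
        field_simp
        ring
    _ ≤ zj j ^ (2 * j + 1) * (4 ^ (5 * (j + 1) ^ 2) * (D ^ ((j + 1) ^ 2) * x ^ 4)) := by
        have h4 : 128 ^ 2 * c ^ 2 ≤ D ^ ((j + 1) ^ 2) * x ^ 4 :=
          hD.trans (mul_le_mul_of_nonneg_right h2 (by positivity))
        exact mul_le_mul h1 (mul_le_mul h3 h4 (by positivity) (by positivity)) (by positivity)
          (pow_pos (zj_pos j) _).le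
    _ = _ := by ring

theorem PP_ge {x D : ℝ} {τ σ H0 : ℕ} (hx : 0 < x) (hD1 : 1 ≤ D) (hτ : 1 ≤ τ)
    (hD : 128 ^ 2 * (16 * (6 + σ) : ℝ) ^ 2 ≤ D * x ^ 4)
    (h0 : τ * ((4 ^ 5 * D) ^ 4 * 2) ≤ PP x τ σ H0 0) (j : ℕ) :
    τ * ((4 ^ 5 * D) ^ ((j + 2) ^ 2) * 2 ^ (3 ^ j)) ≤ PP x τ σ H0 j ∧
      1 ≤ eta2 x j * PP x τ σ H0 j ^ 2 := by
  set E : ℝ := 4 ^ 5 * D with hE
  set c : ℝ := 16 * (6 + σ) with hc
  have hE1 : 1 ≤ E := by rw [hE]; nlinarith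
  have hσ : (0 : ℝ) ≤ σ := by positivity
  have hc1 : 1 ≤ c := by rw [hc]; nlinarith
  have hτR : (1 : ℝ) ≤ τ := by exact_mod_cast hτ
  have key : ∀ j, τ * (E ^ ((j + 2) ^ 2) * 2 ^ (3 ^ j)) ≤ PP x τ σ H0 j →
      1 ≤ eta2 x j * PP x τ σ H0 j ^ 2 := by
    intro j h
    have k1 := eta2_ge hx hc1 hD1 hD j
    have k2 : E ^ ((j + 1) ^ 2) ≤ PP x τ σ H0 j := by
      refine le_trans ?_ h
      have a1 : E ^ ((j + 1) ^ 2) ≤ E ^ ((j + 2) ^ 2) := pow_le_pow_right₀ hE1 (Nat.pow_le_pow_left (by omega) 2)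
      have a2 : (1 : ℝ) ≤ 2 ^ (3 ^ j) := one_le_pow₀ (by norm_num)
      have a3 : 0 ≤ E ^ ((j + 2) ^ 2) := by positivity
      calc _ ≤ E ^ ((j + 2) ^ 2) := a1
        _ ≤ E ^ ((j + 2) ^ 2) * 2 ^ (3 ^ j) := le_mul_of_one_le_right a3 a2
        _ ≤ _ := le_mul_of_one_le_left (by positivity) hτR
    have k3 : 1 ≤ E ^ ((j + 1) ^ 2) := one_le_pow₀ hE1
    have k4 : (1 : ℝ) ≤ 4 * c ^ 2 * 4 ^ (j + 1) := by
      have a1 : (1 : ℝ) ≤ 4 ^ (j + 1) := one_le_pow₀ (by norm_num)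
      have a2 : 1 ≤ c ^ 2 := one_le_pow₀ hc1
      nlinarith
    have k5 : 0 ≤ eta2 x j := by unfold eta2; have := zj_pos j; positivity
    have k6 : E ^ ((j + 1) ^ 2) ≤ PP x τ σ H0 j ^ 2 := by nlinarith
    exact k4.trans (k1.trans (mul_le_mul_of_nonneg_left k6 k5))
  suffices h : τ * (E ^ ((j + 2) ^ 2) * 2 ^ (3 ^ j)) ≤ PP x τ σ H0 j from ⟨h, key j h⟩
  induction j with
  | zero => simpa using h0
  | succ j ih =>
    have k0 := half_le_floor (key j ih)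
    have k1 := eta2_ge hx hc1 hD1 hD j
    have hA := Aj_pos τ σ (j + 1)
    have hA2 : Aj τ σ (j + 1) ^ 2 ≤ (c * 2 ^ (j + 1) * τ) ^ 2 :=
      pow_le_pow_left₀ hA.le (Aj_le τ σ (j + 1) hτ) 2
    set y : ℝ := E ^ ((j + 2) ^ 2) * 2 ^ (3 ^ j) with hy
    have hy0 : 0 < y := by positivity
    have hP0 : 0 < PP x τ σ H0 j := lt_of_lt_of_le (by positivity) ih
    have k5 : 0 ≤ eta2 x j := by unfold eta2; have := zj_pos j; positivity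
    simp only [PP]
    rw [le_div_iff₀ (by positivity)]
    have k6 : (τ * y) ^ 3 ≤ PP x τ σ H0 j ^ 3 := pow_le_pow_left₀ (by positivity) ih 3
    have k7 : E ^ ((j + 1 + 2) ^ 2) * 2 ^ (3 ^ (j + 1)) * E ^ ((j + 1) ^ 2) ≤ y ^ 3 := by
      rw [hy, mul_pow (E ^ ((j + 2) ^ 2)), ← pow_mul, ← pow_mul, mul_right_comm, ← pow_add,
        pow_succ 3]
      exact mul_le_mul_of_nonneg_right (pow_le_pow_right₀ hE1 (by ring_nf; omega)) (by positivity)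
    have hEp : 0 < E ^ ((j + 1) ^ 2) := by positivity
    set w : ℝ := E ^ ((j + 1 + 2) ^ 2) * 2 ^ (3 ^ (j + 1)) with hw
    have hw0 : 0 < w := by positivity
    have e4 : (c * 2 ^ (j + 1) * τ) ^ 2 = c ^ 2 * 4 ^ (j + 1) * τ ^ 2 := by
      rw [mul_pow, mul_pow, ← pow_mul, mul_comm (j + 1) 2, pow_mul]; norm_num
    calc τ * w * (2 * Aj τ σ (j + 1) ^ 2)
        ≤ τ * w * (2 * (c ^ 2 * 4 ^ (j + 1) * τ ^ 2)) := by rw [← e4]; gcongr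
      _ = τ ^ 3 * w * (4 * c ^ 2 * 4 ^ (j + 1)) / 2 := by ring
      _ ≤ τ ^ 3 * w * (eta2 x j * E ^ ((j + 1) ^ 2)) / 2 := by gcongr
      _ = eta2 x j * (τ ^ 3 * (w * E ^ ((j + 1) ^ 2))) / 2 := by ring
      _ ≤ eta2 x j * (τ ^ 3 * y ^ 3) / 2 := by gcongr
      _ ≤ eta2 x j * PP x τ σ H0 j ^ 3 / 2 := by rw [← mul_pow]; gcongr
      _ = PP x τ σ H0 j * (eta2 x j * PP x τ σ H0 j ^ 2 / 2) := by ring
      _ ≤ _ := by gcongr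

theorem exists_J (a : ℕ) : ∃ J : ℕ, a * 2 ^ J * (2 * J + 5) ≤ 2 * 3 ^ J := by
  have t1 := tendsto_pow_const_mul_const_pow_of_abs_lt_one 1 (r := 2 / 3) (by norm_num [abs_lt])
  have t0 := tendsto_pow_atTop_nhds_zero_of_lt_one (r := (2 / 3 : ℝ)) (by norm_num) (by norm_num)
  have t2 := ((t1.const_mul 2).add (t0.const_mul 5)).const_mul (a : ℝ)
  simp only [mul_zero, add_zero] at t2
  obtain ⟨J, hJ⟩ := (t2.eventually (gt_mem_nhds (by norm_num : (0 : ℝ) < 2))).exists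
  refine ⟨J, ?_⟩
  have h : (a : ℝ) * 2 ^ J * (2 * J + 5) ≤ 2 * 3 ^ J := by
    rw [div_pow] at hJ
    have e : (a : ℝ) * (2 * (J ^ 1 * (2 ^ J / 3 ^ J)) + 5 * (2 ^ J / 3 ^ J)) =
        a * 2 ^ J * (2 * J + 5) / 3 ^ J := by ring
    rw [e, div_lt_iff₀ (by positivity)] at hJ
    exact hJ.le
  exact_mod_cast h

theorem last_cond {x D Q P : ℝ} (hx : 0 < x) (hD1 : 1 ≤ D) (b5 : 1 ≤ D * x ^ 4) (J : ℕ)
    (hQ1 : 1 ≤ Q) (b2 : Q ^ (2 * J + 5) ≤ (2 ^ (3 ^ J)) ^ 2)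
    (b3 : (4 ^ 5 * D) ^ ((J + 2) ^ 2) * 2 ^ (3 ^ J) ≤ P) :
    (2 * Q) ^ 2 * (4 * (Q + 2) * (((Q + 2) / 2) ^ (J + 1) / (zj J ^ J * P)) ^ 2 / zj J ^ 2) ≤
      (x / 2 ^ (J + 1)) ^ 4 := by
  have hz := zj_pos J
  have hp : 0 < P := lt_of_lt_of_le (by positivity) b3
  have e : (2 * Q) ^ 2 * (4 * (Q + 2) * (((Q + 2) / 2) ^ (J + 1) /
      (zj J ^ J * P)) ^ 2 / zj J ^ 2) =
      16 * Q ^ 2 * (Q + 2) * ((Q + 2) / 2) ^ (2 * J + 2) * (1 / zj J) ^ (2 * J + 2) / P ^ 2 := by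
    rw [one_div_pow, show 2 * J + 2 = (J + 1) * 2 by ring, pow_mul, pow_mul, pow_succ (zj J) J]
    generalize ((Q + 2) / 2) ^ (J + 1) = w
    have : 0 < zj J ^ J := by positivity
    generalize zj J ^ J = v at *
    field_simp
    ring
  rw [e, div_le_iff₀ (by positivity), div_pow x, div_mul_eq_mul_div, le_div_iff₀ (by positivity)]
  have b1 : 1 / zj J ≤ 4 ^ (J + 1) := by
    rw [div_le_iff₀ hz, mul_comm, ← div_le_iff₀ (by positivity)]; exact zj_ge J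
  have hE1 : (1 : ℝ) ≤ 4 ^ 5 * D := by linarith
  have b4 : (4 : ℝ) ^ (3 + (J + 1) + (J + 1) * (2 * J + 2) + 2 * (J + 1)) * D ≤
      ((4 ^ 5 * D) ^ ((J + 2) ^ 2)) ^ 2 := by
    have a1 : 1 ≤ (4 ^ 5 * D) ^ ((J + 2) ^ 2) := one_le_pow₀ hE1
    refine le_trans ?_ (le_self_pow₀ a1 (by norm_num))
    rw [mul_pow, ← pow_mul]
    exact mul_le_mul (pow_le_pow_right₀ (by norm_num) (by ring_nf; omega))
      (le_self_pow₀ hD1 (by positivity)) (by positivity) (by positivity)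
  calc 16 * Q ^ 2 * (Q + 2) * ((Q + 2) / 2) ^ (2 * J + 2) * (1 / zj J) ^ (2 * J + 2) *
        (2 ^ (J + 1)) ^ 4
      ≤ 16 * Q ^ 2 * (4 * Q) * (2 * Q) ^ (2 * J + 2) * (4 ^ (J + 1)) ^ (2 * J + 2) *
        (2 ^ (J + 1)) ^ 4 := by gcongr <;> linarith
    _ = 4 ^ (3 + (J + 1) + (J + 1) * (2 * J + 2) + 2 * (J + 1)) * Q ^ (2 * J + 5) := by
        rw [pow_add (4 : ℝ) (3 + (J + 1) + (J + 1) * (2 * J + 2)), pow_add (4 : ℝ) (3 + (J + 1)),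
          pow_add (4 : ℝ) 3, ← pow_mul (4 : ℝ) (J + 1), mul_pow 2 Q (2 * J + 2),
          show (2 : ℝ) ^ (2 * J + 2) = 4 ^ (J + 1) by
            rw [show 2 * J + 2 = 2 * (J + 1) by ring, pow_mul]; norm_num,
          show ((2 : ℝ) ^ (J + 1)) ^ 4 = 4 ^ (2 * (J + 1)) by
            rw [← pow_mul, show (J + 1) * 4 = 2 * (2 * (J + 1)) by ring, pow_mul]; norm_num,
          show 2 * J + 5 = (2 * J + 2) + 3 by ring, pow_add Q (2 * J + 2) 3]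
        generalize (4 : ℝ) ^ ((J + 1) * (2 * J + 2)) = w1
        generalize (4 : ℝ) ^ (2 * (J + 1)) = w2
        generalize (4 : ℝ) ^ (J + 1) = w3
        generalize Q ^ (2 * J + 2) = w4
        ring
    _ ≤ 4 ^ (3 + (J + 1) + (J + 1) * (2 * J + 2) + 2 * (J + 1)) * (D * x ^ 4) *
        (2 ^ (3 ^ J)) ^ 2 :=
        mul_le_mul (le_mul_of_one_le_right (by positivity) b5) b2 (by positivity) (by positivity)
    _ = x ^ 4 * (4 ^ (3 + (J + 1) + (J + 1) * (2 * J + 2) + 2 * (J + 1)) * D *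
        (2 ^ (3 ^ J)) ^ 2) := by
        generalize (4 : ℝ) ^ (3 + (J + 1) + (J + 1) * (2 * J + 2) + 2 * (J + 1)) = w1
        ring
    _ ≤ x ^ 4 * (((4 ^ 5 * D) ^ ((J + 2) ^ 2)) ^ 2 * (2 ^ (3 ^ J)) ^ 2) := by gcongr
    _ ≤ _ := by rw [← mul_pow]; gcongr

theorem exists_params (x : ℝ) (hx : 0 < x) (σ : ℕ) :
    ∃ (τ J H0 : ℕ) (H : ℕ → ℕ), 0 < τ ∧ 0 < H0 ∧ (∀ j, 0 < H j) ∧
      (128 : ℝ) ^ 2 * (2 * H0) ≤ (τ : ℝ) ^ 2 * x ^ 4 ∧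
      (∀ j < J, (128 : ℝ) ^ 2 * (H j * Aj τ σ j ^ 2 * gam τ σ H0 H 2 (zj j) j ^ 2 / zj j) ≤
        (x / 2 ^ (j + 1)) ^ 4) ∧
      (2 * (2 : ℝ) ^ (σ * (2 ^ J * τ))) ^ 2 *
        (4 * ((2 : ℝ) ^ (σ * (2 ^ J * τ)) + 2) * Aj τ σ J ^ 2 *
          gam τ σ H0 H ((2 : ℝ) ^ (σ * (2 ^ J * τ)) + 2) (zj J) J ^ 2 / zj J ^ 2) ≤
        (x / 2 ^ (J + 1)) ^ 4 := by
  set c : ℝ := 16 * (6 + σ) with hc
  have hσ : (0 : ℝ) ≤ σ := by positivity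
  have hc1 : 1 ≤ c := by rw [hc]; nlinarith
  set D : ℝ := max 1 (128 ^ 2 * c ^ 2 / x ^ 4) with hDdef
  have hD1 : 1 ≤ D := le_max_left _ _
  have hD : 128 ^ 2 * c ^ 2 ≤ D * x ^ 4 := by
    rw [← div_le_iff₀ (by positivity)]; exact le_max_right _ _
  set E : ℝ := 4 ^ 5 * D with hE
  have hE1 : 1 ≤ E := by rw [hE]; nlinarith
  have hE4 : 1 ≤ E ^ 4 := one_le_pow₀ hE1
  obtain ⟨τ, hτ⟩ := exists_nat_ge (16 * D * E ^ 4)
  have hτD : 16 * D ≤ τ := le_trans (le_mul_of_one_le_right (by positivity) hE4) hτ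
  have hτR : (1 : ℝ) ≤ τ := by linarith
  have hτ1 : 1 ≤ τ := by exact_mod_cast hτR
  set t : ℝ := (τ : ℝ) ^ 2 * x ^ 4 / (2 * 128 ^ 2) with ht
  have hc2 : 1 ≤ c ^ 2 := one_le_pow₀ hc1
  have htD : (τ : ℝ) ^ 2 * c ^ 2 ≤ 2 * D * t := by
    have e : 2 * D * t = τ ^ 2 * (D * x ^ 4) / 128 ^ 2 := by rw [ht]; ring
    rw [e, le_div_iff₀ (by norm_num)]
    have := mul_le_mul_of_nonneg_left hD (sq_nonneg (τ : ℝ))
    linarith
  have ht1 : 1 ≤ t := by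
    by_contra h
    push Not at h
    have a1 : 2 * D * t ≤ 2 * D := mul_le_of_le_one_right (by positivity) h.le
    have a2 : (τ : ℝ) ^ 2 ≤ τ ^ 2 * c ^ 2 := le_mul_of_one_le_right (by positivity) hc2
    nlinarith
  have hfl := half_le_floor ht1
  set H0 := ⌊t⌋₊ with hH0
  have hH0p : 0 < H0 := (Nat.one_le_floor_iff t).2 ht1
  have h0 : τ * (E ^ 4 * 2) ≤ PP x τ σ H0 0 := by
    simp only [PP]
    have hA := Aj_pos τ σ 0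
    rw [le_div_iff₀ (by positivity)]
    have hA2 : Aj τ σ 0 ^ 2 ≤ (c * τ) ^ 2 :=
      pow_le_pow_left₀ hA.le (by simpa using Aj_le τ σ 0 hτ1) 2
    have a1 : 4 * E ^ 4 * c ^ 2 * τ ≤ H0 := by
      have a2 : 16 * D * E ^ 4 * (τ * c ^ 2) ≤ τ * (τ * c ^ 2) :=
        mul_le_mul_of_nonneg_right hτ (by positivity)
      have a3 : 4 * D * (4 * E ^ 4 * c ^ 2 * τ) ≤ 4 * D * H0 := by nlinarith
      exact le_of_mul_le_mul_left a3 (by positivity)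
    calc τ * (E ^ 4 * 2) * (2 * Aj τ σ 0 ^ 2) ≤ τ * (E ^ 4 * 2) * (2 * (c * τ) ^ 2) := by gcongr
      _ = τ ^ 2 * (4 * E ^ 4 * c ^ 2 * τ) := by ring
      _ ≤ _ := by gcongr
  have hPP := PP_ge hx hD1 hτ1 hD h0
  have hH : ∀ j, 0 < HH x τ σ H0 j := fun j => (Nat.one_le_floor_iff _).2 (hPP j).2
  have hP0 : ∀ j, 0 < PP x τ σ H0 j := fun j => lt_of_lt_of_le (by positivity) (hPP j).1
  obtain ⟨J, hJ⟩ := exists_J (σ * τ)
  refine ⟨τ, J, H0, HH x τ σ H0, hτ1, hH0p, hH, ?_, fun j _ => ?_, ?_⟩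
  · have := Nat.floor_le (by linarith : 0 ≤ t)
    rw [← hH0, ht, le_div_iff₀ (by norm_num)] at this
    linarith
  · have k := gam_mul x τ σ H0 hτ1 hH0p hH 2 (zj j) (zj_pos j).ne' j
    have hz := zj_pos j
    have hp := hP0 j
    have k2 : Aj τ σ j * gam τ σ H0 (HH x τ σ H0) 2 (zj j) j = 1 / (zj j ^ j * PP x τ σ H0 j) := by
      rw [eq_div_iff (by positivity), mul_comm (zj j ^ j), ← mul_assoc, k]
      field_simp
      simp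
    have k3 : (HH x τ σ H0 j : ℝ) ≤ eta2 x j * PP x τ σ H0 j ^ 2 :=
      Nat.floor_le (by linarith [(hPP j).2])
    rw [mul_assoc (HH x τ σ H0 j : ℝ), ← mul_pow, k2]
    calc _ ≤ (128 : ℝ) ^ 2 * (eta2 x j * PP x τ σ H0 j ^ 2 *
          (1 / (zj j ^ j * PP x τ σ H0 j)) ^ 2 / zj j) := by gcongr
      _ = _ := by
        unfold eta2
        rw [div_pow x, ← pow_mul (2 : ℝ), mul_comm (j + 1) 4, pow_mul (2 : ℝ) 4]
        field_simp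
        ring
  · set Q : ℝ := 2 ^ (σ * (2 ^ J * τ)) with hQ
    have hQ1 : 1 ≤ Q := one_le_pow₀ (by norm_num)
    have k := gam_mul x τ σ H0 hτ1 hH0p hH (Q + 2) (zj J) (zj_pos J).ne' J
    have hz := zj_pos J
    have hp := hP0 J
    have k2 : Aj τ σ J * gam τ σ H0 (HH x τ σ H0) (Q + 2) (zj J) J =
        ((Q + 2) / 2) ^ (J + 1) / (zj J ^ J * PP x τ σ H0 J) := by
      rw [eq_div_iff (by positivity), mul_comm (zj J ^ J), ← mul_assoc, k]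
      field_simp
    rw [mul_assoc (4 * (Q + 2)), ← mul_pow, k2]
    refine last_cond hx hD1 (le_trans ?_ hD) J hQ1 ?_
      (le_trans (le_mul_of_one_le_left (by positivity) hτR) (hPP J).1)
    · exact one_le_mul_of_one_le_of_one_le (by norm_num) hc2
    · rw [hQ, ← pow_mul, ← pow_mul]
      refine pow_le_pow_right₀ (by norm_num) ?_
      calc σ * (2 ^ J * τ) * (2 * J + 5) = σ * τ * 2 ^ J * (2 * J + 5) := by ring
        _ ≤ _ := hJ.trans (le_of_eq (by ring))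

end Vale.Agent.P184.PB
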