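import Vale.Agent.P184.Defs

/-!
# P184: the soft selection map
-/

namespace Vale.Agent.P184

open Finset

universe u

variable {X : Type u} (Y : Finset X) {p Q : ℕ}

theorem Z0_pos (p : ℕ) : 0 < Z0 p := by
  unfold Z0; positivity

theorem phi_nonneg (p : ℕ) (w : ℝ) : 0 ≤ phi p w :=
  pow_nonneg (le_max_right _ _) _

theorem phi_eq_zero (hp : 1 ≤ p) {w : ℝ} (hw : w ≤ 1 / 2) : phi p w = 0 := by
  rw [phi, max_eq_right (by linarith), zero_pow (by omega)]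

theorem dphi_nonneg (p : ℕ) (w : ℝ) : 0 ≤ dphi p w :=
  mul_nonneg (by positivity) (pow_nonneg (le_max_right _ _) _)

theorem dphi_eq_zero (hp : 2 ≤ p) {w : ℝ} (hw : w ≤ 1 / 2) : dphi p w = 0 := by
  rw [dphi, max_eq_right (by linarith), zero_pow (by omega), mul_zero]

theorem dphi_le (p : ℕ) {w : ℝ} (hw : w ≤ 1) : dphi p w ≤ 2 * p := by
  have : (max (2 * w - 1) 0) ^ (p - 1) ≤ 1 :=
    pow_le_one₀ (le_max_right _ _) (max_le (by linarith) zero_le_one)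
  exact mul_le_of_le_one_right (by positivity) this

theorem den_pos (W : X → ℝ) : 0 < ∑ y ∈ Y, phi p (W y) + Z0 p :=
  add_pos_of_nonneg_of_pos (Finset.sum_nonneg fun _ _ => phi_nonneg _ _) (Z0_pos p)

theorem soft_eq (W : X → ℝ) (x : X) :
    soft (sumY Y) p W x = phi p (W x) / (∑ y ∈ Y, phi p (W y) + Z0 p) := rfl

theorem soft_nonneg (W : X → ℝ) (x : X) : 0 ≤ soft (sumY Y) p W x :=
  div_nonneg (phi_nonneg _ _) (den_pos Y W).le

theorem sum_soft_le_one (W : X → ℝ) : ∑ x ∈ Y, soft (sumY Y) p W x ≤ 1 := by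
  simp only [soft_eq]
  rw [← Finset.sum_div, div_le_one (den_pos Y W)]
  linarith [Z0_pos p]

theorem half_lt_of_soft_ne_zero (S : (X → ℝ) → ℝ) (hp : 1 ≤ p) (W : X → ℝ) (x : X)
    (h : soft S p W x ≠ 0) : 1 / 2 < W x := by
  by_contra hw
  exact h (by rw [soft, phi_eq_zero hp (not_lt.1 hw), zero_div])

theorem le_sum_soft (W : X → ℝ) (x : X) (hx : x ∈ Y) (h : 3 / 4 ≤ W x) :
    15 / 16 ≤ ∑ x ∈ Y, soft (sumY Y) p W x := by
  simp only [soft_eq]
  rw [← Finset.sum_div, le_div_iff₀ (den_pos Y W)]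
  have h1 : phi p (W x) ≤ ∑ y ∈ Y, phi p (W y) :=
    Finset.single_le_sum (f := fun y => phi p (W y)) (fun _ _ => phi_nonneg _ _) hx
  have h2 : (1 / 2 : ℝ) ^ p ≤ phi p (W x) :=
    pow_le_pow_left₀ (by norm_num) (le_max_of_le_left (by linarith)) _
  have h3 : Z0 p = (1 / 2) ^ p / 16 := rfl
  have h4 : (0 : ℝ) < (1 / 2) ^ p := by positivity
  linarith

theorem nn_nonneg (W : X → ℝ) (x : X) : 0 ≤ nn Y p W x :=
  div_nonneg (dphi_nonneg _ _) (den_pos Y W).le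

theorem sum_le_of_supp {P : X → Prop} [DecidablePred P] {N : ℕ} (hN : (Y.filter P).card ≤ N)
    {f : X → ℝ} {b : ℝ} (hb : 0 ≤ b) (h0 : ∀ x, ¬ P x → f x ≤ 0) (h1 : ∀ x, f x ≤ b) :
    ∑ x ∈ Y, f x ≤ N * b := by
  rw [← Finset.sum_filter_add_sum_filter_not Y P]
  have e1 : ∑ x ∈ Y.filter P, f x ≤ (Y.filter P).card • b :=
    Finset.sum_le_card_nsmul _ _ _ fun x _ => h1 x
  have e2 : ∑ x ∈ Y.filter fun x => ¬ P x, f x ≤ 0 :=
    Finset.sum_nonpos fun x hx => h0 x (Finset.mem_filter.1 hx).2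
  have e3 : ((Y.filter P).card : ℝ) * b ≤ N * b :=
    mul_le_mul_of_nonneg_right (by exact_mod_cast hN) hb
  rw [nsmul_eq_mul] at e1
  linarith

theorem sum_nn_le (W : X → ℝ) (hW : Cand Y Q W) (hp : 2 ≤ p) (hQ : 64 * Q ≤ 2 ^ p) :
    ∑ x ∈ Y, nn Y p W x ≤ 8 * p := by
  simp only [nn]
  rw [← Finset.sum_div, div_le_iff₀ (den_pos Y W)]
  obtain ⟨n, rfl⟩ : ∃ n, p = n + 1 := ⟨p - 1, by omega⟩
  have h1 := sum_le_of_supp Y hW.2
    (f := fun x => (max (2 * W x - 1) 0) ^ n - 4 * phi (n + 1) (W x)) (b := (1 / 4) ^ n)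
    (by positivity) (fun x hx => by
      rw [phi_eq_zero (by omega) (not_lt.1 hx), max_eq_right (by linarith [not_lt.1 hx]),
        zero_pow (by omega)]
      simp) fun x => by
      rw [phi, pow_succ]
      have hy := le_max_right (2 * W x - 1) 0
      generalize max (2 * W x - 1) 0 = y at hy
      have hy' := pow_nonneg hy n
      rcases le_total y (1 / 4) with h | h
      · have := pow_le_pow_left₀ hy h n
        nlinarith
      · have : (0 : ℝ) < (1 / 4) ^ n := by positivity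
        nlinarith
  have h2 : (Q : ℝ) * (1 / 4) ^ n ≤ Z0 (n + 1) := by
    have h3 : (64 : ℝ) * Q ≤ 2 ^ (n + 1) := by exact_mod_cast hQ
    have h4 : (1 / 4 : ℝ) ^ n = (1 / 2) ^ n * (1 / 2) ^ n := by rw [← mul_pow]; norm_num
    have h5 : (2 : ℝ) ^ n * (1 / 2) ^ n = 1 := by rw [← mul_pow]; norm_num
    have h6 : (0 : ℝ) < (1 / 2) ^ n := by positivity
    rw [Z0, h4, pow_succ]
    rw [pow_succ] at h3
    have h7 : (Q : ℝ) * (1 / 2) ^ n ≤ 1 / 32 := by nlinarith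
    nlinarith
  rw [Finset.sum_sub_distrib, ← Finset.mul_sum] at h1
  simp only [dphi, Nat.add_sub_cancel]
  rw [← Finset.mul_sum]
  have h8 : (0 : ℝ) ≤ ((n + 1 : ℕ) : ℝ) := by positivity
  nlinarith [Z0_pos (n + 1)]

theorem abs_dsoft_le (W δ : X → ℝ) (hW : Cand Y Q W) (hp : 2 ≤ p) (hQ : 64 * Q ≤ 2 ^ p)
    {ε : ℝ} (hδ : ∀ x, |δ x| ≤ ε) (x : X) :
    |dsoft Y p W δ x| ≤ ε * (nn Y p W x + 8 * p * soft (sumY Y) p W x) := by
  have hε : 0 ≤ ε := (abs_nonneg _).trans (hδ x)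
  have h1 : ∀ y, |nn Y p W y * δ y| ≤ nn Y p W y * ε := fun y => by
    rw [abs_mul, abs_of_nonneg (nn_nonneg Y W y)]
    exact mul_le_mul_of_nonneg_left (hδ y) (nn_nonneg Y W y)
  have h2 : |∑ y ∈ Y, nn Y p W y * δ y| ≤ 8 * p * ε := by
    refine (Finset.abs_sum_le_sum_abs _ _).trans ((Finset.sum_le_sum fun y _ => h1 y).trans ?_)
    rw [← Finset.sum_mul]
    exact mul_le_mul_of_nonneg_right (sum_nn_le Y W hW hp hQ) hε
  refine (abs_sub _ _).trans ?_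
  rw [abs_mul (soft _ _ _ _), abs_of_nonneg (soft_nonneg Y W x)]
  have h3 := mul_le_mul_of_nonneg_left h2 (soft_nonneg (p := p) Y W x)
  linarith [h1 x]

theorem l1_dsoft_le (W δ : X → ℝ) (hW : Cand Y Q W) (hp : 2 ≤ p) (hQ : 64 * Q ≤ 2 ^ p)
    {ε : ℝ} (hε : 0 ≤ ε) (hδ : ∀ x, |δ x| ≤ ε) : l1 Y (dsoft Y p W δ) ≤ 16 * p * ε := by
  refine (Finset.sum_le_sum fun x _ => abs_dsoft_le Y W δ hW hp hQ hδ x).trans ?_
  rw [← Finset.mul_sum, Finset.sum_add_distrib, ← Finset.mul_sum]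
  have h1 := sum_nn_le Y W hW hp hQ
  have h2 := mul_le_mul_of_nonneg_left (sum_soft_le_one (p := p) Y W)
    (by positivity : (0 : ℝ) ≤ 8 * p)
  nlinarith

theorem dsoft_sub (W δ δ' : X → ℝ) (x : X) :
    dsoft Y p W (fun y => δ y - δ' y) x = dsoft Y p W δ x - dsoft Y p W δ' x := by
  simp only [dsoft, mul_sub, Finset.sum_sub_distrib]
  ring

theorem dsoft_sum {ι : Type*} (s : Finset ι) (W : X → ℝ) (c : ι → ℝ) (δ : ι → X → ℝ) (x : X) :
    dsoft Y p W (fun y => ∑ i ∈ s, c i * δ i y) x = ∑ i ∈ s, c i * dsoft Y p W (δ i) x := by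
  simp only [dsoft, mul_sub, Finset.sum_sub_distrib, Finset.mul_sum]
  rw [Finset.sum_comm (s := Y)]
  simp only [mul_left_comm]

theorem pow_taylor {y y' : ℝ} (hy : 0 ≤ y) (hy1 : y ≤ 1) (hy' : 0 ≤ y') (hy1' : y' ≤ 1) (n : ℕ) :
    |y' ^ (n + 1) - y ^ (n + 1) - (n + 1) * y ^ n * (y' - y)| ≤ (n + 1) ^ 2 * (y' - y) ^ 2 := by
  induction n with
  | zero => simp; positivity
  | succ n ih =>
    have e : y' ^ (n + 1 + 1) - y ^ (n + 1 + 1) - ((n + 1 : ℕ) + 1) * y ^ (n + 1) * (y' - y) =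
        y' * (y' ^ (n + 1) - y ^ (n + 1) - (n + 1) * y ^ n * (y' - y)) +
          (n + 1) * y ^ n * (y' - y) ^ 2 := by push_cast; ring
    rw [e]
    refine (abs_add_le _ _).trans ?_
    rw [abs_mul, abs_of_nonneg hy', abs_of_nonneg (a := (n + 1) * y ^ n * (y' - y) ^ 2)
      (by positivity)]
    have h1 := mul_le_of_le_one_left (abs_nonneg
      (y' ^ (n + 1) - y ^ (n + 1) - (n + 1) * y ^ n * (y' - y))) hy1'
    have h2 : (n + 1) * y ^ n * (y' - y) ^ 2 ≤ (n + 1) * (y' - y) ^ 2 :=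
      mul_le_mul_of_nonneg_right (mul_le_of_le_one_right (by positivity) (pow_le_one₀ hy hy1))
        (sq_nonneg _)
    have h3 : (0 : ℝ) ≤ n * (y' - y) ^ 2 := by positivity
    push_cast
    nlinarith [sq_nonneg (y' - y)]

theorem phi_lip (p : ℕ) {w w' : ℝ} (hw : w ≤ 1) (hw' : w' ≤ 1) :
    |phi p w' - phi p w| ≤ 2 * p * |w' - w| := by
  refine (abs_pow_sub_pow_le _ _ _).trans ?_
  have h1 : |max (2 * w' - 1) 0 - max (2 * w - 1) 0| ≤ 2 * |w' - w| := by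
    refine (abs_max_sub_max_le_abs _ _ _).trans_eq ?_
    rw [show 2 * w' - 1 - (2 * w - 1) = 2 * (w' - w) by ring, abs_mul, abs_two]
  have h2 : max |max (2 * w' - 1) 0| |max (2 * w - 1) 0| ^ (p - 1) ≤ 1 := by
    refine pow_le_one₀ (by positivity) (max_le ?_ ?_) <;>
      rw [abs_of_nonneg (le_max_right _ _)] <;> exact max_le (by linarith) zero_le_one
  refine (mul_le_of_le_one_right (by positivity) h2).trans ?_
  nlinarith [Nat.cast_nonneg (α := ℝ) p]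

theorem phi_taylor (hp : 2 ≤ p) {w w' : ℝ} (hw : w ≤ 1) (hw' : w' ≤ 1) :
    |phi p w' - phi p w - dphi p w * (w' - w)| ≤ (4 * p ^ 2 + 4 * p) * (w' - w) ^ 2 := by
  obtain ⟨n, rfl⟩ : ∃ n, p = n + 1 + 1 := ⟨p - 2, by omega⟩
  simp only [phi, dphi, Nat.add_sub_cancel]
  have h1 : |max (2 * w' - 1) 0 - max (2 * w - 1) 0| ≤ |2 * w' - 1 - (2 * w - 1)| :=
    abs_max_sub_max_le_abs _ _ _
  have h2 := sq_le_sq.2 h1
  have h3 := pow_taylor (le_max_right (2 * w - 1) 0) (max_le (by linarith) zero_le_one)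
    (le_max_right (2 * w' - 1) 0) (max_le (by linarith) zero_le_one) (n + 1)
  have h4 : |max (2 * w - 1) 0 ^ (n + 1) *
      (max (2 * w' - 1) 0 - max (2 * w - 1) 0 - 2 * (w' - w))| ≤ 4 * (w' - w) ^ 2 := by
    rcases le_total (2 * w - 1) 0 with h | h
    · rw [max_eq_right h]; simp; positivity
    · rw [max_eq_left h]
      rcases le_total (2 * w' - 1) 0 with h' | h'
      · rw [max_eq_right h', abs_of_nonneg (mul_nonneg (pow_nonneg h _) (by linarith))]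
        have : (2 * w - 1) ^ (n + 1) ≤ 2 * w - 1 := pow_le_of_le_one h (by linarith) (by omega)
        have h5 := mul_le_mul_of_nonneg_right this
          (by linarith : 0 ≤ 0 - (2 * w - 1) - 2 * (w' - w))
        nlinarith
      · rw [max_eq_left h', show 2 * w' - 1 - (2 * w - 1) - 2 * (w' - w) = 0 by ring]
        simp; positivity
  generalize max (2 * w' - 1) 0 = y' at *
  generalize max (2 * w - 1) 0 = y at *
  have e : y' ^ (n + 1 + 1) - y ^ (n + 1 + 1) - 2 * ((n + 1 + 1 : ℕ) : ℝ) * y ^ (n + 1) * (w' - w) =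
      (y' ^ (n + 1 + 1) - y ^ (n + 1 + 1) - ((n + 1 : ℕ) + 1) * y ^ (n + 1) * (y' - y)) +
        ((n + 1 : ℕ) + 1) * (y ^ (n + 1) * (y' - y - 2 * (w' - w))) := by push_cast; ring
  rw [e]
  refine (abs_add_le _ _).trans ?_
  rw [abs_mul, abs_of_nonneg (a := ((n + 1 : ℕ) : ℝ) + 1) (by positivity)]
  have h6 := mul_le_mul_of_nonneg_left h4 (by positivity : (0 : ℝ) ≤ (n + 1 : ℕ) + 1)
  have h7 := mul_le_mul_of_nonneg_left h2 (by positivity : (0 : ℝ) ≤ ((n + 1 : ℕ) + 1) ^ 2)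
  push_cast at *
  nlinarith

/-- Lipschitz and Taylor estimates with a constant depending only on `p` and `Q`. -/
theorem exists_soft_const (p Q : ℕ) (hp : 2 ≤ p) :
    ∃ c : ℝ, 1 ≤ c ∧ ∀ (X : Type u) (Y : Finset X) (W W' : X → ℝ) (ε : ℝ), Cand Y Q W →
      Cand Y Q W' → 0 ≤ ε → (∀ x, |W' x - W x| ≤ ε) →
      l1 Y (fun x => soft (sumY Y) p W' x - soft (sumY Y) p W x) ≤ c * ε ∧
      l1 Y (fun x => soft (sumY Y) p W' x - soft (sumY Y) p W x -
        dsoft Y p W (fun y => W' y - W y) x) ≤ c * ε ^ 2 := by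
  have hZ := Z0_pos p
  obtain ⟨a, ha⟩ : ∃ a : ℝ, a = ((Q + Q : ℕ) : ℝ) * (2 * p) := ⟨_, rfl⟩
  obtain ⟨b, hb⟩ : ∃ b : ℝ, b = ((Q + Q : ℕ) : ℝ) * (4 * p ^ 2 + 4 * p) := ⟨_, rfl⟩
  have ha0 : 0 ≤ a := by rw [ha]; positivity
  have hb0 : 0 ≤ b := by rw [hb]; positivity
  obtain ⟨c1, hc1⟩ : ∃ c1 : ℝ, c1 = 2 * a * (Z0 p)⁻¹ := ⟨_, rfl⟩
  obtain ⟨c2, hc2⟩ : ∃ c2 : ℝ, c2 = (2 * b + c1 * a) * (Z0 p)⁻¹ := ⟨_, rfl⟩
  have hc10 : 0 ≤ c1 := by rw [hc1]; positivity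
  have hc20 : 0 ≤ c2 := by rw [hc2]; positivity
  refine ⟨1 + c1 + c2, by linarith, fun X Y W W' ε hW hW' hε hd => ?_⟩
  have hT : (Y.filter fun y => 1 / 2 < W y ∨ 1 / 2 < W' y).card ≤ Q + Q := by
    classical
    rw [Finset.filter_or]
    exact (Finset.card_union_le _ _).trans (add_le_add hW.2 hW'.2)
  have hsq : ∀ x, (W' x - W x) ^ 2 ≤ ε ^ 2 := fun x => sq_le_sq' (abs_le.1 (hd x)).1 (abs_le.1 (hd x)).2
  have hu : ∑ x ∈ Y, |phi p (W' x) - phi p (W x)| ≤ a * ε := by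
    rw [ha, mul_assoc]
    refine sum_le_of_supp Y hT (by positivity) (fun x hx => ?_) fun x =>
      (phi_lip p (hW.1 x) (hW'.1 x)).trans (mul_le_mul_of_nonneg_left (hd x) (by positivity))
    rw [not_or, not_lt, not_lt] at hx
    simp [phi_eq_zero (by omega : 1 ≤ p) hx.1, phi_eq_zero (by omega : 1 ≤ p) hx.2]
  have hv : ∑ x ∈ Y, |dphi p (W x) * (W' x - W x)| ≤ a * ε := by
    rw [ha, mul_assoc]
    refine sum_le_of_supp Y hT (by positivity) (fun x hx => ?_) fun x => ?_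
    · rw [not_or, not_lt, not_lt] at hx
      simp [dphi_eq_zero hp hx.1]
    · rw [abs_mul, abs_of_nonneg (dphi_nonneg _ _)]
      exact mul_le_mul (dphi_le p (hW.1 x)) (hd x) (abs_nonneg _) (by positivity)
  have hR : ∑ x ∈ Y, |phi p (W' x) - phi p (W x) - dphi p (W x) * (W' x - W x)| ≤ b * ε ^ 2 := by
    rw [hb, mul_assoc]
    refine sum_le_of_supp Y hT (by positivity) (fun x hx => ?_) fun x =>
      (phi_taylor hp (hW.1 x) (hW'.1 x)).trans (mul_le_mul_of_nonneg_left (hsq x) (by positivity))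
    rw [not_or, not_lt, not_lt] at hx
    simp [phi_eq_zero (by omega : 1 ≤ p) hx.1, phi_eq_zero (by omega : 1 ≤ p) hx.2,
      dphi_eq_zero hp hx.1]
  have hD := den_pos (p := p) Y W
  have hD' := den_pos (p := p) Y W'
  obtain ⟨d, hd'⟩ : ∃ d : ℝ, d = (∑ y ∈ Y, phi p (W y) + Z0 p)⁻¹ := ⟨_, rfl⟩
  have hd0 : 0 ≤ d := by rw [hd']; positivity
  have hdZ : d ≤ (Z0 p)⁻¹ := by
    rw [hd']
    exact inv_anti₀ hZ (le_add_of_nonneg_left (Finset.sum_nonneg fun _ _ => phi_nonneg _ _))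
  have e1 : ∀ x, soft (sumY Y) p W' x - soft (sumY Y) p W x =
      d * (phi p (W' x) - phi p (W x) -
        soft (sumY Y) p W' x * ∑ y ∈ Y, (phi p (W' y) - phi p (W y))) := by
    intro x
    rw [hd', soft_eq, soft_eq, Finset.sum_sub_distrib]
    field_simp
    ring
  have e2 : ∀ x, dsoft Y p W (fun y => W' y - W y) x = d * (dphi p (W x) * (W' x - W x) -
      soft (sumY Y) p W x * ∑ y ∈ Y, dphi p (W y) * (W' y - W y)) := by
    intro x
    simp only [dsoft, nn, div_eq_mul_inv, ← hd', mul_sub d, Finset.mul_sum]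
    congr 1
    · ring
    · exact Finset.sum_congr rfl fun y _ => by ring
  have key : ∀ (f : X → ℝ) (B : ℝ), ∑ x ∈ Y, |f x| ≤ B →
      ∑ x ∈ Y, |f x - soft (sumY Y) p W' x * ∑ y ∈ Y, f y| ≤ 2 * B := by
    intro f B hB
    have h1 : |∑ y ∈ Y, f y| ≤ B := (Finset.abs_sum_le_sum_abs _ _).trans hB
    refine (Finset.sum_le_sum fun x _ => abs_sub _ _).trans ?_
    simp only [abs_mul, abs_of_nonneg (soft_nonneg Y W' _)]
    rw [Finset.sum_add_distrib, ← Finset.sum_mul]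
    have h2 := mul_le_of_le_one_left (abs_nonneg (∑ y ∈ Y, f y)) (sum_soft_le_one (p := p) Y W')
    linarith
  have L1 : l1 Y (fun x => soft (sumY Y) p W' x - soft (sumY Y) p W x) ≤ c1 * ε := by
    simp only [l1, e1, abs_mul, abs_of_nonneg hd0]
    rw [← Finset.mul_sum, hc1]
    refine (mul_le_mul hdZ (key _ _ hu) (Finset.sum_nonneg fun _ _ => abs_nonneg _)
      (by positivity)).trans_eq (by ring)
  refine ⟨L1.trans (mul_le_mul_of_nonneg_right (by linarith) hε), ?_⟩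
  have e3 : ∀ x, soft (sumY Y) p W' x - soft (sumY Y) p W x -
      dsoft Y p W (fun y => W' y - W y) x =
      d * ((phi p (W' x) - phi p (W x) - dphi p (W x) * (W' x - W x) - soft (sumY Y) p W' x *
        ∑ y ∈ Y, (phi p (W' y) - phi p (W y) - dphi p (W y) * (W' y - W y))) -
        (soft (sumY Y) p W' x - soft (sumY Y) p W x) *
          ∑ y ∈ Y, dphi p (W y) * (W' y - W y)) := by
    intro x
    rw [e2, Finset.sum_sub_distrib (f := fun y => phi p (W' y) - phi p (W y))]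
    linear_combination e1 x
  simp only [l1, e3, abs_mul, abs_of_nonneg hd0]
  rw [← Finset.mul_sum]
  have h3 : ∑ x ∈ Y, |(phi p (W' x) - phi p (W x) - dphi p (W x) * (W' x - W x) -
      soft (sumY Y) p W' x *
        ∑ y ∈ Y, (phi p (W' y) - phi p (W y) - dphi p (W y) * (W' y - W y))) -
        (soft (sumY Y) p W' x - soft (sumY Y) p W x) *
          ∑ y ∈ Y, dphi p (W y) * (W' y - W y)| ≤ 2 * (b * ε ^ 2) + c1 * ε * (a * ε) := by
    refine (Finset.sum_le_sum fun x _ => abs_sub _ _).trans ?_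
    rw [Finset.sum_add_distrib]
    refine add_le_add (key _ _ hR) ?_
    simp only [abs_mul]
    rw [← Finset.sum_mul]
    exact mul_le_mul L1 ((Finset.abs_sum_le_sum_abs _ _).trans hv) (abs_nonneg _) (by positivity)
  refine (mul_le_mul hdZ h3 (Finset.sum_nonneg fun _ _ => abs_nonneg _)
    (by positivity)).trans ?_
  have e4 : (Z0 p)⁻¹ * (2 * (b * ε ^ 2) + c1 * ε * (a * ε)) = c2 * ε ^ 2 := by rw [hc2]; ring
  rw [e4]
  exact mul_le_mul_of_nonneg_right (by linarith) (sq_nonneg _)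

end Vale.Agent.P184
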